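import Mathlib

/-!
P162: the Thorp shuffle, its law, convolution powers, total variation, mixing time.
Positions are `0, ..., 2k-1`. The pairs of positions `i` and `k+i` (`i < k`) are sent to the
pair of positions `2i`, `2i+1`, in an order chosen by the coin `ε i`.
-/

namespace Vale.Agent.Lib.P162

/-- One Thorp shuffle of `2k` positions with coins `ε`: position `i < k` goes to `2i + ε i`, and
position `k + i` goes to `2i + (not ε i)`. -/
def thorpPos (k : ℕ) (ε : Fin k → Bool) (p : Fin (2 * k)) : Fin (2 * k) :=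
  if h : p.val < k then
    ⟨2 * p.val + (ε ⟨p.val, h⟩).toNat, by
      have h2 := Bool.toNat_le (ε ⟨p.val, h⟩)
      omega⟩
  else
    ⟨2 * (p.val - k) + (!(ε ⟨p.val - k, by omega⟩)).toNat, by
      have h2 := Bool.toNat_le (!(ε ⟨p.val - k, by omega⟩))
      have := p.isLt
      omega⟩

lemma thorpPos_injective (k : ℕ) (ε : Fin k → Bool) : Function.Injective (thorpPos k ε) := by
  intro p q hpq
  have hv := congrArg Fin.val hpq
  unfold thorpPos at hv
  apply Fin.ext
  split_ifs at hv with h1 h2 h2
  · simp only at hv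
    have h3 := Bool.toNat_le (ε ⟨p.val, h1⟩)
    have h4 := Bool.toNat_le (ε ⟨q.val, h2⟩)
    omega
  · simp only at hv
    have h3 := Bool.toNat_le (ε ⟨p.val, h1⟩)
    have h4 := Bool.toNat_le (!(ε ⟨q.val - k, by omega⟩))
    have h5 : p.val = q.val - k := by omega
    have h6 : (⟨p.val, h1⟩ : Fin k) = ⟨q.val - k, by omega⟩ := Fin.ext h5
    rw [h6] at hv
    cases hε : ε ⟨q.val - k, by omega⟩ <;> simp [hε] at hv <;> omega
  · simp only at hv
    have h3 := Bool.toNat_le (ε ⟨q.val, h2⟩)
    have h4 := Bool.toNat_le (!(ε ⟨p.val - k, by omega⟩))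
    have h5 : q.val = p.val - k := by omega
    have h6 : (⟨q.val, h2⟩ : Fin k) = ⟨p.val - k, by omega⟩ := Fin.ext h5
    rw [h6] at hv
    cases hε : ε ⟨p.val - k, by omega⟩ <;> simp [hε] at hv <;> omega
  · simp only at hv
    have h3 := Bool.toNat_le (!(ε ⟨p.val - k, by omega⟩))
    have h4 := Bool.toNat_le (!(ε ⟨q.val - k, by omega⟩))
    omega

/-- The permutation of positions given by one Thorp shuffle with coins `ε`. -/
noncomputable def thorpPerm (k : ℕ) (ε : Fin k → Bool) : Equiv.Perm (Fin (2 * k)) :=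
  Equiv.ofBijective (thorpPos k ε) (Finite.injective_iff_bijective.1 (thorpPos_injective k ε))

/-- Law of one Thorp shuffle: the proportion of coin vectors producing `σ`. -/
noncomputable def thorpLaw (k : ℕ) (σ : Equiv.Perm (Fin (2 * k))) : ℝ :=
  ((Finset.univ.filter fun ε : Fin k → Bool => thorpPerm k ε = σ).card : ℝ) / 2 ^ k

/-- Convolution of two functions on a finite group. -/
def conv {G : Type*} [Group G] [Fintype G] (μ ν : G → ℝ) (g : G) : ℝ :=
  ∑ h : G, μ h * ν (h⁻¹ * g)

/-- The `t`-fold convolution power; `t = 0` gives the point mass at the identity. -/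
def convPow {G : Type*} [Group G] [Fintype G] [DecidableEq G] (μ : G → ℝ) : ℕ → G → ℝ
  | 0 => fun g => if g = 1 then 1 else 0
  | t + 1 => conv μ (convPow μ t)

/-- Total variation distance. -/
noncomputable def tv {G : Type*} [Fintype G] (μ ν : G → ℝ) : ℝ :=
  (1 / 2) * ∑ g : G, |μ g - ν g|

/-- Uniform law on a finite group. -/
noncomputable def unif (G : Type*) [Fintype G] (_ : G) : ℝ := 1 / (Fintype.card G : ℝ)

/-- The mixing time of the Thorp shuffle on `2k` positions. -/
noncomputable def tmix (k : ℕ) : ℕ :=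
  sInf {t : ℕ | tv (convPow (thorpLaw k) t) (unif (Equiv.Perm (Fin (2 * k)))) ≤ 1 / 4}

end Vale.Agent.Lib.P162
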