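import Vale.Agent.Lib.P162.Rep
import Vale.Agent.Lib.P162.Defs

/-!
P162: bit strings, coin flips of one bit, the block operator (product over all bits of the
averaged flips), its recursion on the top bit, and the identity
`(average Thorp operator)^(d+1) = blockOp (d+1)`.
-/

namespace Vale.Agent.Lib.P162

open Finset Equiv

set_option linter.unusedSectionVars false

variable {W : Type*} [NormedAddCommGroup W] [InnerProductSpace ℝ W]

/-- Bit strings of length `D`. -/
abbrev Bits (D : ℕ) := Fin D → Bool

/-- A coin for bit `i`: a Boolean function of the string not depending on bit `i`. -/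
def Coin {D : ℕ} (i : Fin D) :=
  {c : Bits D → Bool // ∀ x : Bits D, c (Function.update x i (!x i)) = c x}

noncomputable instance {D : ℕ} (i : Fin D) : Fintype (Coin i) := by
  classical exact Subtype.fintype _

instance {D : ℕ} (i : Fin D) : Nonempty (Coin i) := ⟨⟨fun _ => false, fun _ => rfl⟩⟩

/-- The map flipping bit `i` of `x` according to the coin. -/
def flipFun {D : ℕ} (i : Fin D) (c : Coin i) (x : Bits D) : Bits D :=
  Function.update x i (xor (x i) (c.1 x))

lemma flipFun_flipFun {D : ℕ} (i : Fin D) (c : Coin i) (x : Bits D) :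
    flipFun i c (flipFun i c x) = x := by
  unfold flipFun
  have h : c.1 (Function.update x i (xor (x i) (c.1 x))) = c.1 x := by
    cases hc : c.1 x
    · simp [hc]
    · have := c.2 x
      simpa [hc] using this
  rw [h]
  funext j
  by_cases hj : j = i
  · subst hj; simp
  · simp [Function.update_of_ne hj]

/-- The flip of bit `i` as a permutation. -/
def flipAt {D : ℕ} (i : Fin D) (c : Coin i) : Perm (Bits D) :=
  ⟨flipFun i c, flipFun i c, flipFun_flipFun i c, flipFun_flipFun i c⟩

/-- The average over all coins of the flips of bit `i`. -/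
noncomputable def coinAvg {D : ℕ} (i : Fin D) (ρ : IsoRep (Bits D) W) : W →L[ℝ] W :=
  (Fintype.card (Coin i) : ℝ)⁻¹ • ∑ c : Coin i, ρ.toHom (flipAt i c)

/-- The block operator: the product over all bits, in increasing order of the averaged flips. -/
noncomputable def blockOp (D : ℕ) (ρ : IsoRep (Bits D) W) : W →L[ℝ] W :=
  ((List.finRange D).map fun i => coinAvg i ρ).prod

/-- The action of `Perm S` on the copy `b` of `S` inside `S × Bool`. -/
def copyFun {S : Type*} [DecidableEq S] (b : Bool) (σ : Perm S) : Perm (S × Bool) where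
  toFun p := if p.2 = b then (σ p.1, p.2) else p
  invFun p := if p.2 = b then (σ⁻¹ p.1, p.2) else p
  left_inv p := by
    rcases p with ⟨x, c⟩
    by_cases h : c = b <;> simp [h]
  right_inv p := by
    rcases p with ⟨x, c⟩
    by_cases h : c = b <;> simp [h]

/-- The action of `Perm S` on the copy `b` of `S` inside `S × Bool`, as a homomorphism. -/
def copyHom {S : Type*} [DecidableEq S] (b : Bool) : Perm S →* Perm (S × Bool) where
  toFun := copyFun b
  map_one' := by
    ext ⟨x, c⟩ <;> by_cases h : c = b <;> simp [copyFun, h]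
  map_mul' σ τ := by
    ext ⟨x, c⟩ <;> by_cases h : c = b <;> simp [copyFun, h]

/-- `flipAll Y` flips the bit of the slot `(x, b)` for all sites `x ∈ Y`. -/
def flipAll {S : Type*} [DecidableEq S] (Y : Finset S) : Perm (S × Bool) where
  toFun p := (p.1, xor p.2 (decide (p.1 ∈ Y)))
  invFun p := (p.1, xor p.2 (decide (p.1 ∈ Y)))
  left_inv p := by simp
  right_inv p := by simp

/-- The average over all `Y` of `flipAll Y`: the orthogonal projection on invariant vectors. -/
noncomputable def flipAvg {S : Type*} [Fintype S] [DecidableEq S] (ρ : IsoRep (S × Bool) W) :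
    W →L[ℝ] W :=
  ((2 : ℝ) ^ Fintype.card S)⁻¹ • ∑ Y : Finset S, ρ.toHom (flipAll Y)

/-- The bijection adding a top bit. -/
def snocEquiv (D : ℕ) : Bits D × Bool ≃ Bits (D + 1) where
  toFun p := Fin.snoc p.1 p.2
  invFun x := (Fin.init x, x (Fin.last D))
  left_inv p := by simp
  right_inv x := by simp

/-- The conjugation homomorphism attached to a bijection. -/
def conjHom {α β : Type*} (e : α ≃ β) : Perm α →* Perm β := e.permCongrHom.toMonoidHom


/-- An operator commuting with the whole action commutes with the block operator. -/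
theorem blockOp_commute (D : ℕ) (ρ : IsoRep (Bits D) W) (E : W →L[ℝ] W)
    (hE : ∀ σ, Commute E (ρ.toHom σ)) : Commute E (blockOp D ρ) := by
  apply Commute.list_prod_right
  intro x hx
  rw [List.mem_map] at hx
  obtain ⟨i, _, rfl⟩ := hx
  unfold coinAvg
  apply Commute.smul_right
  apply Commute.sum_right
  intro c _
  exact hE _

/-- Averages are invariant under bijections of the index set. -/
lemma avg_congr {ι κ : Type*} [Fintype ι] [Fintype κ] (e : ι ≃ κ) (F : κ → (W →L[ℝ] W)) :
    (Fintype.card ι : ℝ)⁻¹ • ∑ i, F (e i) = (Fintype.card κ : ℝ)⁻¹ • ∑ k, F k := by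
  rw [Fintype.card_congr e, Equiv.sum_comp e F]

/-- The product of two averages. -/
lemma avg_mul {ι κ : Type*} [Fintype ι] [Fintype κ] (F : ι → (W →L[ℝ] W)) (G : κ → (W →L[ℝ] W)) :
    ((Fintype.card ι : ℝ)⁻¹ • ∑ i, F i) * ((Fintype.card κ : ℝ)⁻¹ • ∑ k, G k)
      = (Fintype.card (ι × κ) : ℝ)⁻¹ • ∑ p : ι × κ, F p.1 * G p.2 := by
  rw [smul_mul_smul_comm, Finset.sum_mul_sum, Fintype.sum_prod_type, Fintype.card_prod]
  push_cast
  rw [mul_inv]

/-! ### The top bit -/

lemma conjHom_apply {α β : Type*} (e : α ≃ β) (σ : Perm α) (z : β) :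
    conjHom e σ z = e (σ (e.symm z)) := rfl

lemma coin_last_snoc {D : ℕ} (c : Coin (Fin.last D)) (z : Bits (D + 1)) :
    c.1 (Fin.snoc (Fin.init z) false) = c.1 z := by
  cases hb : z (Fin.last D)
  · have : (Fin.snoc (Fin.init z) false : Bits (D + 1)) = z := by
      rw [← hb]; exact Fin.snoc_init_self z
    rw [this]
  · have h1 := c.2 z
    rw [hb] at h1
    have h2 : Function.update z (Fin.last D) (!true) = Fin.snoc (Fin.init z) false := by
      conv_lhs => rw [← Fin.snoc_init_self z]
      rw [Fin.update_snoc_last]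
      rfl
    rw [h2] at h1
    exact h1

/-- Coins for the top bit are subsets of the lower strings. -/
def coinLastEquiv (D : ℕ) : Coin (Fin.last D) ≃ Finset (Bits D) where
  toFun c := Finset.univ.filter fun x => c.1 (Fin.snoc x false) = true
  invFun Y := ⟨fun z => decide (Fin.init z ∈ Y), fun z => by
    simp only [Fin.init_update_last]⟩
  left_inv c := by
    apply Subtype.ext
    funext z
    simp only [Finset.mem_filter, Finset.mem_univ, true_and]
    rw [coin_last_snoc c z]
    simp
  right_inv Y := by
    ext x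
    simp

lemma mem_coinLast {D : ℕ} (c : Coin (Fin.last D)) (x : Bits D) :
    x ∈ coinLastEquiv D c ↔ c.1 (Fin.snoc x false) = true := by
  show x ∈ Finset.univ.filter _ ↔ _
  simp

/-- The flip of the top bit is conjugate to `flipAll`. -/
lemma flipAt_last (D : ℕ) (c : Coin (Fin.last D)) :
    conjHom (snocEquiv D) (flipAll (coinLastEquiv D c)) = flipAt (Fin.last D) c := by
  ext1 z
  rw [conjHom_apply]
  have h1 : (snocEquiv D).symm z = (Fin.init z, z (Fin.last D)) := rfl
  have h2 : decide (Fin.init z ∈ coinLastEquiv D c) = c.1 z := by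
    have h3 := mem_coinLast c (Fin.init z)
    rw [coin_last_snoc c z] at h3
    simp [h3]
  rw [h1]
  show Fin.snoc (Fin.init z) (xor (z (Fin.last D)) (decide (Fin.init z ∈ coinLastEquiv D c))) =
    Function.update z (Fin.last D) (xor (z (Fin.last D)) (c.1 z))
  rw [h2]
  conv_rhs => rw [← Fin.snoc_init_self z]
  rw [Fin.update_snoc_last]
  simp

/-- The averaged flip of the top bit is `flipAvg`. -/
lemma coinAvg_last (D : ℕ) (ρ : IsoRep (Bits (D + 1)) W) :
    coinAvg (Fin.last D) ρ = flipAvg (ρ.comp (conjHom (snocEquiv D))) := by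
  unfold coinAvg flipAvg
  have h := avg_congr (W := W) (coinLastEquiv D)
    (fun Y => (ρ.comp (conjHom (snocEquiv D))).toHom (flipAll Y))
  have hcard : (Fintype.card (Finset (Bits D)) : ℝ) = (2 : ℝ) ^ Fintype.card (Bits D) := by
    rw [Fintype.card_finset]
    push_cast
    rfl
  rw [hcard] at h
  rw [← h]
  congr 1
  refine Finset.sum_congr rfl fun c _ => ?_
  rw [IsoRep.comp_apply, flipAt_last]

/-! ### The lower bits -/

/-- A coin for a lower bit is a pair of coins, one for each value of the top bit. -/
def coinLowEquiv {D : ℕ} (i : Fin D) : Coin i.castSucc ≃ Coin i × Coin i where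
  toFun c :=
    (⟨fun x => c.1 (Fin.snoc x false), fun x => by
        show c.1 (Fin.snoc (Function.update x i (!x i)) false) = c.1 (Fin.snoc x false)
        have := c.2 (Fin.snoc x false)
        rw [Fin.snoc_castSucc] at this
        rw [Fin.snoc_update]
        exact this⟩,
     ⟨fun x => c.1 (Fin.snoc x true), fun x => by
        show c.1 (Fin.snoc (Function.update x i (!x i)) true) = c.1 (Fin.snoc x true)
        have := c.2 (Fin.snoc x true)
        rw [Fin.snoc_castSucc] at this
        rw [Fin.snoc_update]
        exact this⟩)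
  invFun p := ⟨fun z => if z (Fin.last D) then p.2.1 (Fin.init z) else p.1.1 (Fin.init z), fun z => by
    have h1 : Function.update z i.castSucc (!z i.castSucc) (Fin.last D) = z (Fin.last D) :=
      Function.update_of_ne (Fin.castSucc_lt_last i).ne' _ _
    show (if Function.update z i.castSucc (!z i.castSucc) (Fin.last D) = true
        then p.2.1 (Fin.init (Function.update z i.castSucc (!z i.castSucc)))
        else p.1.1 (Fin.init (Function.update z i.castSucc (!z i.castSucc))))
      = if z (Fin.last D) = true then p.2.1 (Fin.init z) else p.1.1 (Fin.init z)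
    rw [h1, Fin.init_update_castSucc]
    have h2 : z i.castSucc = Fin.init z i := rfl
    rw [h2]
    have h3 := p.1.2 (Fin.init z)
    have h4 := p.2.2 (Fin.init z)
    rw [h3, h4]⟩
  left_inv c := by
    apply Subtype.ext
    funext z
    simp only
    cases hb : z (Fin.last D)
    · simp only [Bool.false_eq_true, if_false]
      rw [← hb, Fin.snoc_init_self]
    · simp only [if_true]
      rw [← hb, Fin.snoc_init_self]
  right_inv p := by
    rcases p with ⟨p1, p2⟩
    refine Prod.ext (Subtype.ext ?_) (Subtype.ext ?_) <;> funext x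
    · show (if (Fin.snoc x false : Bits (D + 1)) (Fin.last D) = true
          then p2.1 (Fin.init (Fin.snoc x false : Bits (D + 1)))
          else p1.1 (Fin.init (Fin.snoc x false : Bits (D + 1)))) = p1.1 x
      rw [Fin.snoc_last, Fin.init_snoc]
      simp
    · show (if (Fin.snoc x true : Bits (D + 1)) (Fin.last D) = true
          then p2.1 (Fin.init (Fin.snoc x true : Bits (D + 1)))
          else p1.1 (Fin.init (Fin.snoc x true : Bits (D + 1)))) = p2.1 x
      rw [Fin.snoc_last, Fin.init_snoc]
      simp

/-- The flip of a lower bit, as a product of the flips on the two copies. -/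
lemma flipAt_low {D : ℕ} (i : Fin D) (c : Coin i.castSucc) :
    conjHom (snocEquiv D) (copyHom false (flipAt i (coinLowEquiv i c).1)
      * copyHom true (flipAt i (coinLowEquiv i c).2)) = flipAt i.castSucc c := by
  ext1 z
  rw [conjHom_apply]
  have h1 : (snocEquiv D).symm z = (Fin.init z, z (Fin.last D)) := rfl
  rw [h1]
  show snocEquiv D _ = Function.update z i.castSucc (xor (z i.castSucc) (c.1 z))
  cases hb : z (Fin.last D)
  · have h2 : (copyHom false (flipAt i (coinLowEquiv i c).1)
      * copyHom true (flipAt i (coinLowEquiv i c).2)) (Fin.init z, false)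
        = (flipFun i (coinLowEquiv i c).1 (Fin.init z), false) := by
      simp [copyHom, copyFun, flipAt]
    rw [h2]
    show (Fin.snoc (flipFun i (coinLowEquiv i c).1 (Fin.init z)) false : Bits (D + 1)) = _
    unfold flipFun
    rw [Fin.snoc_update, ← hb, Fin.snoc_init_self]
    have h3 : (coinLowEquiv i c).1.1 (Fin.init z) = c.1 z := by
      show c.1 (Fin.snoc (Fin.init z) false) = c.1 z
      rw [← hb, Fin.snoc_init_self]
    rw [h3]
    rfl
  · have h2 : (copyHom false (flipAt i (coinLowEquiv i c).1)
      * copyHom true (flipAt i (coinLowEquiv i c).2)) (Fin.init z, true)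
        = (flipFun i (coinLowEquiv i c).2 (Fin.init z), true) := by
      simp [copyHom, copyFun, flipAt]
    rw [h2]
    show (Fin.snoc (flipFun i (coinLowEquiv i c).2 (Fin.init z)) true : Bits (D + 1)) = _
    unfold flipFun
    rw [Fin.snoc_update, ← hb, Fin.snoc_init_self]
    have h3 : (coinLowEquiv i c).2.1 (Fin.init z) = c.1 z := by
      show c.1 (Fin.snoc (Fin.init z) true) = c.1 z
      rw [← hb, Fin.snoc_init_self]
    rw [h3]
    rfl

/-- The average flip of a lower bit is the product of the average flips on the two copies. -/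
lemma coinAvg_low {D : ℕ} (i : Fin D) (ρ : IsoRep (Bits (D + 1)) W) :
    coinAvg i.castSucc ρ =
      coinAvg i ((ρ.comp (conjHom (snocEquiv D))).comp (copyHom false)) *
      coinAvg i ((ρ.comp (conjHom (snocEquiv D))).comp (copyHom true)) := by
  unfold coinAvg
  rw [avg_mul]
  have h := avg_congr (W := W) (coinLowEquiv i)
    (fun p : Coin i × Coin i =>
      ((ρ.comp (conjHom (snocEquiv D))).comp (copyHom false)).toHom (flipAt i p.1) *
      ((ρ.comp (conjHom (snocEquiv D))).comp (copyHom true)).toHom (flipAt i p.2))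
  rw [← h]
  congr 1
  refine Finset.sum_congr rfl fun c _ => ?_
  simp only [IsoRep.comp_apply]
  rw [← map_mul, ← map_mul, flipAt_low]

/-- The copies commute. -/
lemma copyHom_commute {S : Type*} [DecidableEq S] (σ τ : Perm S) :
    Commute (copyHom false σ) (copyHom true τ) := by
  ext1 ⟨x, c⟩
  cases c <;> simp [copyHom, copyFun]

lemma coinAvg_commute {D : ℕ} (i k : Fin D)
    (ρ : IsoRep (Bits D × Bool) W) :
    Commute (coinAvg k (ρ.comp (copyHom true))) (coinAvg i (ρ.comp (copyHom false))) := by
  unfold coinAvg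
  apply Commute.smul_left
  apply Commute.smul_right
  apply Commute.sum_left
  intro c _
  apply Commute.sum_right
  intro c' _
  simp only [IsoRep.comp_apply]
  have := (copyHom_commute (flipAt i c') (flipAt k c)).symm.map ρ.toHom
  exact this

lemma list_prod_mul_of_commute {A : Type*} [Monoid A] {ι : Type*} (f g : ι → A) (l : List ι)
    (h : ∀ i ∈ l, ∀ k ∈ l, Commute (g k) (f i)) :
    (l.map fun i => f i * g i).prod = (l.map f).prod * (l.map g).prod := by
  induction l with
  | nil => simp
  | cons a l ih =>
    simp only [List.map_cons, List.prod_cons]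
    rw [ih (fun i hi k hk => h i (List.mem_cons_of_mem _ hi) k (List.mem_cons_of_mem _ hk))]
    have hc : Commute (g a) (l.map f).prod := by
      apply Commute.list_prod_right
      intro x hx
      rw [List.mem_map] at hx
      obtain ⟨i, hi, rfl⟩ := hx
      exact h i (List.mem_cons_of_mem _ hi) a List.mem_cons_self
    calc f a * g a * ((l.map f).prod * (l.map g).prod)
        = f a * (g a * (l.map f).prod) * (l.map g).prod := by simp only [mul_assoc]
      _ = f a * ((l.map f).prod * g a) * (l.map g).prod := by rw [hc.eq]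
      _ = f a * (l.map f).prod * (g a * (l.map g).prod) := by simp only [mul_assoc]

/-- Recursion of the block operator on the top bit. -/
theorem blockOp_succ (D : ℕ) (ρ : IsoRep (Bits (D + 1)) W) :
    blockOp (D + 1) ρ =
      blockOp D ((ρ.comp (conjHom (snocEquiv D))).comp (copyHom false)) *
      blockOp D ((ρ.comp (conjHom (snocEquiv D))).comp (copyHom true)) *
      flipAvg (ρ.comp (conjHom (snocEquiv D))) := by
  unfold blockOp
  rw [List.finRange_succ_last, List.map_append, List.map_map, List.prod_append]
  simp only [List.map_cons, List.map_nil, List.prod_cons, List.prod_nil, mul_one]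
  rw [coinAvg_last]
  congr 1
  have h1 : (fun i => coinAvg i ρ) ∘ Fin.castSucc = fun i : Fin D =>
      coinAvg i ((ρ.comp (conjHom (snocEquiv D))).comp (copyHom false)) *
      coinAvg i ((ρ.comp (conjHom (snocEquiv D))).comp (copyHom true)) := by
    funext i
    exact coinAvg_low i ρ
  rw [h1]
  apply list_prod_mul_of_commute
  intro i _ k _
  exact coinAvg_commute i k _

/-! ### The Thorp shuffle in binary -/

/-- The averaged Thorp operator. -/
noncomputable def avgThorp (k : ℕ) (ρ : IsoRep (Fin (2 * k)) W) : W →L[ℝ] W :=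
  ((2 : ℝ) ^ k)⁻¹ • ∑ ε : Fin k → Bool, ρ.toHom (thorpPerm k ε)

/-- The number with binary digits `x`. -/
def bval {D : ℕ} (x : Bits D) : ℕ := ∑ i : Fin D, (x i).toNat * 2 ^ i.val

lemma bval_snoc {D : ℕ} (x : Bits D) (b : Bool) :
    bval (Fin.snoc x b : Bits (D + 1)) = bval x + b.toNat * 2 ^ D := by
  unfold bval
  rw [Fin.sum_univ_castSucc]
  simp only [Fin.snoc_castSucc, Fin.snoc_last, Fin.val_castSucc, Fin.val_last]

lemma bval_cons {D : ℕ} (b : Bool) (x : Bits D) :
    bval (Fin.cons b x : Bits (D + 1)) = b.toNat + 2 * bval x := by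
  unfold bval
  rw [Fin.sum_univ_succ]
  simp only [Fin.cons_zero, Fin.cons_succ, Fin.val_zero, pow_zero, mul_one, Fin.val_succ]
  congr 1
  rw [Finset.mul_sum]
  refine Finset.sum_congr rfl fun i _ => ?_
  rw [pow_succ]
  ring

lemma bval_eq {D : ℕ} (z : Bits (D + 1)) :
    bval z = bval (Fin.init z) + (z (Fin.last D)).toNat * 2 ^ D := by
  conv_lhs => rw [← Fin.snoc_init_self z]
  exact bval_snoc _ _

lemma bval_lt {D : ℕ} (x : Bits D) : bval x < 2 ^ D := by
  induction D with
  | zero => simp [bval]
  | succ D ih =>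
    rw [bval_eq]
    have h1 := ih (Fin.init x)
    have h2 := Bool.toNat_le (x (Fin.last D))
    have h3 : (x (Fin.last D)).toNat * 2 ^ D ≤ 1 * 2 ^ D := Nat.mul_le_mul_right _ h2
    rw [pow_succ]
    omega

lemma bval_injective {D : ℕ} : Function.Injective (bval (D := D)) := by
  induction D with
  | zero => intro x y _; funext i; exact i.elim0
  | succ D ih =>
    intro x y h
    rw [bval_eq, bval_eq] at h
    have h1 := bval_lt (Fin.init x)
    have h2 := bval_lt (Fin.init y)
    have hlast : x (Fin.last D) = y (Fin.last D) := by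
      cases hx : x (Fin.last D) <;> cases hy : y (Fin.last D) <;> rw [hx, hy] at h <;>
        simp at h <;> first | rfl | omega
    rw [hlast] at h
    have hinit : Fin.init x = Fin.init y := ih (by omega)
    rw [← Fin.snoc_init_self x, ← Fin.snoc_init_self y, hinit, hlast]

/-- The binary encoding. -/
noncomputable def bitEquiv (d : ℕ) : Bits (d + 1) ≃ Fin (2 * 2 ^ d) :=
  Equiv.ofBijective
    (fun x => ⟨bval x, by have := bval_lt x; rw [pow_succ'] at this; exact this⟩)
    ((Fintype.bijective_iff_injective_and_card _).2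
      ⟨fun x y h => bval_injective (Fin.mk.inj_iff.1 h), by
        simp [Fintype.card_fin, pow_succ']⟩)

@[simp] lemma bitEquiv_val (d : ℕ) (x : Bits (d + 1)) : (bitEquiv d x).val = bval x := rfl

/-- The coin attached to Thorp coins. -/
def thorpCoin (d : ℕ) (ε : Fin (2 ^ d) → Bool) : Coin (Fin.last d) :=
  ⟨fun z => ε ⟨bval (Fin.init z), bval_lt _⟩, fun z => by
    simp only [Fin.init_update_last]⟩

lemma card_coin_last (d : ℕ) :
    Fintype.card (Coin (Fin.last d)) = Fintype.card (Fin (2 ^ d) → Bool) := by
  rw [Fintype.card_congr (coinLastEquiv d), Fintype.card_finset]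
  simp [Fintype.card_fin]

lemma thorpCoin_bijective (d : ℕ) : Function.Bijective (thorpCoin d) := by
  refine (Fintype.bijective_iff_injective_and_card _).2 ⟨?_, (card_coin_last d).symm⟩
  intro ε ε' h
  funext i
  -- surjectivity of the encoding of lower bits
  have hsurj : ∃ x : Bits d, bval x = i.val := by
    have hb : Function.Bijective (fun x : Bits d => (⟨bval x, bval_lt x⟩ : Fin (2 ^ d))) :=
      (Fintype.bijective_iff_injective_and_card _).2
        ⟨fun x y h => bval_injective (Fin.mk.inj_iff.1 h), by simp [Fintype.card_fin]⟩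
    obtain ⟨x, hx⟩ := hb.2 i
    exact ⟨x, congrArg Fin.val hx⟩
  obtain ⟨x, hx⟩ := hsurj
  have h1 := congrFun (congrArg Subtype.val h) (Fin.snoc x false)
  have h2 : (⟨bval (Fin.init (Fin.snoc x false : Bits (d + 1))), bval_lt _⟩ : Fin (2 ^ d)) = i := by
    apply Fin.ext
    show bval (Fin.init (Fin.snoc x false : Bits (d + 1))) = i.val
    rw [Fin.init_snoc, hx]
  show ε i = ε' i
  rw [← h2]
  exact h1

/-! ### Rotation of the bits -/

/-- Action of a permutation of the bit positions on the strings. -/
def actBits {D : ℕ} (r : Perm (Fin D)) : Perm (Bits D) where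
  toFun z := z ∘ r.symm
  invFun z := z ∘ r
  left_inv z := by funext i; simp
  right_inv z := by funext i; simp

lemma actBits_apply {D : ℕ} (r : Perm (Fin D)) (z : Bits D) (j : Fin D) :
    actBits r z j = z (r.symm j) := rfl

lemma actBits_symm_apply {D : ℕ} (r : Perm (Fin D)) (z : Bits D) (j : Fin D) :
    (actBits r)⁻¹ z j = z (r j) := rfl

lemma actBits_mul {D : ℕ} (r s : Perm (Fin D)) : actBits (r * s) = actBits r * actBits s := by
  ext1 z
  rfl

lemma actBits_one {D : ℕ} : actBits (1 : Perm (Fin D)) = 1 := by
  ext1 z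
  rfl

lemma actBits_pow {D : ℕ} (r : Perm (Fin D)) (t : ℕ) : actBits (r ^ t) = actBits r ^ t := by
  induction t with
  | zero => simp [actBits_one]
  | succ t ih => rw [pow_succ, pow_succ, actBits_mul, ih]

/-- The coin transported by a permutation of the bits. -/
def coinMove {D : ℕ} (r : Perm (Fin D)) (i : Fin D) : Coin i ≃ Coin (r i) where
  toFun c := ⟨fun z => c.1 ((actBits r)⁻¹ z), fun z => by
    have h : (actBits r)⁻¹ (Function.update z (r i) (!z (r i)))
        = Function.update ((actBits r)⁻¹ z) i (!((actBits r)⁻¹ z) i) := by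
      funext j
      rw [actBits_symm_apply]
      by_cases hj : j = i
      · subst hj
        simp [actBits_symm_apply]
      · rw [Function.update_of_ne (fun h => hj (r.injective h)), Function.update_of_ne hj,
          actBits_symm_apply]
    show c.1 ((actBits r)⁻¹ (Function.update z (r i) (!z (r i)))) = c.1 ((actBits r)⁻¹ z)
    rw [h]
    exact c.2 _⟩
  invFun c := ⟨fun z => c.1 (actBits r z), fun z => by
    have h : actBits r (Function.update z i (!z i))
        = Function.update (actBits r z) (r i) (!(actBits r z) (r i)) := by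
      funext j
      rw [actBits_apply]
      by_cases hj : j = r i
      · subst hj
        simp [actBits_apply]
      · rw [Function.update_of_ne hj, Function.update_of_ne (fun h => hj (by rw [← h]; simp)),
          actBits_apply]
    show c.1 (actBits r (Function.update z i (!z i))) = c.1 (actBits r z)
    rw [h]
    exact c.2 _⟩
  left_inv c := by
    apply Subtype.ext
    funext z
    show c.1 ((actBits r)⁻¹ (actBits r z)) = c.1 z
    simp
  right_inv c := by
    apply Subtype.ext
    funext z
    show c.1 (actBits r ((actBits r)⁻¹ z)) = c.1 z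
    simp

/-- Conjugating a flip by the action of a permutation of the bits. -/
lemma actBits_flipAt {D : ℕ} (r : Perm (Fin D)) (i : Fin D) (c : Coin i) :
    actBits r * flipAt i c = flipAt (r i) (coinMove r i c) * actBits r := by
  ext1 z
  show actBits r (flipFun i c z) = flipFun (r i) (coinMove r i c) (actBits r z)
  unfold flipFun
  have h2 : (coinMove r i c).1 (actBits r z) = c.1 z := by
    show c.1 ((actBits r)⁻¹ (actBits r z)) = c.1 z
    simp
  rw [h2]
  funext j
  rw [actBits_apply]
  by_cases hj : j = r i
  · subst hj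
    simp [actBits_apply]
  · rw [Function.update_of_ne hj, Function.update_of_ne (fun h => hj (by rw [← h]; simp)),
      actBits_apply]

/-- Conjugating the average flip by a permutation of the bits. -/
lemma act_coinAvg {D : ℕ} (r : Perm (Fin D)) (i : Fin D) (ρ : IsoRep (Bits D) W) :
    ρ.toHom (actBits r) * coinAvg i ρ = coinAvg (r i) ρ * ρ.toHom (actBits r) := by
  unfold coinAvg
  rw [mul_smul_comm, smul_mul_assoc, Finset.mul_sum, Finset.sum_mul]
  have h := avg_congr (W := W) (coinMove r i)
    (fun c => ρ.toHom (flipAt (r i) c) * ρ.toHom (actBits r))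
  rw [← h]
  congr 1
  refine Finset.sum_congr rfl fun c _ => ?_
  rw [← map_mul, ← map_mul, actBits_flipAt]

lemma rot_val (d : ℕ) (j : Fin (d + 1)) :
    (finRotate (d + 1) j).val = (j.val + 1) % (d + 1) := by
  rw [coe_finRotate]
  split_ifs with h
  · subst h
    simp
  · have : j.val ≠ d := fun h2 => h (Fin.ext h2)
    have h3 := j.isLt
    rw [Nat.mod_eq_of_lt (by omega)]

lemma rot_pow_val (d t : ℕ) (i : Fin (d + 1)) :
    ((finRotate (d + 1) ^ t) i).val = (i.val + t) % (d + 1) := by
  induction t with
  | zero => simp [Nat.mod_eq_of_lt i.isLt]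
  | succ t ih =>
    rw [pow_succ', Perm.mul_apply, rot_val, ih, Nat.mod_add_mod, add_assoc]

lemma rot_pow_self (d : ℕ) : finRotate (d + 1) ^ (d + 1) = 1 := by
  ext i
  rw [rot_pow_val]
  simp [Nat.mod_eq_of_lt i.isLt]

/-- Reduction of a natural number to a bit position. -/
def idx (d t : ℕ) : Fin (d + 1) := ⟨t % (d + 1), Nat.mod_lt _ (Nat.succ_pos d)⟩

lemma rot_pow_last (d n : ℕ) : (finRotate (d + 1) ^ (n + 1)) (Fin.last d) = idx d n := by
  apply Fin.ext
  rw [rot_pow_val]
  show (d + (n + 1)) % (d + 1) = n % (d + 1)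
  rw [show d + (n + 1) = n + (d + 1) by ring, Nat.add_mod_right]

/-- The rotation of the bit string. -/
def rotBits (d : ℕ) : Perm (Bits (d + 1)) := actBits (finRotate (d + 1))

lemma rotBits_eq_cons (d : ℕ) (z : Bits (d + 1)) :
    rotBits d z = Fin.cons (z (Fin.last d)) (Fin.init z) := by
  funext j
  show z ((finRotate (d + 1)).symm j) = _
  refine Fin.cases ?_ (fun j' => ?_) j
  · have h0 : (finRotate (d + 1)).symm 0 = Fin.last d := by
      rw [Equiv.symm_apply_eq, finRotate_last]
    rw [Fin.cons_zero, h0]
  · rw [Fin.cons_succ]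
    show _ = z j'.castSucc
    congr 1
    rw [Equiv.symm_apply_eq]
    apply Fin.ext
    rw [rot_val, Fin.val_succ, Fin.val_castSucc, Nat.mod_eq_of_lt (by have := j'.isLt; omega)]

/-- A Thorp shuffle is a flip of the top bit followed by the rotation. -/
lemma thorp_conj (d : ℕ) (ε : Fin (2 ^ d) → Bool) :
    conjHom (bitEquiv d) (rotBits d * flipAt (Fin.last d) (thorpCoin d ε))
      = thorpPerm (2 ^ d) ε := by
  ext x
  obtain ⟨z, rfl⟩ := (bitEquiv d).surjective x
  rw [conjHom_apply, Equiv.symm_apply_apply]
  show bval (rotBits d (flipFun (Fin.last d) (thorpCoin d ε) z)) = (thorpPos (2 ^ d) ε _).val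
  rw [rotBits_eq_cons, bval_cons]
  unfold flipFun
  rw [Fin.init_update_last, Function.update_self]
  have hc : (thorpCoin d ε).1 z = ε ⟨bval (Fin.init z), bval_lt _⟩ := rfl
  rw [hc]
  unfold thorpPos
  have hp : (bitEquiv d z).val = bval (Fin.init z) + (z (Fin.last d)).toNat * 2 ^ d := by
    rw [bitEquiv_val, bval_eq]
  have hi := bval_lt (Fin.init z)
  cases hb : z (Fin.last d)
  · rw [hb] at hp
    simp only [Bool.toNat_false, zero_mul, add_zero] at hp
    have h1 : (bitEquiv d z).val < 2 ^ d := by omega
    rw [dif_pos h1]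
    simp only [Bool.false_xor]
    have h2 : (⟨(bitEquiv d z).val, h1⟩ : Fin (2 ^ d)) = ⟨bval (Fin.init z), hi⟩ := Fin.ext hp
    rw [h2, hp]
    ring
  · rw [hb] at hp
    simp only [Bool.toNat_true, one_mul] at hp
    have h1 : ¬ (bitEquiv d z).val < 2 ^ d := by omega
    rw [dif_neg h1]
    simp only [Bool.true_xor]
    have h3 : (bitEquiv d z).val - 2 ^ d = bval (Fin.init z) := by omega
    have h2 : (⟨(bitEquiv d z).val - 2 ^ d, by omega⟩ : Fin (2 ^ d)) = ⟨bval (Fin.init z), hi⟩ :=
      Fin.ext h3
    rw [h2, h3]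
    ring

/-- The averaged Thorp operator is the rotation after the averaged flip of the top bit. -/
lemma avgThorp_eq (d : ℕ) (ρ : IsoRep (Fin (2 * 2 ^ d)) W) :
    avgThorp (2 ^ d) ρ =
      (ρ.comp (conjHom (bitEquiv d))).toHom (rotBits d) *
        coinAvg (Fin.last d) (ρ.comp (conjHom (bitEquiv d))) := by
  unfold avgThorp coinAvg
  have h := avg_congr (W := W) (Equiv.ofBijective _ (thorpCoin_bijective d))
    (fun c => (ρ.comp (conjHom (bitEquiv d))).toHom (flipAt (Fin.last d) c))
  rw [← h, mul_smul_comm, Finset.mul_sum]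
  have hcard : (Fintype.card (Fin (2 ^ d) → Bool) : ℝ) = (2 : ℝ) ^ (2 ^ d) := by
    simp [Fintype.card_fin]
  rw [hcard]
  congr 1
  refine Finset.sum_congr rfl fun ε _ => ?_
  simp only [IsoRep.comp_apply, Equiv.ofBijective_apply]
  rw [← map_mul, ← map_mul, thorp_conj]

/-- The power of the rotation-flip: the flips are pushed to the left. -/
lemma rot_flip_pow (d : ℕ) (ρ : IsoRep (Bits (d + 1)) W) (n : ℕ) :
    (ρ.toHom (rotBits d) * coinAvg (Fin.last d) ρ) ^ n =
      ((List.range n).map fun j : ℕ => coinAvg (idx d j) ρ).prod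
        * ρ.toHom (rotBits d) ^ n := by
  induction n with
  | zero => simp
  | succ n ih =>
    rw [pow_succ, ih, List.range_succ, List.map_append, List.prod_append]
    simp only [List.map_cons, List.map_nil, List.prod_cons, List.prod_nil, mul_one]
    have h1 : ρ.toHom (rotBits d) ^ (n + 1) = ρ.toHom (actBits (finRotate (d + 1) ^ (n + 1))) := by
      rw [actBits_pow, map_pow]
      rfl
    have h2 := act_coinAvg (finRotate (d + 1) ^ (n + 1)) (Fin.last d) ρ
    rw [rot_pow_last] at h2
    calc ((List.range n).map fun j : ℕ => coinAvg (idx d j) ρ).prod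
          * ρ.toHom (rotBits d) ^ n * (ρ.toHom (rotBits d) * coinAvg (Fin.last d) ρ)
        = ((List.range n).map fun j : ℕ => coinAvg (idx d j) ρ).prod
          * (ρ.toHom (rotBits d) ^ (n + 1) * coinAvg (Fin.last d) ρ) := by
          rw [pow_succ]; simp only [mul_assoc]
      _ = ((List.range n).map fun j : ℕ => coinAvg (idx d j) ρ).prod
          * (coinAvg (idx d n) ρ * ρ.toHom (rotBits d) ^ (n + 1)) := by
          rw [h1, h2]
      _ = _ := by simp only [mul_assoc]

/-- `d + 1` Thorp shuffles of `2 * 2 ^ d` positions are the block operator. -/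
theorem avgThorp_pow (d : ℕ) : ∃ e : Bits (d + 1) ≃ Fin (2 * 2 ^ d),
    ∀ ρ : IsoRep (Fin (2 * 2 ^ d)) W,
      avgThorp (2 ^ d) ρ ^ (d + 1) = blockOp (d + 1) (ρ.comp (conjHom e)) := by
  refine ⟨bitEquiv d, fun ρ => ?_⟩
  rw [avgThorp_eq, rot_flip_pow]
  have h1 : (ρ.comp (conjHom (bitEquiv d))).toHom (rotBits d) ^ (d + 1) = 1 := by
    have : rotBits d ^ (d + 1) = 1 := by
      unfold rotBits
      rw [← actBits_pow, rot_pow_self, actBits_one]
    rw [← map_pow, this, map_one]
  rw [h1, mul_one]
  unfold blockOp
  congr 1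
  rw [← List.map_coe_finRange_eq_range, List.map_map]
  congr 1
  funext i
  simp only [Function.comp_apply]
  congr 1
  apply Fin.ext
  exact Nat.mod_eq_of_lt i.isLt

end Vale.Agent.Lib.P162
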