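import Vale.Agent.Lib.P162.Rep

/-!
P162: rep-free lower bound for the Casimir on vectors orthogonal to the invariants of big subsets
(THM B in papers row P162/helper29).
-/

namespace Vale.Agent.Lib.P162

open Finset Equiv

set_option linter.unusedSectionVars false

variable {α : Type*} [DecidableEq α]
variable {W : Type*} [NormedAddCommGroup W] [InnerProductSpace ℝ W]

/-- Vectors fixed by all swaps inside `L`. -/
def IsoRep.inv (ρ : IsoRep α W) (L : Finset α) : Submodule ℝ W where
  carrier := {y | ∀ a ∈ L, ∀ b ∈ L, ρ.toHom (swap a b) y = y}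
  add_mem' := by
    intro x y hx hy a ha b hb
    simp only [map_add, hx a ha b hb, hy a ha b hb]
  zero_mem' := by
    intro a _ b _
    simp
  smul_mem' := by
    intro c x hx a ha b hb
    simp only [map_smul, hx a ha b hb]

lemma IsoRep.mem_inv (ρ : IsoRep α W) (L : Finset α) (y : W) :
    y ∈ ρ.inv L ↔ ∀ a ∈ L, ∀ b ∈ L, ρ.toHom (swap a b) y = y := Iff.rfl

lemma IsoRep.inv_mono (ρ : IsoRep α W) {L L' : Finset α} (h : L ⊆ L') {y : W}
    (hy : y ∈ ρ.inv L') : y ∈ ρ.inv L := fun a ha b hb => hy a (h ha) b (h hb)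

lemma IsoRep.swap_conj (ρ : IsoRep α W) (τ : Perm α) (a b : α) (x : W) :
    ρ.toHom τ (ρ.toHom (swap a b) x) = ρ.toHom (swap (τ a) (τ b)) (ρ.toHom τ x) := by
  have h : τ * swap a b = swap (τ a) (τ b) * τ := by
    rw [Equiv.swap_apply_apply]; group
  have := congrArg (fun f : W →L[ℝ] W => f x) (congrArg ρ.toHom h)
  simpa [map_mul] using this

lemma proj_comm {S : Submodule ℝ W} [S.HasOrthogonalProjection] (E : W →L[ℝ] W)
    (hsym : ∀ x y, inner ℝ (E x) y = inner ℝ x (E y)) (hE : ∀ y ∈ S, E y ∈ S) (x : W) :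
    E (S.starProjection x) = S.starProjection (E x) := by
  symm
  apply Submodule.eq_starProjection_of_mem_of_inner_eq_zero
    (hE _ (S.starProjection_apply_mem x))
  intro w hw
  rw [← map_sub, hsym]
  exact Submodule.starProjection_inner_eq_zero _ _ (hE _ hw)

lemma swap_mem_iff {M : Finset α} {a b : α} (ha : a ∈ M) (hb : b ∈ M) (x : α) :
    x ∈ M ↔ swap a b x ∈ M := by
  rw [Equiv.swap_apply_def]
  split_ifs with h1 h2
  · subst h1; simp [ha, hb]
  · subst h2; simp [ha, hb]
  · rfl

/-- The Casimir of `M` commutes with swaps inside `M`. -/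
lemma IsoRep.swap_cas (ρ : IsoRep α W) {M : Finset α} {a b : α} (ha : a ∈ M) (hb : b ∈ M)
    (x : W) : ρ.toHom (swap a b) (ρ.cas M x) = ρ.cas M (ρ.toHom (swap a b) x) := by
  have := ρ.cas_comm M (swap a b) (swap_mem_iff ha hb)
  exact congrArg (fun f : W →L[ℝ] W => f x) this

lemma IsoRep.cas_mem_inv (ρ : IsoRep α W) {L M : Finset α} (h : L ⊆ M) {y : W}
    (hy : y ∈ ρ.inv L) : ρ.cas M y ∈ ρ.inv L := by
  intro a ha b hb
  rw [ρ.swap_cas (h ha) (h hb), hy a ha b hb]

/-- On invariants of `L` the Casimir of `L` vanishes. -/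
lemma IsoRep.cas_eq_zero_of_mem_inv (ρ : IsoRep α W) {L : Finset α} {y : W}
    (hy : y ∈ ρ.inv L) : ρ.cas L y = 0 := by
  rw [ρ.cas_apply]
  have : ∑ p ∈ L.offDiag, (y - ρ.toHom (swap p.1 p.2) y) = 0 := by
    apply Finset.sum_eq_zero
    intro p hp
    rw [Finset.mem_offDiag] at hp
    rw [hy _ hp.1 _ hp.2.1, sub_self]
  rw [this, smul_zero]

/-- Splitting the Casimir of a disjoint union. -/
lemma IsoRep.cas_union (ρ : IsoRep α W) {K L : Finset α} (h : Disjoint K L) (x : W) :
    ρ.cas (K ∪ L) x = ρ.cas K x + ρ.cas L x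
      + ∑ c ∈ K, ∑ c' ∈ L, (x - ρ.toHom (swap c c') x) := by
  rw [ρ.cas_apply, ρ.cas_apply, ρ.cas_apply, Finset.offDiag_union h]
  have hd1 : Disjoint K.offDiag L.offDiag := by
    rw [Finset.disjoint_left]
    intro p hp hq
    rw [Finset.mem_offDiag] at hp hq
    exact (Finset.disjoint_left.1 h) hp.1 hq.1
  have hd2 : Disjoint (K.offDiag ∪ L.offDiag) (K ×ˢ L) := by
    rw [Finset.disjoint_left]
    intro p hp hq
    rw [Finset.mem_union, Finset.mem_offDiag, Finset.mem_offDiag] at hp
    rw [Finset.mem_product] at hq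
    rcases hp with hp | hp
    · exact (Finset.disjoint_left.1 h) hp.2.1 hq.2
    · exact (Finset.disjoint_left.1 h) hq.1 hp.1
  have hd3 : Disjoint (K.offDiag ∪ L.offDiag ∪ K ×ˢ L) (L ×ˢ K) := by
    rw [Finset.disjoint_left]
    intro p hp hq
    rw [Finset.mem_union, Finset.mem_union, Finset.mem_offDiag, Finset.mem_offDiag,
      Finset.mem_product] at hp
    rw [Finset.mem_product] at hq
    rcases hp with (hp | hp) | hp
    · exact (Finset.disjoint_left.1 h) hp.1 hq.1
    · exact (Finset.disjoint_left.1 h) hq.2 hp.2.1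
    · exact (Finset.disjoint_left.1 h) hp.1 hq.1
  rw [Finset.sum_union hd3, Finset.sum_union hd2, Finset.sum_union hd1]
  have hs1 : ∑ p ∈ K ×ˢ L, (x - ρ.toHom (swap p.1 p.2) x)
      = ∑ c ∈ K, ∑ c' ∈ L, (x - ρ.toHom (swap c c') x) := Finset.sum_product _ _ _
  have hs2 : ∑ p ∈ L ×ˢ K, (x - ρ.toHom (swap p.1 p.2) x)
      = ∑ c ∈ K, ∑ c' ∈ L, (x - ρ.toHom (swap c c') x) := by
    rw [Finset.sum_product, Finset.sum_comm]
    refine Finset.sum_congr rfl fun c _ => Finset.sum_congr rfl fun c' _ => ?_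
    rw [Equiv.swap_comm]
  rw [hs1, hs2]
  simp only [smul_add, add_assoc]
  have h2 : (1 / 2 : ℝ) • (∑ c ∈ K, ∑ c' ∈ L, (x - ρ.toHom (swap c c') x))
        + (1 / 2 : ℝ) • (∑ c ∈ K, ∑ c' ∈ L, (x - ρ.toHom (swap c c') x))
      = ∑ c ∈ K, ∑ c' ∈ L, (x - ρ.toHom (swap c c') x) := by
    rw [← add_smul]; norm_num
  rw [h2]

/-- If `φ` is `L`-invariant, `c ∉ L`, and `φ` is orthogonal to the invariants of `L + c`, then
the symmetrisation of `φ` vanishes. -/
lemma IsoRep.key_vanish (ρ : IsoRep α W) {L : Finset α} {c : α} (hc : c ∉ L) {φ : W}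
    (hφ : φ ∈ ρ.inv L) (hperp : ∀ z ∈ ρ.inv (insert c L), inner ℝ φ z = 0) :
    φ + ∑ c' ∈ L, ρ.toHom (swap c c') φ = 0 := by
  set y : W := φ + ∑ c' ∈ L, ρ.toHom (swap c c') φ with hy
  have hmem : y ∈ ρ.inv (insert c L) := by
    have hcase1 : ∀ b ∈ L, ρ.toHom (swap c b) y = y := by
      intro b hb
      have hcb : c ≠ b := fun h => hc (h ▸ hb)
      rw [hy, map_add, map_sum, ← Finset.add_sum_erase L _ hb, ← Finset.add_sum_erase L _ hb]
      rw [ρ.swap_swap]
      have : ∑ c' ∈ L.erase b, ρ.toHom (swap c b) (ρ.toHom (swap c c') φ)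
          = ∑ c' ∈ L.erase b, ρ.toHom (swap c c') φ := by
        refine Finset.sum_congr rfl fun c' hc' => ?_
        rw [Finset.mem_erase] at hc'
        have hcc' : c ≠ c' := fun h => hc (h ▸ hc'.2)
        have h1 := ρ.swap_conj (swap c c') c' b φ
        rw [Equiv.swap_apply_right, Equiv.swap_apply_of_ne_of_ne hcb.symm hc'.1.symm] at h1
        rw [← h1, hφ c' hc'.2 b hb]
      rw [this]
      abel
    intro a ha b hb
    rw [Finset.mem_insert] at ha hb
    rcases ha with rfl | ha
    · rcases hb with rfl | hb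
      · rw [Equiv.swap_self]
        exact congrArg (fun f : W →L[ℝ] W => f y) (map_one ρ.toHom)
      · exact hcase1 b hb
    · rcases hb with rfl | hb
      · rw [Equiv.swap_comm]; exact hcase1 a ha
      · -- both in `L`
        have hca : c ≠ a := fun h => hc (h ▸ ha)
        have hcb : c ≠ b := fun h => hc (h ▸ hb)
        rw [hy, map_add, map_sum, hφ a ha b hb]
        congr 1
        have hterm : ∀ c' ∈ L, ρ.toHom (swap a b) (ρ.toHom (swap c c') φ)
            = ρ.toHom (swap c (swap a b c')) φ := by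
          intro c' _
          rw [ρ.swap_conj, Equiv.swap_apply_of_ne_of_ne hca hcb, hφ a ha b hb]
        rw [Finset.sum_congr rfl hterm]
        refine Finset.sum_nbij' (fun x => swap a b x) (fun x => swap a b x) ?_ ?_ ?_ ?_ ?_
        · intro x hx; exact (swap_mem_iff ha hb x).1 hx
        · intro x hx; exact (swap_mem_iff ha hb x).1 hx
        · intro x _; simp
        · intro x _; simp
        · intro x _; rfl
  have hinner : inner ℝ y y = 0 := by
    conv_lhs => lhs; rw [hy]
    rw [inner_add_left, sum_inner, hperp y hmem]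
    have : ∀ c' ∈ L, inner ℝ (ρ.toHom (swap c c') φ) y = 0 := by
      intro c' hc'
      rw [ρ.inner_swap, hmem c (Finset.mem_insert_self _ _) c' (Finset.mem_insert_of_mem hc'),
        hperp y hmem]
    rw [Finset.sum_eq_zero this, add_zero]
  exact inner_self_eq_zero.1 hinner

/-- Swaps with disjoint supports commute, at the level of the action. -/
lemma IsoRep.swap_swap_comm (ρ : IsoRep α W) {a b u v : α} (hau : a ≠ u) (hav : a ≠ v)
    (hbu : b ≠ u) (hbv : b ≠ v) (x : W) :
    ρ.toHom (swap u v) (ρ.toHom (swap a b) x) = ρ.toHom (swap a b) (ρ.toHom (swap u v) x) := by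
  rw [ρ.swap_conj, Equiv.swap_apply_of_ne_of_ne hau hav, Equiv.swap_apply_of_ne_of_ne hbu hbv]

lemma IsoRep.inner_cas_eigen_nonneg (ρ : IsoRep α W) (M : Finset α) {f : W} (hf : f ≠ 0) {C : ℝ}
    (hC : ρ.cas M f = C • f) : 0 ≤ C := by
  have h := ρ.cas_nonneg M f
  rw [hC, inner_smul_right, real_inner_self_eq_norm_sq] at h
  have h2 : 0 < ‖f‖ ^ 2 := by positivity
  exact nonneg_of_mul_nonneg_left h h2

/-- THM B. If `f ≠ 0` is an eigenvector of the Casimir of `M` and `f` is orthogonal to the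
invariants of every `L ⊆ M` with `|L| > |M| - j`, then the eigenvalue is at least `|M| j / 2`. -/
theorem IsoRep.cas_lower [FiniteDimensional ℝ W] (ρ : IsoRep α W) (M : Finset α) (f : W)
    (hf : f ≠ 0) (C : ℝ) (hC : ρ.cas M f = C • f) (j : ℕ)
    (hj : ∀ L ⊆ M, M.card < L.card + j → ∀ y ∈ ρ.inv L, inner ℝ f y = 0) :
    (M.card : ℝ) * j / 2 ≤ C := by
  classical
  induction' hn : M.card using Nat.strong_induction_on with w ih generalizing M f C j
  have hC0 : 0 ≤ C := ρ.inner_cas_eigen_nonneg M hf hC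
  rcases Nat.eq_zero_or_pos j with hj0 | hjpos
  · subst hj0; simpa using hC0
  have hff : inner ℝ f f ≠ 0 := inner_self_ne_zero.2 hf
  -- the family of `K ⊆ M` whose complement sees `f`
  set bad : Finset (Finset α) :=
    M.powerset.filter (fun K => ¬ ∀ y ∈ ρ.inv (M \ K), inner ℝ f y = 0) with hbad
  have hinv_empty : ∀ y : W, y ∈ ρ.inv (∅ : Finset α) := by
    intro y a ha; simp at ha
  have hinv_single : ∀ (c : α) (y : W), y ∈ ρ.inv ({c} : Finset α) := by
    intro c y a ha b hb
    rw [Finset.mem_singleton] at ha hb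
    subst ha; subst hb
    rw [Equiv.swap_self]
    exact congrArg (fun f : W →L[ℝ] W => f y) (map_one ρ.toHom)
  have hMbad : M ∈ bad := by
    rw [hbad, Finset.mem_filter, Finset.mem_powerset]
    refine ⟨subset_rfl, fun h => hff (h f ?_)⟩
    rw [Finset.sdiff_self]
    exact hinv_empty f
  obtain ⟨K, hKbad, hKmin⟩ := Finset.exists_min_image bad Finset.card ⟨M, hMbad⟩
  rw [hbad, Finset.mem_filter, Finset.mem_powerset] at hKbad
  obtain ⟨hKM, hKsee⟩ := hKbad
  set L : Finset α := M \ K with hL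
  have hLM : L ⊆ M := Finset.sdiff_subset
  have hdisj : Disjoint K L := Finset.disjoint_sdiff
  have hunion : K ∪ L = M := Finset.union_sdiff_of_subset hKM
  have hcardL : L.card + K.card = w := by
    rw [hL, Finset.card_sdiff_add_card_eq_card hKM, hn]
  -- minimality, reformulated
  have hmin : ∀ L' ⊆ M, (M \ L').card < K.card → ∀ y ∈ ρ.inv L', inner ℝ f y = 0 := by
    intro L' hL' hlt y hy
    by_contra hne
    have hmem : M \ L' ∈ bad := by
      rw [hbad, Finset.mem_filter, Finset.mem_powerset]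
      refine ⟨Finset.sdiff_subset, fun h => hne (h y ?_)⟩
      rw [Finset.sdiff_sdiff_eq_self hL']
      exact hy
    exact absurd (hKmin _ hmem) (not_le.2 hlt)
  -- `j ≤ J`
  have hjJ : j ≤ K.card := by
    by_contra hlt
    rw [not_le] at hlt
    exact hKsee (hj L hLM (by omega))
  -- `M` nonempty
  have hMne : M.Nonempty := by
    by_contra hne
    rw [Finset.not_nonempty_iff_eq_empty] at hne
    have hcard : M.card = 0 := by simp [hne]
    apply hff
    apply hj ∅ (Finset.empty_subset _) (by simp [hcard]; omega) f (hinv_empty f)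
  -- `J < w`
  have hJw : K.card < w := by
    obtain ⟨c, hcM⟩ := hMne
    have hmem : M \ {c} ∈ bad := by
      rw [hbad, Finset.mem_filter, Finset.mem_powerset]
      refine ⟨Finset.sdiff_subset, fun h => hff (h f ?_)⟩
      rw [Finset.sdiff_sdiff_eq_self (Finset.singleton_subset_iff.2 hcM)]
      exact hinv_single c f
    have h1 := hKmin _ hmem
    have h2 : (M \ {c}).card < M.card := by
      apply Finset.card_lt_card
      exact Finset.sdiff_ssubset (Finset.singleton_subset_iff.2 hcM) (Finset.singleton_nonempty c)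
    omega
  -- the projection
  set P := (ρ.inv L).starProjection with hP
  set φ : W := P f with hφ
  have hφmem : φ ∈ ρ.inv L := (ρ.inv L).starProjection_apply_mem f
  have hφin : ∀ y ∈ ρ.inv L, inner ℝ φ y = inner ℝ f y := by
    intro y hy
    have := Submodule.starProjection_inner_eq_zero (K := ρ.inv L) f y hy
    rw [inner_sub_left] at this
    linarith
  have hφne : φ ≠ 0 := by
    intro h0
    apply hKsee
    intro y hy
    rw [← hφin y hy, h0, inner_zero_left]
  -- eigenvector
  have hcasφ : ρ.cas M φ = C • φ := by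
    have h1 := proj_comm (S := ρ.inv L) (ρ.cas M) (ρ.cas_symm M)
      (fun y hy => ρ.cas_mem_inv hLM hy) f
    rw [hφ, hP, h1, hC, map_smul]
  -- the cross term
  have hcross : ∀ c ∈ K, ∑ c' ∈ L, (φ - ρ.toHom (swap c c') φ) = ((L.card : ℝ) + 1) • φ := by
    intro c hc
    have hcL : c ∉ L := fun h => (Finset.disjoint_left.1 hdisj) hc h
    have hperp : ∀ z ∈ ρ.inv (insert c L), inner ℝ φ z = 0 := by
      intro z hz
      rw [hφin z (ρ.inv_mono (Finset.subset_insert _ _) hz)]
      have hsub : insert c L ⊆ M := Finset.insert_subset (hKM hc) hLM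
      refine hmin _ hsub ?_ z hz
      have heq : M \ insert c L = K.erase c := by
        ext x
        simp only [Finset.mem_sdiff, Finset.mem_insert, Finset.mem_erase, hL, not_or, not_and,
          not_not]
        constructor
        · rintro ⟨hxM, hx1, hx2⟩
          exact ⟨hx1, hx2 hxM⟩
        · rintro ⟨hxc, hxK⟩
          exact ⟨hKM hxK, hxc, fun _ => hxK⟩
      rw [heq]
      exact Finset.card_erase_lt_of_mem hc
    have h0 := ρ.key_vanish hcL hφmem hperp
    rw [Finset.sum_sub_distrib, Finset.sum_const, add_smul, one_smul, ← Nat.cast_smul_eq_nsmul ℝ]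
    have h3 : ∑ c' ∈ L, ρ.toHom (swap c c') φ = -φ := eq_neg_of_add_eq_zero_right h0
    rw [h3, sub_neg_eq_add]
  -- restricted eigenvector
  set Cbar : ℝ := C - (K.card : ℝ) * ((L.card : ℝ) + 1) with hCbar
  have hcasK : ρ.cas K φ = Cbar • φ := by
    have h1 := ρ.cas_union hdisj φ
    rw [hunion, hcasφ, ρ.cas_eq_zero_of_mem_inv hφmem, add_zero, Finset.sum_congr rfl hcross,
      Finset.sum_const, ← Nat.cast_smul_eq_nsmul ℝ, smul_smul] at h1
    rw [hCbar, sub_smul, h1]
    abel
  -- hypothesis for `(K, φ)`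
  have hperpK : ∀ L' ⊆ K, K.card < L'.card + (2 * K.card - w) →
      ∀ y ∈ ρ.inv L', inner ℝ φ y = 0 := by
    intro L' hL' hlt y hy
    have hL'M : L' ⊆ M := hL'.trans hKM
    have hcard' : L'.card ≤ K.card := Finset.card_le_card hL'
    have hcard2 : (M \ L').card + L'.card = M.card := Finset.card_sdiff_add_card_eq_card hL'M
    have hfperp : ∀ z ∈ ρ.inv L', inner ℝ f z = 0 :=
      hmin L' hL'M (by omega)
    -- `P y` is still `L'`-invariant
    have hPy : P y ∈ ρ.inv L' := by
      intro u hu v hv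
      have hpres : ∀ z ∈ ρ.inv L, ρ.toHom (swap u v) z ∈ ρ.inv L := by
        intro z hz a ha b hb
        have hu' : u ∉ L := fun h => (Finset.disjoint_left.1 hdisj) (hL' hu) h
        have hv' : v ∉ L := fun h => (Finset.disjoint_left.1 hdisj) (hL' hv) h
        rw [ρ.swap_swap_comm (a := u) (b := v) (u := a) (v := b)
          (fun h => hu' (h ▸ ha)) (fun h => hu' (h ▸ hb))
          (fun h => hv' (h ▸ ha)) (fun h => hv' (h ▸ hb)), hz a ha b hb]
      have h2 := proj_comm (S := ρ.inv L) (ρ.toHom (swap u v)) (ρ.inner_swap u v) hpres y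
      rw [hP, h2, hy u hu v hv]
    have h3 : inner ℝ φ y = inner ℝ f (P y) := by
      rw [hφ, hP]
      exact Submodule.inner_starProjection_left_eq_right _ _ _
    rw [h3]
    exact hfperp _ hPy
  have hJ2 : K.card < w := hJw
  have hind := ih K.card hJ2 K φ hφne Cbar hcasK (2 * K.card - w) hperpK rfl
  -- arithmetic
  have hj' : (2 * (K.card : ℝ) - w) ≤ ((2 * K.card - w : ℕ) : ℝ) := by
    rcases Nat.le_total w (2 * K.card) with h | h
    · rw [Nat.cast_sub h]; push_cast; linarith
    · have h' : (2 * (K.card : ℝ)) ≤ w := by exact_mod_cast h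
      have : (0 : ℝ) ≤ ((2 * K.card - w : ℕ) : ℝ) := Nat.cast_nonneg _
      linarith
  have hLcard : (L.card : ℝ) = w - K.card := by
    have : ((L.card + K.card : ℕ) : ℝ) = w := by rw [hcardL]
    push_cast at this
    linarith
  have hJnn : (0 : ℝ) ≤ K.card := Nat.cast_nonneg _
  have hjJ' : (j : ℝ) ≤ K.card := by exact_mod_cast hjJ
  have hwnn : (0 : ℝ) ≤ w := Nat.cast_nonneg _
  have h5 : (K.card : ℝ) * (2 * (K.card : ℝ) - w) / 2 ≤ Cbar := by
    have := mul_le_mul_of_nonneg_left hj' hJnn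
    linarith
  have h6 : C = Cbar + (K.card : ℝ) * ((L.card : ℝ) + 1) := by rw [hCbar]; ring
  rw [h6, hLcard]
  have h7 : (w : ℝ) * j ≤ w * K.card := mul_le_mul_of_nonneg_left hjJ' hwnn
  nlinarith

end Vale.Agent.Lib.P162
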