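import Vale.Agent.Lib.P162.TwoCopy

/-!
P162: THM A. The block operator is dominated by the exponential of the Casimir,
uniformly: `‖blockOp D ρ g‖² ≤ ⟨g, exp(-sd D • Cas) g⟩` where `2^D * sd D ≥ 1/104`.
-/

namespace Vale.Agent.Lib.P162

open Finset Equiv

set_option linter.unusedSectionVars false

variable {W : Type*} [NormedAddCommGroup W] [InnerProductSpace ℝ W]

/-- The contraction rates `s_0 = 1/52`, `s_{D+1} = s_D / 2 - 4 s_D ^ 2`. -/
noncomputable def sd : ℕ → ℝ
  | 0 => 1 / 52
  | D + 1 => sd D / 2 - 4 * sd D ^ 2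

lemma sd_bounds (D : ℕ) :
    (1 / 104 : ℝ) * (1 + (1 / 2) ^ D) ≤ 2 ^ D * sd D ∧ (2 : ℝ) ^ D * sd D ≤ 1 / 52 := by
  induction D with
  | zero => norm_num [sd]
  | succ D ih =>
    obtain ⟨h1, h2⟩ := ih
    have hp : (0 : ℝ) < 2 ^ D := by positivity
    have hq : (0 : ℝ) < (1 / 2) ^ D := by positivity
    have hpq : (2 : ℝ) ^ D * (1 / 2) ^ D = 1 := by
      rw [← mul_pow]; norm_num
    set c := (2 : ℝ) ^ D * sd D with hc
    have hc0 : 0 ≤ c := le_trans (by positivity) h1
    have hsd : sd D = c * (1 / 2) ^ D := by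
      rw [hc]
      calc sd D = ((2 : ℝ) ^ D * (1 / 2) ^ D) * sd D := by rw [hpq, one_mul]
        _ = _ := by ring
    have h3 : (2 : ℝ) ^ (D + 1) * sd (D + 1) = c - 8 * c ^ 2 * (1 / 2) ^ D := by
      have : sd (D + 1) = sd D / 2 - 4 * sd D ^ 2 := rfl
      rw [this, pow_succ, hsd]
      have e : (2 : ℝ) ^ D * 2 * (c * (1 / 2) ^ D / 2 - 4 * (c * (1 / 2) ^ D) ^ 2)
          = ((2 : ℝ) ^ D * (1 / 2) ^ D) * (c - 8 * c ^ 2 * (1 / 2) ^ D) := by ring
      rw [e, hpq, one_mul]
    have h4 : c ^ 2 ≤ (1 / 52) ^ 2 := pow_le_pow_left₀ hc0 h2 2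
    rw [h3]
    constructor
    · have h5 : (1 / 2 : ℝ) ^ (D + 1) = (1 / 2) ^ D / 2 := by rw [pow_succ]; ring
      rw [h5]
      nlinarith [mul_le_mul_of_nonneg_right h4 hq.le]
    · have : 0 ≤ 8 * c ^ 2 * (1 / 2 : ℝ) ^ D := by positivity
      linarith

lemma sd_nonneg (D : ℕ) : 0 ≤ sd D := by
  have h := (sd_bounds D).1
  have hp : (0 : ℝ) < 2 ^ D := by positivity
  have h2 : (0 : ℝ) ≤ (2 : ℝ) ^ D * sd D := le_trans (by positivity) h
  exact nonneg_of_mul_nonneg_right h2 hp

lemma conjHom_swap {α β : Type*} [DecidableEq α] [DecidableEq β] (e : α ≃ β) (a b : α) :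
    conjHom e (swap a b) = swap (e a) (e b) := by
  ext x
  simp only [conjHom, MulEquiv.toMonoidHom_eq_coe, MonoidHom.coe_coe, Equiv.permCongrHom_coe,
    Equiv.permCongr_apply]
  by_cases h1 : x = e a
  · subst h1; simp
  · by_cases h2 : x = e b
    · subst h2; simp
    · rw [swap_apply_of_ne_of_ne h1 h2, swap_apply_of_ne_of_ne]
      · simp
      · intro h; apply h1; rw [← h]; simp
      · intro h; apply h2; rw [← h]; simp

lemma cas_conj {α β : Type*} [DecidableEq α] [DecidableEq β] [Fintype α] [Fintype β] (e : α ≃ β)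
    (ρ : IsoRep β W) : (ρ.comp (conjHom e)).cas univ = ρ.cas univ := by
  unfold IsoRep.cas
  congr 1
  refine Finset.sum_nbij' (fun p => (e p.1, e p.2)) (fun p => (e.symm p.1, e.symm p.2))
    ?_ ?_ ?_ ?_ ?_
  · intro p hp
    simp only [Finset.mem_offDiag, Finset.mem_univ, true_and] at hp ⊢
    exact fun h => hp (e.injective h)
  · intro p hp
    simp only [Finset.mem_offDiag, Finset.mem_univ, true_and] at hp ⊢
    exact fun h => hp (e.symm.injective h)
  · intro p _; simp
  · intro p _; simp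
  · intro p _
    simp only [IsoRep.comp_apply, conjHom_swap]

theorem block_bound [CompleteSpace W] (D : ℕ) (ρ : IsoRep (Bits D) W) (g : W) :
    ‖blockOp D ρ g‖ ^ 2 ≤ inner ℝ g (NormedSpace.exp ((-(sd D)) • ρ.cas univ) g) := by
  induction D generalizing g with
  | zero =>
    have h1 : blockOp 0 ρ = 1 := by simp [blockOp]
    have h2 : ρ.cas univ = 0 := by
      unfold IsoRep.cas
      have : (univ : Finset (Bits 0)).offDiag = ∅ := by
        ext p
        simp only [Finset.mem_offDiag, Finset.mem_univ, true_and, Finset.notMem_empty, iff_false,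
          not_not]
        exact Subsingleton.elim _ _
      simp [this]
    rw [h1, h2]
    simp [real_inner_self_eq_norm_sq, NormedSpace.exp_zero]
  | succ D ih =>
    have hcard : Fintype.card (Bits D) = 2 ^ D := by simp
    have hm : 1 ≤ Fintype.card (Bits D) := by
      rw [hcard]; exact Nat.one_le_two_pow
    have hs2 : 52 * (Fintype.card (Bits D) : ℝ) * sd D ≤ 1 := by
      rw [hcard]
      have := (sd_bounds D).2
      push_cast
      linarith
    have key := step_bound hm (sd_nonneg D) hs2 (blockOp D) ih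
      (fun ρ' E hE => blockOp_commute D ρ' E hE) (ρ.comp (conjHom (snocEquiv D))) g
    rw [blockOp_succ]
    rw [cas_conj] at key
    have e : sd (D + 1) = sd D / 2 - 4 * sd D ^ 2 := rfl
    rw [e]
    simpa using key

end Vale.Agent.Lib.P162
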