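import Vale.Agent.Lib.P162.CasimirBound

/-!
P162: the left regular action and the final trace bound (THM C in papers row P162/helper29).
-/

namespace Vale.Agent.Lib.P162

open Finset Equiv

set_option linter.unusedSectionVars false

section general

variable {W : Type*} [NormedAddCommGroup W] [InnerProductSpace ℝ W] [CompleteSpace W]

lemma exp_eigen (A : W →L[ℝ] W) (v : W) (c : ℝ) (hv : A v = c • v) (s : ℝ) :
    NormedSpace.exp (s • A) v = Real.exp (s * c) • v := by
  have hpow : ∀ n : ℕ, ((s • A) ^ n) v = (s * c) ^ n • v := by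
    intro n
    induction n with
    | zero => simp
    | succ n ih =>
      rw [pow_succ', ContinuousLinearMap.mul_apply, ih, map_smul,
        ContinuousLinearMap.smul_apply, hv, smul_smul, smul_smul]
      congr 1
      ring
  have h1 : HasSum (fun n : ℕ => ((n.factorial : ℝ)⁻¹) • (s • A) ^ n)
      (NormedSpace.exp (s • A)) := NormedSpace.exp_series_hasSum_exp' (𝕂 := ℝ) (s • A)
  have h2 := h1.mapL (ContinuousLinearMap.apply ℝ W v)
  have h3 : HasSum (fun n : ℕ => ((n.factorial : ℝ)⁻¹) • (s * c) ^ n) (Real.exp (s * c)) := by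
    have := NormedSpace.exp_series_hasSum_exp' (𝕂 := ℝ) (s * c)
    rwa [← Real.exp_eq_exp_ℝ] at this
  have h4 := h3.smul_const v
  refine h2.unique ?_
  convert h4 using 2 with n
  simp only [ContinuousLinearMap.apply_apply, ContinuousLinearMap.smul_apply, hpow, smul_smul,
    smul_eq_mul]

lemma decay (G A : W →L[ℝ] W) (s : ℝ) (hcomm : Commute G A)
    (hG : ∀ g, ‖G g‖ ^ 2 ≤ inner ℝ g (NormedSpace.exp (-(s) • A) g))
    (v : W) (c : ℝ) (hv : A v = c • v) (J : ℕ) :
    ‖(G ^ J) v‖ ^ 2 ≤ Real.exp (-(J * s * c)) * ‖v‖ ^ 2 := by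
  induction J with
  | zero => simp
  | succ J ih =>
    set u := (G ^ J) v with hu
    have hAu : A u = c • u := by
      have h := (hcomm.pow_left J).eq
      have h2 := congrArg (fun f : W →L[ℝ] W => f v) h
      simp only [ContinuousLinearMap.mul_apply, hv, map_smul] at h2
      rw [hu, ← h2]
    have h1 : (G ^ (J + 1)) v = G u := by
      rw [pow_succ', ContinuousLinearMap.mul_apply]
    rw [h1]
    have h2 := hG u
    rw [exp_eigen A u c hAu, inner_smul_right, real_inner_self_eq_norm_sq] at h2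
    calc ‖G u‖ ^ 2 ≤ Real.exp (-s * c) * ‖u‖ ^ 2 := h2
      _ ≤ Real.exp (-s * c) * (Real.exp (-(J * s * c)) * ‖v‖ ^ 2) :=
          mul_le_mul_of_nonneg_left ih (Real.exp_pos _).le
      _ = Real.exp (-(((J + 1 : ℕ) : ℝ) * s * c)) * ‖v‖ ^ 2 := by
          rw [← mul_assoc, ← Real.exp_add]
          congr 2
          push_cast
          ring

lemma hs_adj [FiniteDimensional ℝ W] {ι κ : Type*} [Fintype ι] [Fintype κ] (A : W →L[ℝ] W)
    (b : OrthonormalBasis ι ℝ W) (e : OrthonormalBasis κ ℝ W) :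
    ∑ i, ‖A (b i)‖ ^ 2 = ∑ k, ‖(ContinuousLinearMap.adjoint A) (e k)‖ ^ 2 := by
  have h1 : ∀ i, ‖A (b i)‖ ^ 2 = ∑ k, ‖inner ℝ (e k) (A (b i))‖ ^ 2 := fun i =>
    (e.sum_sq_norm_inner_right _).symm
  have h2 : ∀ k, ‖(ContinuousLinearMap.adjoint A) (e k)‖ ^ 2
      = ∑ i, ‖inner ℝ (b i) ((ContinuousLinearMap.adjoint A) (e k))‖ ^ 2 := fun k =>
    (b.sum_sq_norm_inner_right _).symm
  simp_rw [h1, h2]
  rw [Finset.sum_comm]
  refine Finset.sum_congr rfl fun k _ => Finset.sum_congr rfl fun i _ => ?_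
  rw [ContinuousLinearMap.adjoint_inner_right, real_inner_comm]

lemma hs_eq [FiniteDimensional ℝ W] {ι κ : Type*} [Fintype ι] [Fintype κ] (A : W →L[ℝ] W)
    (b : OrthonormalBasis ι ℝ W) (e : OrthonormalBasis κ ℝ W) :
    ∑ i, ‖A (b i)‖ ^ 2 = ∑ k, ‖A (e k)‖ ^ 2 := by
  rw [hs_adj A b e, hs_adj A e e]

lemma sum_exp_bound {ι : Type*} [Fintype ι] (lam : ι → ℝ) (hlam : ∀ i, 0 ≤ lam i) (n : ℕ)
    (hn : 0 < n) (T : ℝ) (hT : 0 ≤ T)
    (hcount : ∀ j : ℕ, (univ.filter (fun i => lam i < (n : ℝ) * (j + 1) / 2)).card ≤ n ^ (2 * j))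
    (hx : (n : ℝ) ^ 2 * Real.exp (-(T * n / 2)) < 1) :
    ∑ i, Real.exp (-(T * lam i)) ≤
      1 + ((n : ℝ) ^ 2 * Real.exp (-(T * n / 2))) / (1 - (n : ℝ) ^ 2 * Real.exp (-(T * n / 2))) := by
  classical
  have hn' : (0 : ℝ) < n := by exact_mod_cast hn
  set y := Real.exp (-(T * n / 2)) with hy
  have hy0 : 0 < y := Real.exp_pos _
  set x := (n : ℝ) ^ 2 * y with hxdef
  have hx0 : 0 ≤ x := by positivity
  let jj : ι → ℕ := fun i => ⌊2 * lam i / n⌋₊
  have hj1 : ∀ i, (jj i : ℝ) * n / 2 ≤ lam i := by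
    intro i
    have h := Nat.floor_le (a := 2 * lam i / n) (by have := hlam i; positivity)
    have h2 : (jj i : ℝ) * n ≤ 2 * lam i := by
      rw [le_div_iff₀ hn'] at h
      exact h
    linarith
  have hj2 : ∀ i, lam i < (n : ℝ) * (jj i + 1) / 2 := by
    intro i
    have h := Nat.lt_floor_add_one (2 * lam i / n)
    have h2 : 2 * lam i < ((jj i : ℝ) + 1) * n := by
      rw [div_lt_iff₀ hn'] at h
      exact h
    linarith
  have hterm : ∀ i, Real.exp (-(T * lam i)) ≤ y ^ jj i := by
    intro i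
    rw [hy, ← Real.exp_nat_mul]
    apply Real.exp_le_exp.2
    have := mul_le_mul_of_nonneg_left (hj1 i) hT
    have h3 : (jj i : ℝ) * -(T * n / 2) = -(T * ((jj i : ℝ) * n / 2)) := by ring
    rw [h3]
    linarith
  obtain ⟨N, hN⟩ : ∃ N : ℕ, ∀ i, jj i < N := by
    refine ⟨(univ.sup jj) + 1, fun i => ?_⟩
    exact Nat.lt_succ_of_le (Finset.le_sup (f := jj) (Finset.mem_univ i))
  have hfiber : ∑ i, y ^ jj i = ∑ k ∈ range N, ∑ i ∈ univ.filter (fun i => jj i = k), y ^ jj i := by
    rw [Finset.sum_fiberwise_of_maps_to]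
    intro i _
    exact Finset.mem_range.2 (hN i)
  have hfib2 : ∀ k ∈ range N, ∑ i ∈ univ.filter (fun i => jj i = k), y ^ jj i ≤ x ^ k := by
    intro k _
    have h1 : ∑ i ∈ univ.filter (fun i => jj i = k), y ^ jj i
        = ((univ.filter (fun i => jj i = k)).card : ℝ) * y ^ k := by
      rw [Finset.sum_congr rfl (g := fun _ => y ^ k)]
      · simp
      · intro i hi
        rw [(Finset.mem_filter.1 hi).2]
    rw [h1]
    have h2 : (univ.filter (fun i => jj i = k)).card ≤ n ^ (2 * k) := by
      refine le_trans (Finset.card_le_card ?_) (hcount k)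
      intro i hi
      rw [Finset.mem_filter] at hi ⊢
      refine ⟨hi.1, ?_⟩
      have := hj2 i
      rw [hi.2] at this
      exact this
    have h3 : ((univ.filter (fun i => jj i = k)).card : ℝ) ≤ (n : ℝ) ^ (2 * k) := by
      exact_mod_cast h2
    calc ((univ.filter (fun i => jj i = k)).card : ℝ) * y ^ k
        ≤ (n : ℝ) ^ (2 * k) * y ^ k := mul_le_mul_of_nonneg_right h3 (by positivity)
      _ = x ^ k := by rw [hxdef, mul_pow, pow_mul]
  have hgeo : ∑ k ∈ range N, x ^ k ≤ 1 + x / (1 - x) := by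
    have h1x : 0 < 1 - x := by linarith
    have h2 := mul_neg_geom_sum x N
    have h3 : 1 + x / (1 - x) = 1 / (1 - x) := by
      field_simp
      ring
    rw [h3, le_div_iff₀ h1x, mul_comm, h2]
    have : 0 ≤ x ^ N := by positivity
    linarith
  calc ∑ i, Real.exp (-(T * lam i)) ≤ ∑ i, y ^ jj i := Finset.sum_le_sum fun i _ => hterm i
    _ = ∑ k ∈ range N, ∑ i ∈ univ.filter (fun i => jj i = k), y ^ jj i := hfiber
    _ ≤ ∑ k ∈ range N, x ^ k := Finset.sum_le_sum hfib2
    _ ≤ 1 + x / (1 - x) := hgeo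

end general

variable (α : Type*) [Fintype α] [DecidableEq α]

/-- The Hilbert space of functions on `Perm α`. -/
abbrev L2Perm := EuclideanSpace ℝ (Perm α)

/-- The left regular action: `(σ f)(τ) = f (σ⁻¹ τ)`. -/
noncomputable def regRep : IsoRep α (L2Perm α) where
  toHom :=
    { toFun := fun σ =>
        LinearMap.toContinuousLinearMap
          { toFun := fun f => WithLp.toLp 2 fun τ => f (σ⁻¹ * τ)
            map_add' := fun f g => by ext τ; simp
            map_smul' := fun c f => by ext τ; simp }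
      map_one' := by ext f τ; simp
      map_mul' := fun σ τ => by ext f u; simp [mul_assoc] }
  inner_map := by
    intro σ x y
    simp only [LinearMap.coe_toContinuousLinearMap', LinearMap.coe_mk, AddHom.coe_mk, MonoidHom.coe_mk, OneHom.coe_mk]
    simp only [PiLp.inner_apply]
    exact Fintype.sum_equiv (Equiv.mulLeft σ⁻¹) _ _ (fun τ => by simp)

/-- Unit vector at a permutation. -/
noncomputable def deltaAt (τ : Perm α) : L2Perm α := EuclideanSpace.single τ (1 : ℝ)

variable {α}

lemma regRep_apply (σ : Perm α) (f : L2Perm α) (τ : Perm α) :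
    ((regRep α).toHom σ f) τ = f (σ⁻¹ * τ) := rfl

lemma inv_eval {L : Finset α} {f : L2Perm α} (hf : f ∈ (regRep α).inv L) {a b : α}
    (ha : a ∈ L) (hb : b ∈ L) (τ : Perm α) : f (swap a b * τ) = f τ := by
  have h := hf a ha b hb
  have h2 := congrArg (fun g : L2Perm α => g τ) h
  simpa [regRep_apply, Equiv.swap_inv] using h2

lemma inv_fix {L : Finset α} {f : L2Perm α} (hf : f ∈ (regRep α).inv L) (σ : Perm α)
    (hσ : ∀ x, x ∉ L → σ x = x) (τ : Perm α) : f (σ * τ) = f τ := by
  classical
  have key : ∀ π : Perm {x // x ∈ L}, ∀ τ, f (Perm.ofSubtype π * τ) = f τ := by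
    intro π
    induction π using Equiv.Perm.swap_induction_on with
    | one => intro τ; simp
    | swap_mul g x y _ ih =>
      intro τ
      rw [map_mul, Perm.ofSubtype_swap_eq, mul_assoc, inv_eval hf x.2 y.2, ih]
  have h1 : ∀ x, σ x ∈ L ↔ x ∈ L := by
    intro x
    constructor
    · intro h
      by_contra hx
      exact hx (by rwa [hσ x hx] at h)
    · intro h
      by_contra hx
      have := hσ _ hx
      have h3 : σ x = x := σ.injective this
      exact hx (by rwa [h3])
  have h2 : ∀ x, σ x ≠ x → x ∈ L := by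
    intro x hx
    by_contra h
    exact hx (hσ x h)
  have h3 : Perm.ofSubtype (σ.subtypePerm h1) = σ := Perm.ofSubtype_subtypePerm h1 h2
  have := key (σ.subtypePerm h1) τ
  rwa [h3] at this

/-- The dimension bound for the invariants of `L` in the regular representation. -/
lemma finrank_inv_le (L : Finset α) :
    Module.finrank ℝ ((regRep α).inv L) ≤ Fintype.card α ^ (Fintype.card α - L.card) := by
  classical
  let β := {x // x ∉ L}
  let res : Perm α → (β → α) := fun τ x => τ⁻¹ x.1
  have hres : ∀ f : L2Perm α, f ∈ (regRep α).inv L → ∀ τ₁ τ₂, res τ₁ = res τ₂ → f τ₁ = f τ₂ := by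
    intro f hf τ₁ τ₂ h
    have h1 : ∀ x, x ∉ L → (τ₁ * τ₂⁻¹) x = x := by
      intro x hx
      have h3 := congrFun h ⟨x, hx⟩
      simp only [res] at h3
      simp only [Perm.mul_apply]
      rw [← h3]
      simp
    have h2 := inv_fix hf (τ₁ * τ₂⁻¹) h1 τ₂
    simpa using h2
  let sec : (β → α) → Perm α := fun u => if h : ∃ τ, res τ = u then h.choose else 1
  have hsec : ∀ τ, res (sec (res τ)) = res τ := by
    intro τ
    have h : ∃ τ', res τ' = res τ := ⟨τ, rfl⟩
    simp only [sec, dif_pos h]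
    exact h.choose_spec
  let Φ : (regRep α).inv L →ₗ[ℝ] ((β → α) → ℝ) :=
    { toFun := fun f u => f.1 (sec u)
      map_add' := by intro f g; ext u; simp
      map_smul' := by intro c f; ext u; simp }
  have hinj : Function.Injective Φ := by
    rw [injective_iff_map_eq_zero]
    intro f hf
    apply Subtype.ext
    ext τ
    have h1 := congrFun hf (res τ)
    have h2 : f.1 (sec (res τ)) = 0 := h1
    have h3 := hres f.1 f.2 _ _ (hsec τ)
    rw [h2] at h3
    simpa using h3.symm
  have h := LinearMap.finrank_le_finrank_of_injective hinj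
  rw [Module.finrank_fintype_fun_eq_card, Fintype.card_fun] at h
  have hcard : Fintype.card β = Fintype.card α - L.card := by
    simp [β, Fintype.card_subtype_compl]
  rwa [hcard] at h

/-- The sum of the invariants of all the subsets of size `n - j`. -/
noncomputable def Uj (j : ℕ) : Submodule ℝ (L2Perm α) :=
  (powersetCard (Fintype.card α - j) (univ : Finset α)).sup (regRep α).inv

lemma finrank_sup_le {V ι : Type*} [AddCommGroup V] [Module ℝ V] [FiniteDimensional ℝ V]
    (s : Finset ι) (F : ι → Submodule ℝ V) :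
    Module.finrank ℝ (s.sup F : Submodule ℝ V) ≤ ∑ i ∈ s, Module.finrank ℝ (F i) := by
  classical
  induction s using Finset.induction_on with
  | empty => simp
  | insert a s ha ih =>
    rw [Finset.sup_insert, Finset.sum_insert ha]
    exact (Submodule.finrank_add_le_finrank_add_finrank _ _).trans (Nat.add_le_add_left ih _)

lemma finrank_Uj_le (j : ℕ) (hn : 0 < Fintype.card α) :
    Module.finrank ℝ (Uj j : Submodule ℝ (L2Perm α)) ≤ Fintype.card α ^ (2 * j) := by
  classical
  set n := Fintype.card α with hn'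
  have h1 := finrank_sup_le (powersetCard (n - j) (univ : Finset α)) (regRep α).inv
  have h2 : ∑ L ∈ powersetCard (n - j) (univ : Finset α), Module.finrank ℝ ((regRep α).inv L)
      ≤ ∑ L ∈ powersetCard (n - j) (univ : Finset α), n ^ j := by
    refine Finset.sum_le_sum fun L hL => ?_
    have hc := (Finset.mem_powersetCard.1 hL).2
    refine (finrank_inv_le L).trans ?_
    rw [hc]
    exact Nat.pow_le_pow_right hn (by omega)
  rw [Finset.sum_const, Finset.card_powersetCard, Finset.card_univ, smul_eq_mul] at h2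
  have h3 : (Fintype.card α).choose (n - j) ≤ n ^ j := by
    rw [← hn']
    rcases Nat.le_total j n with h | h
    · rw [Nat.choose_symm h]
      exact Nat.choose_le_pow _ _
    · rw [Nat.sub_eq_zero_of_le h, Nat.choose_zero_right]
      exact Nat.one_le_pow _ _ hn
  calc Module.finrank ℝ (Uj j : Submodule ℝ (L2Perm α)) ≤ _ := h1
    _ ≤ _ := h2
    _ ≤ n ^ j * n ^ j := Nat.mul_le_mul_right _ h3
    _ = n ^ (2 * j) := by rw [two_mul, pow_add]

lemma inv_le_Uj (j : ℕ) (L : Finset α) (hL : Fintype.card α ≤ L.card + j) :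
    (regRep α).inv L ≤ (Uj j : Submodule ℝ (L2Perm α)) := by
  classical
  have h1 : Fintype.card α - j ≤ L.card := by omega
  obtain ⟨L', hL', hc⟩ := Finset.exists_subset_card_eq h1
  intro y hy
  have hy' : y ∈ (regRep α).inv L' := (regRep α).inv_mono hL' hy
  have hle : (regRep α).inv L' ≤ (Uj j : Submodule ℝ (L2Perm α)) := by
    refine Finset.le_sup (f := (regRep α).inv) ?_
    rw [Finset.mem_powersetCard]
    exact ⟨Finset.subset_univ _, hc⟩
  exact hle hy'

lemma cas_mem_Uj (j : ℕ) (y : L2Perm α) (hy : y ∈ (Uj j : Submodule ℝ (L2Perm α))) :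
    (regRep α).cas univ y ∈ (Uj j : Submodule ℝ (L2Perm α)) := by
  classical
  have h : (Uj j : Submodule ℝ (L2Perm α)) ≤
      (Uj j : Submodule ℝ (L2Perm α)).comap ((regRep α).cas univ : L2Perm α →ₗ[ℝ] L2Perm α) := by
    refine Finset.sup_le fun L hL z hz => ?_
    have hle : (regRep α).inv L ≤ (Uj j : Submodule ℝ (L2Perm α)) :=
      Finset.le_sup (f := (regRep α).inv) hL
    exact hle ((regRep α).cas_mem_inv (Finset.subset_univ _) hz)
  exact h hy

/-- An eigenvector with small eigenvalue lies in `U_j` (uses THM B). -/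
lemma mem_Uj_of_eigen (f : L2Perm α) (C : ℝ) (hC : (regRep α).cas univ f = C • f) (j : ℕ)
    (hlt : C < (Fintype.card α : ℝ) * (j + 1) / 2) :
    f ∈ (Uj j : Submodule ℝ (L2Perm α)) := by
  classical
  set U := (Uj j : Submodule ℝ (L2Perm α)) with hU
  set P := U.starProjection with hP
  set v := f - P f with hv
  have hcomm := proj_comm (S := U) ((regRep α).cas univ) ((regRep α).cas_symm univ)
    (fun y hy => cas_mem_Uj j y hy) f
  have hcasv : (regRep α).cas univ v = C • v := by
    rw [hv, map_sub, smul_sub, hC, hP, hcomm, hC, map_smul]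
  by_contra hnot
  have hv0 : v ≠ 0 := by
    intro h0
    apply hnot
    have : f = P f := sub_eq_zero.1 h0
    rw [this]
    exact U.starProjection_apply_mem f
  have hperp : ∀ L ⊆ (univ : Finset α), (univ : Finset α).card < L.card + (j + 1) →
      ∀ y ∈ (regRep α).inv L, inner ℝ v y = 0 := by
    intro L _ hlt' y hy
    have hle : Fintype.card α ≤ L.card + j := by
      rw [Finset.card_univ] at hlt'
      omega
    exact Submodule.starProjection_inner_eq_zero (K := U) f y (inv_le_Uj j L hle hy)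
  have h := (regRep α).cas_lower univ v hv0 C hcasv (j + 1) hperp
  rw [Finset.card_univ] at h
  push_cast at h
  linarith

/-- THM C. If `G` commutes with the Casimir and `‖G g‖² ≤ ⟨g, exp(-s Cas) g⟩` for all `g`, then
the Hilbert-Schmidt norm of `G ^ J` is bounded by `1 + x / (1 - x)`,
`x = n² exp(-J s n / 2)`, as soon as `x < 1`. -/
theorem hs_bound (G : L2Perm α →L[ℝ] L2Perm α) (s : ℝ) (hs : 0 ≤ s)
    (hcomm : Commute G ((regRep α).cas univ))
    (hG : ∀ g, ‖G g‖ ^ 2 ≤
      inner ℝ g (NormedSpace.exp (-(s) • (regRep α).cas univ) g))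
    (J : ℕ)
    (hx : (Fintype.card α : ℝ) ^ 2 * Real.exp (-(J * s * Fintype.card α / 2)) < 1) :
    ∑ τ : Perm α, ‖(G ^ J) (deltaAt α τ)‖ ^ 2 ≤
      1 + ((Fintype.card α : ℝ) ^ 2 * Real.exp (-(J * s * Fintype.card α / 2))) /
        (1 - (Fintype.card α : ℝ) ^ 2 * Real.exp (-(J * s * Fintype.card α / 2))) := by
  classical
  set A := (regRep α).cas univ with hA
  let T : L2Perm α →ₗ[ℝ] L2Perm α := A
  have hT : T.IsSymmetric := fun x y => (regRep α).cas_symm univ x y
  set m := Module.finrank ℝ (L2Perm α) with hm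
  have hm' : Module.finrank ℝ (L2Perm α) = m := rfl
  let b := hT.eigenvectorBasis hm'
  let lam := hT.eigenvalues hm'
  have hb : ∀ i, A (b i) = lam i • b i := by
    intro i
    have h := hT.apply_eigenvectorBasis hm' i
    rw [RCLike.ofReal_real_eq_id] at h
    exact h
  have hbnorm : ∀ i, ‖b i‖ = 1 := fun i => b.orthonormal.1 i
  have hlam : ∀ i, 0 ≤ lam i := fun i =>
    (regRep α).inner_cas_eigen_nonneg univ (f := b i)
      (by intro h; have := hbnorm i; rw [h, norm_zero] at this; exact zero_ne_one this) (hb i)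
  -- Hilbert-Schmidt
  let e := EuclideanSpace.basisFun (Perm α) ℝ
  have he : ∀ τ, e τ = deltaAt α τ := fun τ => by simp [e, deltaAt]
  have h1 : ∑ τ : Perm α, ‖(G ^ J) (deltaAt α τ)‖ ^ 2 = ∑ i, ‖(G ^ J) (b i)‖ ^ 2 := by
    rw [hs_eq (G ^ J) b e]
    exact Finset.sum_congr rfl fun τ _ => by rw [he]
  have h2 : ∀ i, ‖(G ^ J) (b i)‖ ^ 2 ≤ Real.exp (-(((J : ℝ) * s) * lam i)) := by
    intro i
    have := decay G A s hcomm hG (b i) (lam i) (hb i) J
    rwa [hbnorm i, one_pow, mul_one] at this
  rw [h1]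
  refine (Finset.sum_le_sum fun i _ => h2 i).trans ?_
  rcases Nat.eq_zero_or_pos (Fintype.card α) with hn0 | hnpos
  · -- the empty case
    have hcard : m = 1 := by
      rw [hm, finrank_euclideanSpace, Fintype.card_perm, hn0]
      rfl
    have hle : ∑ i, Real.exp (-(((J : ℝ) * s) * lam i)) ≤ (Fintype.card (Fin m) : ℝ) := by
      have := Finset.sum_le_card_nsmul (univ : Finset (Fin m))
        (fun i => Real.exp (-(((J : ℝ) * s) * lam i))) 1 (fun i _ => by
          apply Real.exp_le_one_iff.2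
          have := mul_nonneg (mul_nonneg (Nat.cast_nonneg J) hs) (hlam i)
          linarith)
      simpa using this
    rw [Fintype.card_fin] at hle
    refine hle.trans ?_
    have hcard' : (m : ℝ) = 1 := by exact_mod_cast hcard
    rw [hcard', hn0]
    simp
  · refine sum_exp_bound lam hlam (Fintype.card α) hnpos ((J : ℝ) * s)
      (mul_nonneg (Nat.cast_nonneg J) hs) ?_ hx
    intro j
    -- the small eigenvalues are in `U_j`
    set S := univ.filter (fun i => lam i < (Fintype.card α : ℝ) * (j + 1) / 2) with hS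
    have hmem : ∀ i ∈ S, b i ∈ (Uj j : Submodule ℝ (L2Perm α)) := by
      intro i hi
      exact mem_Uj_of_eigen (b i) (lam i) (hb i) j (Finset.mem_filter.1 hi).2
    have hind : LinearIndependent ℝ (fun i : S => b i) :=
      (b.orthonormal.linearIndependent).comp _ Subtype.val_injective
    have hspan : Submodule.span ℝ (Set.range fun i : S => b i) ≤ (Uj j : Submodule ℝ (L2Perm α)) := by
      rw [Submodule.span_le]
      rintro _ ⟨i, rfl⟩
      exact hmem i.1 i.2
    have h3 := finrank_span_eq_card hind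
    have h4 := Submodule.finrank_mono hspan
    rw [h3, Fintype.card_coe] at h4
    exact h4.trans (finrank_Uj_le j hnpos)

end Vale.Agent.Lib.P162
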