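import Vale.Agent.Lib.P162.Induct
import Vale.Agent.Lib.P162.Trace

/-!
P162: final assembly: total variation from the Hilbert-Schmidt bound.
-/

namespace Vale.Agent.Lib.P162

open Finset Equiv

set_option linter.unusedSectionVars false

section group

variable {G : Type*} [Group G] [Fintype G] [DecidableEq G]

lemma sum_conv (μ ν : G → ℝ) : ∑ g, conv μ ν g = (∑ g, μ g) * ∑ g, ν g := by
  unfold conv
  rw [Finset.sum_comm, Finset.sum_mul]
  refine Finset.sum_congr rfl fun h _ => ?_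
  rw [← Finset.mul_sum]
  congr 1
  exact Fintype.sum_equiv (Equiv.mulLeft h⁻¹) _ _ (fun g => rfl)

lemma sum_convPow (μ : G → ℝ) (hμ : ∑ g, μ g = 1) (t : ℕ) : ∑ g, convPow μ t g = 1 := by
  induction t with
  | zero => simp [convPow]
  | succ t ih =>
    show ∑ g, conv μ (convPow μ t) g = 1
    rw [sum_conv, hμ, ih, one_mul]

lemma card_pos_real : (0 : ℝ) < Fintype.card G := by
  exact_mod_cast Fintype.card_pos

lemma tv_conv_le (μ ν : G → ℝ) (h0 : ∀ g, 0 ≤ μ g) (h1 : ∑ g, μ g = 1) :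
    tv (conv μ ν) (unif G) ≤ tv ν (unif G) := by
  unfold tv
  apply mul_le_mul_of_nonneg_left _ (by norm_num)
  have key : ∀ g, conv μ ν g - unif G g = ∑ h, μ h * (ν (h⁻¹ * g) - unif G (h⁻¹ * g)) := by
    intro g
    unfold conv
    simp only [mul_sub, Finset.sum_sub_distrib]
    congr 1
    simp only [unif]
    rw [← Finset.sum_mul, h1, one_mul]
  calc ∑ g, |conv μ ν g - unif G g|
      ≤ ∑ g, ∑ h, μ h * |ν (h⁻¹ * g) - unif G (h⁻¹ * g)| := by
        refine Finset.sum_le_sum fun g _ => ?_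
        rw [key]
        refine (Finset.abs_sum_le_sum_abs _ _).trans (le_of_eq ?_)
        refine Finset.sum_congr rfl fun h _ => ?_
        rw [abs_mul, abs_of_nonneg (h0 h)]
    _ = ∑ h, μ h * ∑ g, |ν g - unif G g| := by
        rw [Finset.sum_comm]
        refine Finset.sum_congr rfl fun h _ => ?_
        rw [Finset.mul_sum]
        exact Fintype.sum_equiv (Equiv.mulLeft h⁻¹) _ _ (fun g => rfl)
    _ = ∑ g, |ν g - unif G g| := by
        rw [← Finset.sum_mul, h1, one_mul]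

lemma tv_convPow_mono (μ : G → ℝ) (h0 : ∀ g, 0 ≤ μ g) (h1 : ∑ g, μ g = 1) {t₀ t : ℕ}
    (h : t₀ ≤ t) : tv (convPow μ t) (unif G) ≤ tv (convPow μ t₀) (unif G) := by
  induction t, h using Nat.le_induction with
  | base => exact le_refl _
  | succ t _ ih =>
    exact (tv_conv_le μ (convPow μ t) h0 h1).trans ih

lemma tv_le_sqrt (μ : G → ℝ) (hμ : ∑ g, μ g = 1) :
    tv μ (unif G) ≤ (1 / 2) * Real.sqrt ((Fintype.card G : ℝ) * ∑ g, μ g ^ 2 - 1) := by
  unfold tv
  apply mul_le_mul_of_nonneg_left _ (by norm_num)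
  have hN : (0 : ℝ) < Fintype.card G := card_pos_real
  apply Real.le_sqrt_of_sq_le
  have h1 : (∑ g, |μ g - unif G g|) ^ 2 ≤
      (Finset.univ.card : ℝ) * ∑ g, |μ g - unif G g| ^ 2 := sq_sum_le_card_mul_sum_sq
  have h2 : ∑ g, |μ g - unif G g| ^ 2
      = ∑ g, μ g ^ 2 - 1 / (Fintype.card G : ℝ) := by
    simp only [sq_abs, unif]
    have : ∀ g, (μ g - 1 / (Fintype.card G : ℝ)) ^ 2
        = μ g ^ 2 - (2 / (Fintype.card G : ℝ)) * μ g + 1 / (Fintype.card G : ℝ) ^ 2 := by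
      intro g; field_simp; ring
    simp only [this, Finset.sum_add_distrib, Finset.sum_sub_distrib, ← Finset.mul_sum, hμ,
      Finset.sum_const, Finset.card_univ, nsmul_eq_mul]
    field_simp
    ring
  rw [h2, Finset.card_univ] at h1
  have h3 : (Fintype.card G : ℝ) * (∑ g, μ g ^ 2 - 1 / (Fintype.card G : ℝ))
      = (Fintype.card G : ℝ) * ∑ g, μ g ^ 2 - 1 := by
    field_simp
  rw [h3] at h1
  exact h1

end group



section thorp

variable (k : ℕ)

lemma thorpLaw_nonneg (σ : Perm (Fin (2 * k))) : 0 ≤ thorpLaw k σ := by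
  unfold thorpLaw; positivity

lemma sum_fiber (F : Perm (Fin (2 * k)) → ℝ) :
    ∑ σ, thorpLaw k σ * F σ = ((2 : ℝ) ^ k)⁻¹ * ∑ ε : Fin k → Bool, F (thorpPerm k ε) := by
  unfold thorpLaw
  have h : ∀ σ : Perm (Fin (2 * k)),
      ((Finset.univ.filter fun ε : Fin k → Bool => thorpPerm k ε = σ).card : ℝ) * F σ
        = ∑ ε ∈ Finset.univ.filter (fun ε : Fin k → Bool => thorpPerm k ε = σ),
            F (thorpPerm k ε) := by
    intro σ
    rw [← nsmul_eq_mul, ← Finset.sum_const]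
    refine Finset.sum_congr rfl fun ε hε => ?_
    rw [(Finset.mem_filter.1 hε).2]
  have h2 : ∑ ε : Fin k → Bool, F (thorpPerm k ε)
      = ∑ σ : Perm (Fin (2 * k)),
          ∑ ε ∈ Finset.univ.filter (fun ε : Fin k → Bool => thorpPerm k ε = σ),
            F (thorpPerm k ε) :=
    (Finset.sum_fiberwise _ _ _).symm
  rw [h2, Finset.mul_sum]
  refine Finset.sum_congr rfl fun σ _ => ?_
  rw [← h]
  field_simp

lemma sum_thorpLaw : ∑ σ, thorpLaw k σ = 1 := by
  have := sum_fiber k (fun _ => 1)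
  simp only [mul_one, Finset.sum_const, Finset.card_univ, Fintype.card_fun, Fintype.card_bool,
    Fintype.card_fin, nsmul_eq_mul] at this
  rw [this]
  push_cast
  field_simp

lemma avgThorp_apply (f : L2Perm (Fin (2 * k))) (u : Perm (Fin (2 * k))) :
    (avgThorp k (regRep (Fin (2 * k))) f) u = conv (thorpLaw k) (fun w => f w) u := by
  unfold conv
  rw [sum_fiber k (fun h => f (h⁻¹ * u))]
  unfold avgThorp
  simp [regRep_apply]

/-- Iterating the averaged operator on a delta function gives translated convolution powers. -/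
lemma avgThorp_pow_delta (t : ℕ) (τ u : Perm (Fin (2 * k))) :
    ((avgThorp k (regRep (Fin (2 * k))) ^ t) (deltaAt (Fin (2 * k)) τ)) u
      = convPow (thorpLaw k) t (u * τ⁻¹) := by
  induction t generalizing u with
  | zero =>
    simp only [pow_zero, deltaAt, convPow]
    by_cases h : u = τ
    · subst h; simp
    · have : u * τ⁻¹ ≠ 1 := fun h2 => h (mul_inv_eq_one.1 h2)
      simp [h, this]
  | succ t ih =>
    have e : (avgThorp k (regRep (Fin (2 * k))) ^ (t + 1)) (deltaAt (Fin (2 * k)) τ)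
        = avgThorp k (regRep (Fin (2 * k)))
            ((avgThorp k (regRep (Fin (2 * k))) ^ t) (deltaAt (Fin (2 * k)) τ)) := by
      rw [pow_succ']; rfl
    rw [e, avgThorp_apply]
    unfold conv
    show _ = conv (thorpLaw k) (convPow (thorpLaw k) t) (u * τ⁻¹)
    unfold conv
    refine Finset.sum_congr rfl fun h _ => ?_
    beta_reduce
    rw [ih, mul_assoc]

lemma norm_sq_pow_delta (t : ℕ) (τ : Perm (Fin (2 * k))) :
    ‖(avgThorp k (regRep (Fin (2 * k))) ^ t) (deltaAt (Fin (2 * k)) τ)‖ ^ 2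
      = ∑ g, convPow (thorpLaw k) t g ^ 2 := by
  rw [EuclideanSpace.norm_sq_eq]
  simp only [Real.norm_eq_abs, sq_abs, avgThorp_pow_delta]
  exact Fintype.sum_equiv (Equiv.mulRight τ⁻¹) _ _ (fun g => rfl)

/-- The operator commutes with the Casimir. -/
lemma avgThorp_commute_cas :
    Commute ((regRep (Fin (2 * k))).cas univ) (avgThorp k (regRep (Fin (2 * k)))) := by
  unfold avgThorp
  refine Commute.smul_right ?_ _
  refine Commute.sum_right _ _ _ fun ε _ => ?_
  exact ((regRep (Fin (2 * k))).cas_comm univ _ (by simp)).symm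

end thorp

lemma num_x (d : ℕ) (n s : ℝ) (hn : n = 2 ^ (d + 1)) (hns : 1 / 104 ≤ n * s) :
    n ^ 2 * Real.exp (-(((145 * (2 * d + 5) : ℕ) : ℝ) * s * n / 2)) ≤ 1 / 8 := by
  have hexp1 : Real.exp (-(145 / 208)) ≤ 1 / 2 := by
    have hl : Real.log 2 ≤ 145 / 208 := by
      have := Real.log_two_lt_d9
      norm_num at this ⊢
      linarith
    calc Real.exp (-(145 / 208)) ≤ Real.exp (-(Real.log 2)) :=
          Real.exp_le_exp.2 (by linarith)
      _ = 1 / 2 := by
          rw [Real.exp_neg, Real.exp_log (by norm_num)]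
          norm_num
  have hexp2 : Real.exp (-(((145 * (2 * d + 5) : ℕ) : ℝ) * s * n / 2)) ≤ (1 / 2) ^ (2 * d + 5) := by
    have h1 : -(145 / 208 : ℝ) * ((2 * d + 5 : ℕ) : ℝ)
        ≥ -(((145 * (2 * d + 5) : ℕ) : ℝ) * s * n / 2) := by
      have h2 : (((145 * (2 * d + 5) : ℕ) : ℝ)) = 145 * ((2 * d + 5 : ℕ) : ℝ) := by
        push_cast; ring
      rw [h2]
      have h3 : (0 : ℝ) ≤ ((2 * d + 5 : ℕ) : ℝ) := by positivity
      have h4 : (145 * ((2 * d + 5 : ℕ) : ℝ)) * s * n / 2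
          = 145 * ((2 * d + 5 : ℕ) : ℝ) * (n * s) / 2 := by ring
      rw [h4]
      nlinarith [mul_le_mul_of_nonneg_left hns (by positivity :
        (0 : ℝ) ≤ 145 * ((2 * d + 5 : ℕ) : ℝ))]
    calc Real.exp (-(((145 * (2 * d + 5) : ℕ) : ℝ) * s * n / 2))
        ≤ Real.exp (-(145 / 208 : ℝ) * ((2 * d + 5 : ℕ) : ℝ)) := Real.exp_le_exp.2 h1
      _ = Real.exp (-(145 / 208 : ℝ)) ^ (2 * d + 5) := by
          rw [← Real.exp_nat_mul]; ring_nf
      _ ≤ (1 / 2) ^ (2 * d + 5) :=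
          pow_le_pow_left₀ (Real.exp_pos _).le hexp1 _
  have h2 : n ^ 2 = 2 ^ (2 * d + 2) := by
    rw [hn, ← pow_mul]; congr 1; ring
  rw [h2]
  calc (2 : ℝ) ^ (2 * d + 2) * Real.exp (-(((145 * (2 * d + 5) : ℕ) : ℝ) * s * n / 2))
      ≤ 2 ^ (2 * d + 2) * (1 / 2) ^ (2 * d + 5) :=
        mul_le_mul_of_nonneg_left hexp2 (by positivity)
    _ = 1 / 8 := by
        have : (1 / 2 : ℝ) ^ (2 * d + 5) = (1 / 2) ^ (2 * d + 2) * (1 / 8) := by
          rw [show 2 * d + 5 = (2 * d + 2) + 3 from by ring, pow_add]; norm_num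
        rw [this, ← mul_assoc, ← mul_pow]
        norm_num

lemma num_y (x : ℝ) (_hx0 : 0 ≤ x) (hx1 : x ≤ 1 / 8) : 1 + x / (1 - x) ≤ 1 + 1 / 7 := by
  have : x / (1 - x) ≤ 1 / 7 := by
    rw [div_le_div_iff₀ (by linarith) (by norm_num)]
    linarith
  linarith

lemma num_z (y : ℝ) (h : y ≤ 1 + 1 / 7) : (1 / 2) * Real.sqrt (y - 1) ≤ 1 / 4 := by
  have h7 : Real.sqrt (y - 1) ≤ 1 / 2 := by
    rw [Real.sqrt_le_left (by norm_num)]
    norm_num at h ⊢
    linarith
  linarith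

lemma num_s (d : ℕ) (n : ℝ) (hn : n = 2 ^ (d + 1)) : 1 / 104 ≤ n * sd (d + 1) := by
  have h := (sd_bounds (d + 1)).1
  have hq : (0 : ℝ) < (1 / 2) ^ (d + 1) := by positivity
  rw [hn]
  nlinarith

/-- the final estimate, for a general number of repetitions `J` -/
theorem tv_block_aux (d J : ℕ)
    (hx1 : (Fintype.card (Fin (2 * 2 ^ d)) : ℝ) ^ 2 *
      Real.exp (-((J : ℝ) * sd (d + 1) * (Fintype.card (Fin (2 * 2 ^ d)) : ℝ) / 2)) ≤ 1 / 8) :
    tv (convPow (thorpLaw (2 ^ d)) ((d + 1) * J))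
      (unif (Perm (Fin (2 * 2 ^ d)))) ≤ 1 / 4 := by
  obtain ⟨e, he⟩ := avgThorp_pow (W := L2Perm (Fin (2 * 2 ^ d))) d
  have hGb : ∀ g, ‖(avgThorp (2 ^ d) (regRep (Fin (2 * 2 ^ d))) ^ (d + 1)) g‖ ^ 2 ≤
      inner ℝ g (NormedSpace.exp (-(sd (d + 1)) • (regRep (Fin (2 * 2 ^ d))).cas univ) g) := by
    intro g
    have h := block_bound (d + 1) ((regRep (Fin (2 * 2 ^ d))).comp (conjHom e)) g
    rw [cas_conj] at h
    rw [he]
    exact h
  have hcomm : Commute (avgThorp (2 ^ d) (regRep (Fin (2 * 2 ^ d))) ^ (d + 1))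
      ((regRep (Fin (2 * 2 ^ d))).cas univ) :=
    ((avgThorp_commute_cas (2 ^ d)).symm.pow_left (d + 1))
  have hb := hs_bound _ (sd (d + 1)) (sd_nonneg (d + 1)) hcomm hGb J
    (lt_of_le_of_lt hx1 (by norm_num))
  have hb2 := hb.trans (num_y _ (by positivity) hx1)
  rw [← pow_mul (avgThorp (2 ^ d) (regRep (Fin (2 * 2 ^ d)))) (d + 1) J] at hb2
  simp only [norm_sq_pow_delta, Finset.sum_const, Finset.card_univ, nsmul_eq_mul] at hb2
  exact (tv_le_sqrt _ (sum_convPow _ (sum_thorpLaw _) _)).trans (num_z _ hb2)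

/-- the final estimate for the law after `d + 1` blocks -/
theorem tv_block (d : ℕ) :
    tv (convPow (thorpLaw (2 ^ d)) ((d + 1) * (145 * (2 * d + 5))))
      (unif (Perm (Fin (2 * 2 ^ d)))) ≤ 1 / 4 := by
  have hcard : (Fintype.card (Fin (2 * 2 ^ d)) : ℝ) = 2 ^ (d + 1) := by
    simp only [Fintype.card_fin]
    push_cast
    ring
  exact tv_block_aux d _ (num_x d _ (sd (d + 1)) hcard (num_s d _ hcard))

/-- Main theorem: `t_mix (2^{d+1} cards) ≤ 725 (d+1)²`. -/
theorem main_bound (d t : ℕ) (ht : 725 * (d + 1) ^ 2 ≤ t) :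
    tv (convPow (thorpLaw (2 ^ d)) t) (unif (Perm (Fin (2 * 2 ^ d)))) ≤ 1 / 4 := by
  refine le_trans (tv_convPow_mono _ (thorpLaw_nonneg _) (sum_thorpLaw _) ?_) (tv_block d)
  refine le_trans ?_ ht
  nlinarith

theorem tmix_bound (d : ℕ) : tmix (2 ^ d) ≤ 725 * (d + 1) ^ 2 := by
  unfold tmix
  exact Nat.sInf_le (main_bound d _ (le_refl _))

end Vale.Agent.Lib.P162
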