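import Mathlib

/-!
P162 (Thorp shuffle). Isometric actions of permutation groups on a real inner product space
and the Casimir operators (sums of `1 - swap`).
-/

namespace Vale.Agent.Lib.P162

open Finset Equiv

set_option linter.unusedSectionVars false

variable {α β : Type*} [DecidableEq α] [DecidableEq β]
variable {W : Type*} [NormedAddCommGroup W] [InnerProductSpace ℝ W]

/-- An isometric action of `Perm α` on `W` by continuous linear maps. -/
structure IsoRep (α : Type*) (W : Type*) [NormedAddCommGroup W] [InnerProductSpace ℝ W] where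
  toHom : Perm α →* (W →L[ℝ] W)
  inner_map : ∀ σ x y, inner ℝ (toHom σ x) (toHom σ y) = inner ℝ x y

/-- Restriction of an action along a group homomorphism. -/
def IsoRep.comp (ρ : IsoRep α W) (φ : Perm β →* Perm α) : IsoRep β W :=
  ⟨ρ.toHom.comp φ, fun σ x y => ρ.inner_map (φ σ) x y⟩

@[simp] lemma IsoRep.comp_apply (ρ : IsoRep α W) (φ : Perm β →* Perm α) (σ : Perm β) :
    (ρ.comp φ).toHom σ = ρ.toHom (φ σ) := rfl

/-- Casimir of a subset `M`: half the sum over ordered pairs in `M` of `1 - swap`. -/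
noncomputable def IsoRep.cas (ρ : IsoRep α W) (M : Finset α) : W →L[ℝ] W :=
  (1 / 2 : ℝ) • ∑ p ∈ M.offDiag, (1 - ρ.toHom (swap p.1 p.2))

lemma IsoRep.inner_left (ρ : IsoRep α W) (σ : Perm α) (x y : W) :
    inner ℝ (ρ.toHom σ x) y = inner ℝ x (ρ.toHom σ⁻¹ y) := by
  have h : ρ.toHom σ (ρ.toHom σ⁻¹ y) = y := by
    have := congrArg (fun f : W →L[ℝ] W => f y) (map_mul ρ.toHom σ σ⁻¹)
    simpa using this.symm
  calc inner ℝ (ρ.toHom σ x) y = inner ℝ (ρ.toHom σ x) (ρ.toHom σ (ρ.toHom σ⁻¹ y)) := by rw [h]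
    _ = inner ℝ x (ρ.toHom σ⁻¹ y) := ρ.inner_map σ _ _

lemma IsoRep.norm_map (ρ : IsoRep α W) (σ : Perm α) (x : W) : ‖ρ.toHom σ x‖ = ‖x‖ := by
  have h := ρ.inner_map σ x x
  rw [real_inner_self_eq_norm_sq, real_inner_self_eq_norm_sq] at h
  have := (sq_eq_sq₀ (norm_nonneg _) (norm_nonneg _)).1 h
  exact this

lemma IsoRep.inner_swap (ρ : IsoRep α W) (a b : α) (x y : W) :
    inner ℝ (ρ.toHom (swap a b) x) y = inner ℝ x (ρ.toHom (swap a b) y) := by
  rw [ρ.inner_left, swap_inv]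

lemma IsoRep.swap_swap (ρ : IsoRep α W) (a b : α) (x : W) :
    ρ.toHom (swap a b) (ρ.toHom (swap a b) x) = x := by
  have := congrArg (fun f : W →L[ℝ] W => f x) (map_mul ρ.toHom (swap a b) (swap a b))
  simpa [swap_mul_self] using this.symm

/-- `⟨x, (1 - τ) x⟩ = ½‖x - τ x‖²` -/
lemma IsoRep.inner_one_sub_swap (ρ : IsoRep α W) (a b : α) (x : W) :
    inner ℝ x (x - ρ.toHom (swap a b) x) = ‖x - ρ.toHom (swap a b) x‖ ^ 2 / 2 := by
  have h1 : ‖ρ.toHom (swap a b) x‖ = ‖x‖ := ρ.norm_map _ _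
  have h2 : ‖x - ρ.toHom (swap a b) x‖ ^ 2
      = ‖x‖ ^ 2 - 2 * inner ℝ x (ρ.toHom (swap a b) x) + ‖ρ.toHom (swap a b) x‖ ^ 2 :=
    norm_sub_sq_real _ _
  rw [inner_sub_right, real_inner_self_eq_norm_sq, h2, h1]
  ring

lemma IsoRep.inner_one_sub_swap_nonneg (ρ : IsoRep α W) (a b : α) (x : W) :
    0 ≤ inner ℝ x (x - ρ.toHom (swap a b) x) := by
  rw [ρ.inner_one_sub_swap]; positivity

lemma IsoRep.inner_one_sub_swap_le (ρ : IsoRep α W) (a b : α) (x : W) :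
    inner ℝ x (x - ρ.toHom (swap a b) x) ≤ 2 * ‖x‖ ^ 2 := by
  have h1 : ‖ρ.toHom (swap a b) x‖ = ‖x‖ := ρ.norm_map _ _
  have h2 : -(inner ℝ x (ρ.toHom (swap a b) x)) ≤ ‖x‖ * ‖ρ.toHom (swap a b) x‖ := by
    have := abs_real_inner_le_norm x (ρ.toHom (swap a b) x)
    have h5 := neg_abs_le (inner ℝ x (ρ.toHom (swap a b) x))
    linarith
  rw [inner_sub_right, real_inner_self_eq_norm_sq]
  rw [h1] at h2
  nlinarith

lemma IsoRep.cas_apply (ρ : IsoRep α W) (M : Finset α) (x : W) :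
    ρ.cas M x = (1 / 2 : ℝ) • ∑ p ∈ M.offDiag, (x - ρ.toHom (swap p.1 p.2) x) := by
  simp [IsoRep.cas]

lemma IsoRep.inner_cas (ρ : IsoRep α W) (M : Finset α) (x : W) :
    inner ℝ x (ρ.cas M x)
      = (1 / 2 : ℝ) * ∑ p ∈ M.offDiag, inner ℝ x (x - ρ.toHom (swap p.1 p.2) x) := by
  rw [ρ.cas_apply, inner_smul_right, inner_sum]

lemma IsoRep.cas_nonneg (ρ : IsoRep α W) (M : Finset α) (x : W) :
    0 ≤ inner ℝ x (ρ.cas M x) := by
  rw [ρ.inner_cas]
  have : 0 ≤ ∑ p ∈ M.offDiag, inner ℝ x (x - ρ.toHom (swap p.1 p.2) x) :=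
    Finset.sum_nonneg fun p _ => ρ.inner_one_sub_swap_nonneg _ _ _
  positivity

lemma IsoRep.cas_le (ρ : IsoRep α W) (M : Finset α) (x : W) :
    inner ℝ x (ρ.cas M x) ≤ (M.card : ℝ) ^ 2 * ‖x‖ ^ 2 := by
  rw [ρ.inner_cas]
  have h : ∑ p ∈ M.offDiag, inner ℝ x (x - ρ.toHom (swap p.1 p.2) x)
      ≤ ∑ p ∈ M.offDiag, (2 * ‖x‖ ^ 2) :=
    Finset.sum_le_sum fun p _ => ρ.inner_one_sub_swap_le _ _ _
  rw [Finset.sum_const, nsmul_eq_mul, Finset.offDiag_card] at h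
  have h3 : ((M.card * M.card - M.card : ℕ) : ℝ) ≤ (M.card : ℝ) ^ 2 := by
    have : M.card * M.card - M.card ≤ M.card ^ 2 := by
      rw [sq]; exact Nat.sub_le _ _
    exact_mod_cast this
  have h4 : 0 ≤ ‖x‖ ^ 2 := by positivity
  nlinarith [mul_le_mul_of_nonneg_right h3 h4]

lemma IsoRep.cas_symm (ρ : IsoRep α W) (M : Finset α) (x y : W) :
    inner ℝ (ρ.cas M x) y = inner ℝ x (ρ.cas M y) := by
  rw [ρ.cas_apply, ρ.cas_apply, inner_smul_left, inner_smul_right, sum_inner, inner_sum]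
  simp only [map_div₀, map_one, conj_trivial]
  congr 1
  refine Finset.sum_congr rfl fun p _ => ?_
  rw [inner_sub_left, inner_sub_right, ρ.inner_swap]

/-- The Casimir of `M` commutes with every permutation preserving `M`. -/
lemma IsoRep.cas_comm (ρ : IsoRep α W) (M : Finset α) (σ : Perm α)
    (hσ : ∀ a, a ∈ M ↔ σ a ∈ M) :
    ρ.toHom σ * ρ.cas M = ρ.cas M * ρ.toHom σ := by
  classical
  have key : ∑ p ∈ M.offDiag, (1 - ρ.toHom (swap (σ p.1) (σ p.2)))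
      = ∑ p ∈ M.offDiag, (1 - ρ.toHom (swap p.1 p.2)) := by
    refine Finset.sum_nbij' (fun p => (σ p.1, σ p.2)) (fun p => (σ⁻¹ p.1, σ⁻¹ p.2)) ?_ ?_ ?_ ?_ ?_
    · intro p hp
      simp only [Finset.mem_offDiag] at hp ⊢
      exact ⟨(hσ _).1 hp.1, (hσ _).1 hp.2.1, fun h => hp.2.2 (σ.injective h)⟩
    · intro p hp
      simp only [Finset.mem_offDiag] at hp ⊢
      refine ⟨?_, ?_, fun h => hp.2.2 (σ⁻¹.injective h)⟩
      · rw [hσ]; simpa using hp.1
      · rw [hσ]; simpa using hp.2.1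
    · intro p _; simp
    · intro p _; simp
    · intro p _; rfl
  have hconj : ∀ p : α × α, ρ.toHom σ * (1 - ρ.toHom (swap p.1 p.2))
      = (1 - ρ.toHom (swap (σ p.1) (σ p.2))) * ρ.toHom σ := by
    intro p
    have h : σ * swap p.1 p.2 = swap (σ p.1) (σ p.2) * σ := by
      rw [Equiv.swap_apply_apply]; group
    rw [mul_sub, sub_mul, mul_one, one_mul, ← map_mul, ← map_mul, h]
  unfold IsoRep.cas
  rw [mul_smul_comm, smul_mul_assoc, Finset.mul_sum, Finset.sum_mul]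
  congr 1
  calc ∑ i ∈ M.offDiag, ρ.toHom σ * (1 - ρ.toHom (swap i.1 i.2))
      = ∑ i ∈ M.offDiag, (1 - ρ.toHom (swap (σ i.1) (σ i.2))) * ρ.toHom σ :=
        Finset.sum_congr rfl fun p _ => hconj p
    _ = (∑ i ∈ M.offDiag, (1 - ρ.toHom (swap (σ i.1) (σ i.2)))) * ρ.toHom σ := by
        rw [Finset.sum_mul]
    _ = (∑ i ∈ M.offDiag, (1 - ρ.toHom (swap i.1 i.2))) * ρ.toHom σ := by rw [key]
    _ = ∑ i ∈ M.offDiag, (1 - ρ.toHom (swap i.1 i.2)) * ρ.toHom σ := by rw [Finset.sum_mul]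

end Vale.Agent.Lib.P162
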