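import Mathlib

/-!
P162. Abstract sector calculus: a family of commuting reflections `hh`, their joint
eigenprojections `Q Z`, and pair operators `v p` flipping two sectors.
Main result `SectorData.inner_exp_le`.
-/

namespace Vale.Agent.Lib.P162

open Finset

set_option linter.unusedSectionVars false

variable {S : Type*} [Fintype S] [DecidableEq S]
variable {W : Type*} [NormedAddCommGroup W] [InnerProductSpace ℝ W]

/-- The character `(-1)^{|Z ∩ Y|}`. -/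
def chi (Z Y : Finset S) : ℝ := ∏ x ∈ Z, (if x ∈ Y then (-1 : ℝ) else 1)

lemma chi_eq_pow (Z Y : Finset S) : chi Z Y = (-1 : ℝ) ^ (Z ∩ Y).card := by
  unfold chi
  rw [Finset.prod_ite, Finset.prod_const, Finset.prod_const_one, mul_one, Finset.filter_mem_eq_inter]

lemma chi_comm (Z Y : Finset S) : chi Z Y = chi Y Z := by
  rw [chi_eq_pow, chi_eq_pow, Finset.inter_comm]

lemma chi_symmDiff_right (Z Y Y' : Finset S) :
    chi Z (symmDiff Y Y') = chi Z Y * chi Z Y' := by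
  unfold chi
  rw [← Finset.prod_mul_distrib]
  refine Finset.prod_congr rfl fun x _ => ?_
  by_cases h1 : x ∈ Y <;> by_cases h2 : x ∈ Y' <;> simp [Finset.mem_symmDiff, h1, h2]

lemma chi_symmDiff_left (Z Z' Y : Finset S) :
    chi (symmDiff Z Z') Y = chi Z Y * chi Z' Y := by
  rw [chi_comm, chi_symmDiff_right, chi_comm Y Z, chi_comm Y Z']

lemma chi_sq (Z Y : Finset S) : chi Z Y * chi Z Y = 1 := by
  rw [chi_eq_pow, ← pow_add, ← two_mul, pow_mul]; simp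

lemma chi_empty_left (Y : Finset S) : chi ∅ Y = 1 := by simp [chi]

lemma chi_empty_right (Z : Finset S) : chi Z ∅ = 1 := by simp [chi]

lemma chi_singleton (Z : Finset S) (x : S) :
    chi Z {x} = if x ∈ Z then (-1 : ℝ) else 1 := by
  rw [chi_eq_pow]
  by_cases h : x ∈ Z
  · have : Z ∩ {x} = {x} := by
      ext a; simp only [Finset.mem_inter, Finset.mem_singleton]
      constructor
      · exact fun h => h.2
      · rintro rfl; exact ⟨h, rfl⟩
    simp [this, h]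
  · have : Z ∩ {x} = ∅ := by
      ext a; simp only [Finset.mem_inter, Finset.mem_singleton, Finset.notMem_empty, iff_false]
      rintro ⟨h1, rfl⟩; exact h h1
    simp [this, h]

/-- Involution on finite sets given by `symmDiff` with a fixed set. -/
def sdEquiv (T : Finset S) : Equiv.Perm (Finset S) where
  toFun Z := symmDiff Z T
  invFun Z := symmDiff Z T
  left_inv Z := by simp
  right_inv Z := by simp

@[simp] lemma sdEquiv_apply (T Z : Finset S) : sdEquiv T Z = symmDiff Z T := rfl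

lemma sum_chi_left (Y : Finset S) :
    ∑ Z : Finset S, chi Z Y = if Y = ∅ then (2 : ℝ) ^ Fintype.card S else 0 := by
  split_ifs with h
  · subst h
    simp [chi_empty_right, Fintype.card_finset]
  · obtain ⟨y, hy⟩ := Finset.nonempty_iff_ne_empty.2 h
    have h1 : ∑ Z : Finset S, chi Z Y = ∑ Z : Finset S, chi (symmDiff Z {y}) Y :=
      (Fintype.sum_equiv (sdEquiv {y}) _ _ (fun Z => rfl)).symm
    have h2 : ∀ Z : Finset S, chi (symmDiff Z {y}) Y = - chi Z Y := by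
      intro Z
      rw [chi_symmDiff_left, chi_comm {y} Y, chi_singleton]
      simp [hy]
    simp only [h2, Finset.sum_neg_distrib] at h1
    linarith

lemma sum_chi_right (Z : Finset S) :
    ∑ Y : Finset S, chi Z Y = if Z = ∅ then (2 : ℝ) ^ Fintype.card S else 0 := by
  simp_rw [chi_comm Z]
  exact sum_chi_left Z

/-- Abstract data: commuting reflections `hh Y` (multiplicative in `Y` for symmetric difference),
pair operators `v p` exchanging sectors, and a quadratic form `C` controlling them. -/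
structure SectorData (S : Type*) [Fintype S] [DecidableEq S] (W : Type*)
    [NormedAddCommGroup W] [InnerProductSpace ℝ W] where
  hh : Finset S → (W →L[ℝ] W)
  hh_empty : hh ∅ = 1
  hh_mul : ∀ Y Y', hh Y * hh Y' = hh (symmDiff Y Y')
  hh_symm : ∀ Y x y, inner ℝ (hh Y x) y = inner ℝ x (hh Y y)
  v : S × S → (W →L[ℝ] W)
  v_symm : ∀ p x y, inner ℝ (v p x) y = inner ℝ x (v p y)
  v_comm : ∀ (Y : Finset S) (p : S × S), p.1 ≠ p.2 →
    hh Y * v p = chi {p.1, p.2} Y • (v p * hh Y)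
  v_norm : ∀ p x, ‖v p x‖ ≤ 2 * ‖x‖
  C : W →L[ℝ] W
  up : ∀ (Z : Finset S) (ψ : W), (∀ x, hh {x} ψ = (if x ∈ Z then (-1 : ℝ) else 1) • ψ) →
    ∑ p ∈ ((univ : Finset S).offDiag.filter fun p : S × S => p.1 ∉ Z ∧ p.2 ∉ Z), ‖v p ψ‖ ^ 2
      ≤ 4 * inner ℝ ψ (C ψ)
  C_le : ∀ ψ, inner ℝ ψ (C ψ) ≤ 4 * (Fintype.card S : ℝ) ^ 2 * ‖ψ‖ ^ 2

namespace SectorData

variable (D : SectorData S W)

/-- The joint eigenprojection of the reflections. -/
noncomputable def Q (Z : Finset S) : W →L[ℝ] W :=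
  ((2 : ℝ) ^ Fintype.card S)⁻¹ • ∑ Y : Finset S, chi Z Y • D.hh Y

lemma two_pow_ne : ((2 : ℝ) ^ Fintype.card S) ≠ 0 := by positivity

lemma hh_mul_Q (Y Z : Finset S) : D.hh Y * D.Q Z = chi Z Y • D.Q Z := by
  unfold Q
  rw [mul_smul_comm, smul_comm (chi Z Y)]
  congr 1
  rw [Finset.mul_sum, Finset.smul_sum]
  refine Fintype.sum_equiv (sdEquiv Y) (fun Y' => D.hh Y * (chi Z Y' • D.hh Y'))
    (fun Y' => chi Z Y • (chi Z Y' • D.hh Y')) ?_
  intro Y'
  simp only [sdEquiv_apply]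
  rw [mul_smul_comm, D.hh_mul, chi_symmDiff_right, smul_smul, symmDiff_comm Y' Y]
  congr 1
  calc chi Z Y' = chi Z Y * chi Z Y * chi Z Y' := by rw [chi_sq, one_mul]
    _ = chi Z Y * (chi Z Y' * chi Z Y) := by ring

lemma Q_mul_Q (Z Z' : Finset S) :
    D.Q Z' * D.Q Z = if Z = Z' then D.Q Z else 0 := by
  have h1 : D.Q Z' * D.Q Z
      = ((2 : ℝ) ^ Fintype.card S)⁻¹ • ((∑ Y : Finset S, chi (symmDiff Z' Z) Y) • D.Q Z) := by
    conv_lhs => unfold Q
    conv_lhs => rw [smul_mul_assoc, Finset.sum_mul]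
    congr 1
    rw [Finset.sum_smul]
    refine Finset.sum_congr rfl fun Y _ => ?_
    rw [smul_mul_assoc, chi_symmDiff_left, mul_smul]
    conv_lhs => rw [show D.hh Y * ((2 : ℝ) ^ Fintype.card S)⁻¹ • ∑ Y : Finset S, chi Z Y • D.hh Y
      = D.hh Y * D.Q Z from rfl]
    rw [D.hh_mul_Q]
  rw [h1, sum_chi_right]
  by_cases h : Z = Z'
  · subst h
    simp [two_pow_ne]
  · have : symmDiff Z' Z ≠ ∅ := by
      intro h2
      exact h (symmDiff_eq_bot.1 h2).symm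
    simp [this, h]

lemma Q_idem (Z : Finset S) : D.Q Z * D.Q Z = D.Q Z := by
  rw [Q_mul_Q]; simp

lemma Q_idem_apply (Z : Finset S) (x : W) : D.Q Z (D.Q Z x) = D.Q Z x := by
  have := congrArg (fun f : W →L[ℝ] W => f x) (D.Q_idem Z)
  simpa using this

lemma Q_mul_Q_apply_ne {Z Z' : Finset S} (h : Z ≠ Z') (x : W) : D.Q Z' (D.Q Z x) = 0 := by
  have := congrArg (fun f : W →L[ℝ] W => f x) (D.Q_mul_Q Z Z')
  simpa [h] using this

lemma sum_Q : ∑ Z : Finset S, D.Q Z = 1 := by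
  unfold Q
  rw [← Finset.smul_sum]
  have h : ∑ Z : Finset S, ∑ Y : Finset S, chi Z Y • D.hh Y
      = ∑ Y : Finset S, (∑ Z : Finset S, chi Z Y) • D.hh Y := by
    rw [Finset.sum_comm]
    refine Finset.sum_congr rfl fun Y _ => ?_
    rw [Finset.sum_smul]
  rw [h]
  simp only [sum_chi_left]
  rw [Finset.sum_eq_single ∅]
  · simp [D.hh_empty, two_pow_ne]
  · intro Y _ hY
    simp [hY]
  · simp

lemma sum_Q_apply (x : W) : ∑ Z : Finset S, D.Q Z x = x := by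
  have := congrArg (fun f : W →L[ℝ] W => f x) D.sum_Q
  simpa using this

lemma Q_symm (Z : Finset S) (x y : W) : inner ℝ (D.Q Z x) y = inner ℝ x (D.Q Z y) := by
  simp only [Q, ContinuousLinearMap.smul_apply, ContinuousLinearMap.sum_apply, inner_smul_left,
    inner_smul_right, sum_inner, inner_sum, D.hh_symm]
  simp

lemma inner_eq_sum (x y : W) : inner ℝ x y = ∑ Z : Finset S, inner ℝ (D.Q Z x) (D.Q Z y) := by
  conv_lhs => rw [← D.sum_Q_apply y]
  rw [inner_sum]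
  refine Finset.sum_congr rfl fun Z _ => ?_
  rw [D.Q_symm, D.Q_idem_apply]

lemma norm_sq_eq_sum (x : W) : ‖x‖ ^ 2 = ∑ Z : Finset S, ‖D.Q Z x‖ ^ 2 := by
  rw [← real_inner_self_eq_norm_sq, D.inner_eq_sum]
  simp [real_inner_self_eq_norm_sq]

lemma norm_Q_le (Z : Finset S) (x : W) : ‖D.Q Z x‖ ≤ ‖x‖ := by
  have h := D.norm_sq_eq_sum x
  have h2 : ‖D.Q Z x‖ ^ 2 ≤ ∑ Z : Finset S, ‖D.Q Z x‖ ^ 2 :=
    Finset.single_le_sum (f := fun Z => ‖D.Q Z x‖ ^ 2) (fun _ _ => by positivity) (Finset.mem_univ Z)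
  rw [← h] at h2
  exact (sq_le_sq₀ (norm_nonneg _) (norm_nonneg _)).1 h2

lemma hh_single_Q (x : S) (Z : Finset S) (ψ : W) :
    D.hh {x} (D.Q Z ψ) = (if x ∈ Z then (-1 : ℝ) else 1) • D.Q Z ψ := by
  calc D.hh {x} (D.Q Z ψ) = (D.hh {x} * D.Q Z) ψ := rfl
    _ = (chi Z {x} • D.Q Z) ψ := by rw [D.hh_mul_Q]
    _ = _ := by rw [chi_singleton]; rfl

/-- The pair set of `p`. -/
def pr (p : S × S) : Finset S := {p.1, p.2}

lemma Q_v (Z : Finset S) (p : S × S) (hp : p.1 ≠ p.2) :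
    D.Q Z * D.v p = D.v p * D.Q (symmDiff Z (pr p)) := by
  unfold Q
  rw [smul_mul_assoc, mul_smul_comm, Finset.sum_mul, Finset.mul_sum]
  congr 1
  refine Finset.sum_congr rfl fun Y _ => ?_
  rw [smul_mul_assoc, D.v_comm Y p hp, smul_smul, mul_smul_comm, chi_symmDiff_left]
  rfl

lemma Q_v_apply (Z : Finset S) (p : S × S) (hp : p.1 ≠ p.2) (x : W) :
    D.Q Z (D.v p x) = D.v p (D.Q (symmDiff Z (pr p)) x) := by
  have := congrArg (fun f : W →L[ℝ] W => f x) (D.Q_v Z p hp)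
  simpa using this

/-- `ψ` has no component in sectors of size `> k`. -/
def InS (k : ℕ) (ψ : W) : Prop := ∀ Z : Finset S, k < Z.card → D.Q Z ψ = 0

lemma InS.mono {k l : ℕ} (hkl : k ≤ l) {ψ : W} (h : D.InS k ψ) : D.InS l ψ :=
  fun Z hZ => h Z (lt_of_le_of_lt hkl hZ)

lemma Q_Q_apply (Z' Z : Finset S) (ψ : W) :
    D.Q Z' (D.Q Z ψ) = if Z = Z' then D.Q Z ψ else 0 := by
  by_cases h : Z = Z'
  · subst h; simp [D.Q_idem_apply]
  · simp [h, D.Q_mul_Q_apply_ne h]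

/-- The set of ordered pairs of distinct sites. -/
abbrev pairs (S : Type*) [Fintype S] [DecidableEq S] : Finset (S × S) := (univ : Finset S).offDiag

lemma pairs_ne {p : S × S} (hp : p ∈ pairs S) : p.1 ≠ p.2 := (Finset.mem_offDiag.1 hp).2.2

lemma mem_sd_pr_fst (Z : Finset S) (p : S × S) (hp : p.1 ≠ p.2) :
    p.1 ∈ symmDiff Z (pr p) ↔ p.1 ∉ Z := by
  simp [pr, Finset.mem_symmDiff]

lemma mem_sd_pr_snd (Z : Finset S) (p : S × S) (hp : p.1 ≠ p.2) :
    p.2 ∈ symmDiff Z (pr p) ↔ p.2 ∉ Z := by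
  simp [pr, Finset.mem_symmDiff]

lemma card_le_card_sd_pr (Z : Finset S) (p : S × S) :
    Z.card ≤ (symmDiff Z (pr p)).card + 2 := by
  have h1 : Z ⊆ symmDiff Z (pr p) ∪ pr p := by
    intro x hx
    by_cases hxp : x ∈ pr p
    · exact Finset.mem_union_right _ hxp
    · exact Finset.mem_union_left _ (Finset.mem_symmDiff.2 (Or.inl ⟨hx, hxp⟩))
  have h2 : (pr p).card ≤ 2 := Finset.card_le_two
  have h3 := Finset.card_le_card h1
  have h4 := Finset.card_union_le (symmDiff Z (pr p)) (pr p)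
  omega

section generic

variable (R : S × S → Finset S → Prop) [∀ p Z, Decidable (R p Z)]

/-- The component in sector `Z'` of a restricted sum of `v p (Q Z ψ)`. -/
lemma Q_sectorSum (Z' : Finset S) (ψ : W) :
    D.Q Z' (∑ p ∈ pairs S, ∑ Z ∈ (univ : Finset (Finset S)).filter (R p), D.v p (D.Q Z ψ))
      = ∑ p ∈ (pairs S).filter (fun p => R p (symmDiff Z' (pr p))),
          D.v p (D.Q (symmDiff Z' (pr p)) ψ) := by
  rw [map_sum, Finset.sum_filter]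
  refine Finset.sum_congr rfl fun p hp => ?_
  rw [map_sum]
  have h1 : ∀ Z : Finset S, D.Q Z' (D.v p (D.Q Z ψ))
      = if Z = symmDiff Z' (pr p) then D.v p (D.Q Z ψ) else 0 := by
    intro Z
    rw [D.Q_v_apply Z' p (pairs_ne hp), Q_Q_apply]
    split_ifs <;> simp
  simp only [h1]
  rw [Finset.sum_ite_eq' ]
  simp

lemma norm_sq_sectorSum (c : ℕ)
    (hc : ∀ Z' : Finset S, ((pairs S).filter fun p => R p (symmDiff Z' (pr p))).card ≤ c)
    (ψ : W) :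
    ‖∑ p ∈ pairs S, ∑ Z ∈ (univ : Finset (Finset S)).filter (R p), D.v p (D.Q Z ψ)‖ ^ 2
      ≤ c * ∑ p ∈ pairs S, ∑ Z ∈ (univ : Finset (Finset S)).filter (R p),
          ‖D.v p (D.Q Z ψ)‖ ^ 2 := by
  rw [D.norm_sq_eq_sum]
  have h1 : ∀ Z' : Finset S,
      ‖D.Q Z' (∑ p ∈ pairs S, ∑ Z ∈ (univ : Finset (Finset S)).filter (R p),
          D.v p (D.Q Z ψ))‖ ^ 2
        ≤ c * ∑ p ∈ (pairs S).filter (fun p => R p (symmDiff Z' (pr p))),
            ‖D.v p (D.Q (symmDiff Z' (pr p)) ψ)‖ ^ 2 := by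
    intro Z'
    rw [D.Q_sectorSum R]
    calc ‖∑ p ∈ (pairs S).filter (fun p => R p (symmDiff Z' (pr p))),
            D.v p (D.Q (symmDiff Z' (pr p)) ψ)‖ ^ 2
        ≤ (∑ p ∈ (pairs S).filter (fun p => R p (symmDiff Z' (pr p))),
            ‖D.v p (D.Q (symmDiff Z' (pr p)) ψ)‖) ^ 2 :=
          pow_le_pow_left₀ (norm_nonneg _) (norm_sum_le _ _) 2
      _ ≤ (((pairs S).filter (fun p => R p (symmDiff Z' (pr p)))).card : ℝ) *
            ∑ p ∈ (pairs S).filter (fun p => R p (symmDiff Z' (pr p))),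
              ‖D.v p (D.Q (symmDiff Z' (pr p)) ψ)‖ ^ 2 := sq_sum_le_card_mul_sum_sq
      _ ≤ c * ∑ p ∈ (pairs S).filter (fun p => R p (symmDiff Z' (pr p))),
            ‖D.v p (D.Q (symmDiff Z' (pr p)) ψ)‖ ^ 2 := by
          apply mul_le_mul_of_nonneg_right
          · exact_mod_cast hc Z'
          · exact Finset.sum_nonneg fun _ _ => by positivity
  refine (Finset.sum_le_sum fun Z' _ => h1 Z').trans ?_
  rw [← Finset.mul_sum]
  apply mul_le_mul_of_nonneg_left _ (Nat.cast_nonneg _)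
  simp only [Finset.sum_filter]
  rw [Finset.sum_comm]
  refine le_of_eq (Finset.sum_congr rfl fun p _ => ?_)
  exact Fintype.sum_equiv (sdEquiv (pr p))
    (fun Z' => if R p (symmDiff Z' (pr p)) then ‖D.v p (D.Q (symmDiff Z' (pr p)) ψ)‖ ^ 2 else 0)
    (fun Z => if R p Z then ‖D.v p (D.Q Z ψ)‖ ^ 2 else 0) (fun Z' => rfl)

end generic

/-- The part of the pair sum raising the sector by two sites. -/
noncomputable def Up (ψ : W) : W :=
  ∑ p ∈ pairs S, ∑ Z ∈ (univ : Finset (Finset S)).filter (fun Z => p.1 ∉ Z ∧ p.2 ∉ Z),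
    D.v p (D.Q Z ψ)

/-- The part of the pair sum lowering the sector by two sites. -/
noncomputable def Down (ψ : W) : W :=
  ∑ p ∈ pairs S, ∑ Z ∈ (univ : Finset (Finset S)).filter (fun Z => p.1 ∈ Z ∧ p.2 ∈ Z),
    D.v p (D.Q Z ψ)

/-- The part of the pair sum keeping the size of the sector. -/
noncomputable def Hop (ψ : W) : W :=
  ∑ p ∈ pairs S, ∑ Z ∈ (univ : Finset (Finset S)).filter
      (fun Z => (p.1 ∈ Z ∧ p.2 ∉ Z) ∨ (p.1 ∉ Z ∧ p.2 ∈ Z)),
    D.v p (D.Q Z ψ)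

/-- The full pair operator `V = ½ ∑_{x ≠ y} v_{xy}`. -/
noncomputable def VV : W →L[ℝ] W := (1 / 2 : ℝ) • ∑ p ∈ pairs S, D.v p

lemma VV_apply (ψ : W) : D.VV ψ = (1 / 2 : ℝ) • ∑ p ∈ pairs S, D.v p ψ := by
  simp [VV]

lemma sum_v_eq (ψ : W) : ∑ p ∈ pairs S, D.v p ψ = D.Up ψ + D.Hop ψ + D.Down ψ := by
  unfold Up Hop Down
  rw [← Finset.sum_add_distrib, ← Finset.sum_add_distrib]
  refine Finset.sum_congr rfl fun p _ => ?_
  conv_lhs => rw [← D.sum_Q_apply ψ, map_sum]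
  have : ∀ Z : Finset S, D.v p (D.Q Z ψ)
      = (if p.1 ∉ Z ∧ p.2 ∉ Z then D.v p (D.Q Z ψ) else 0)
        + (if (p.1 ∈ Z ∧ p.2 ∉ Z) ∨ (p.1 ∉ Z ∧ p.2 ∈ Z) then D.v p (D.Q Z ψ) else 0)
        + (if p.1 ∈ Z ∧ p.2 ∈ Z then D.v p (D.Q Z ψ) else 0) := by
    intro Z
    by_cases h1 : p.1 ∈ Z <;> by_cases h2 : p.2 ∈ Z <;> simp [h1, h2]
  simp only [Finset.sum_filter]
  rw [← Finset.sum_add_distrib, ← Finset.sum_add_distrib]
  exact Finset.sum_congr rfl fun Z _ => this Z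

lemma VV_symm (x y : W) : inner ℝ (D.VV x) y = inner ℝ x (D.VV y) := by
  rw [D.VV_apply, D.VV_apply, inner_smul_left, inner_smul_right, sum_inner, inner_sum]
  simp only [map_div₀, map_one, conj_trivial]
  congr 1
  exact Finset.sum_congr rfl fun p _ => D.v_symm p x y

lemma sum_filter_swap (P : Finset (S × S)) (R : S × S → Finset S → Prop)
    [∀ p Z, Decidable (R p Z)] (f : S × S → Finset S → ℝ) :
    ∑ p ∈ P, ∑ Z ∈ (univ : Finset (Finset S)).filter (R p), f p Z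
      = ∑ Z : Finset S, ∑ p ∈ P.filter (fun p => R p Z), f p Z := by
  simp only [Finset.sum_filter]
  rw [Finset.sum_comm]

/-- The inner product with `Down` is the inner product with `Up` on the other side. -/
lemma inner_Down (φ ψ : W) : inner ℝ φ (D.Down ψ) = inner ℝ (D.Up φ) ψ := by
  unfold Up Down
  rw [inner_sum, sum_inner]
  refine Finset.sum_congr rfl fun p hp => ?_
  rw [inner_sum, sum_inner]
  have h := pairs_ne hp
  refine Finset.sum_nbij' (fun Z => symmDiff Z (pr p)) (fun Z => symmDiff Z (pr p)) ?_ ?_ ?_ ?_ ?_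
  · intro Z hZ
    simp only [Finset.mem_filter, Finset.mem_univ, true_and] at hZ ⊢
    rw [mem_sd_pr_fst Z p h, mem_sd_pr_snd Z p h]
    simpa using hZ
  · intro Z hZ
    simp only [Finset.mem_filter, Finset.mem_univ, true_and] at hZ ⊢
    rw [mem_sd_pr_fst Z p h, mem_sd_pr_snd Z p h]
    simpa using hZ
  · intro Z _; simp
  · intro Z _; simp
  · intro Z _
    rw [← D.v_symm, ← D.Q_v_apply Z p h φ, D.Q_symm]

/-- the count of raising pairs into a given sector -/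
lemma card_up_le (k : ℕ) (Z' : Finset S) :
    ((pairs S).filter fun p => (p.1 ∉ symmDiff Z' (pr p) ∧ p.2 ∉ symmDiff Z' (pr p)) ∧
      (symmDiff Z' (pr p)).card ≤ k).card ≤ (k + 2) ^ 2 := by
  by_cases hZ : Z'.card ≤ k + 2
  · have hsub : ((pairs S).filter fun p => (p.1 ∉ symmDiff Z' (pr p) ∧ p.2 ∉ symmDiff Z' (pr p)) ∧
        (symmDiff Z' (pr p)).card ≤ k) ⊆ Z' ×ˢ Z' := by
      intro p hp
      simp only [Finset.mem_filter] at hp
      have h := pairs_ne hp.1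
      rw [mem_sd_pr_fst Z' p h, mem_sd_pr_snd Z' p h] at hp
      simp only [not_not] at hp
      exact Finset.mem_product.2 hp.2.1
    refine (Finset.card_le_card hsub).trans ?_
    rw [Finset.card_product, sq]
    exact Nat.mul_le_mul hZ hZ
  · have : ((pairs S).filter fun p => (p.1 ∉ symmDiff Z' (pr p) ∧ p.2 ∉ symmDiff Z' (pr p)) ∧
        (symmDiff Z' (pr p)).card ≤ k) = ∅ := by
      apply Finset.filter_false_of_mem
      rintro p _ ⟨_, h2⟩
      have := card_le_card_sd_pr Z' p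
      omega
    rw [this]; simp

/-- the count of size-preserving pairs into a given sector -/
lemma card_hop_le (k : ℕ) (Z' : Finset S) :
    ((pairs S).filter fun p =>
      ((p.1 ∈ symmDiff Z' (pr p) ∧ p.2 ∉ symmDiff Z' (pr p)) ∨
        (p.1 ∉ symmDiff Z' (pr p) ∧ p.2 ∈ symmDiff Z' (pr p))) ∧
      (symmDiff Z' (pr p)).card ≤ k).card ≤ 2 * (k + 2) * Fintype.card S := by
  by_cases hZ : Z'.card ≤ k + 2
  · have hsub : ((pairs S).filter fun p =>
        ((p.1 ∈ symmDiff Z' (pr p) ∧ p.2 ∉ symmDiff Z' (pr p)) ∨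
          (p.1 ∉ symmDiff Z' (pr p) ∧ p.2 ∈ symmDiff Z' (pr p))) ∧
        (symmDiff Z' (pr p)).card ≤ k) ⊆ (Z' ×ˢ univ) ∪ (univ ×ˢ Z') := by
      intro p hp
      simp only [Finset.mem_filter] at hp
      have h := pairs_ne hp.1
      rw [mem_sd_pr_fst Z' p h, mem_sd_pr_snd Z' p h] at hp
      simp only [not_not] at hp
      simp only [Finset.mem_union, Finset.mem_product, Finset.mem_univ, and_true, true_and]
      rcases hp.2.1 with h1 | h1
      · exact Or.inr h1.2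
      · exact Or.inl h1.1
    refine (Finset.card_le_card hsub).trans ((Finset.card_union_le _ _).trans ?_)
    rw [Finset.card_product, Finset.card_product, Finset.card_univ]
    have : Z'.card * Fintype.card S ≤ (k + 2) * Fintype.card S := Nat.mul_le_mul_right _ hZ
    have h2 : Fintype.card S * Z'.card ≤ (k + 2) * Fintype.card S := by
      rw [Nat.mul_comm]; exact this
    nlinarith
  · have : ((pairs S).filter fun p =>
        ((p.1 ∈ symmDiff Z' (pr p) ∧ p.2 ∉ symmDiff Z' (pr p)) ∨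
          (p.1 ∉ symmDiff Z' (pr p) ∧ p.2 ∈ symmDiff Z' (pr p))) ∧
        (symmDiff Z' (pr p)).card ≤ k) = ∅ := by
      apply Finset.filter_false_of_mem
      rintro p _ ⟨_, h2⟩
      have := card_le_card_sd_pr Z' p
      omega
    rw [this]; simp

/-- the count of size-preserving pairs out of a given sector -/
lemma card_hop_out_le (k : ℕ) (Z : Finset S) (hZ : Z.card ≤ k) :
    ((pairs S).filter fun p =>
      ((p.1 ∈ Z ∧ p.2 ∉ Z) ∨ (p.1 ∉ Z ∧ p.2 ∈ Z))).card ≤ 2 * k * Fintype.card S := by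
  have hsub : ((pairs S).filter fun p =>
      ((p.1 ∈ Z ∧ p.2 ∉ Z) ∨ (p.1 ∉ Z ∧ p.2 ∈ Z))) ⊆ (Z ×ˢ univ) ∪ (univ ×ˢ Z) := by
    intro p hp
    simp only [Finset.mem_filter] at hp
    simp only [Finset.mem_union, Finset.mem_product, Finset.mem_univ, and_true, true_and]
    rcases hp.2 with h1 | h1
    · exact Or.inl h1.1
    · exact Or.inr h1.2
  refine (Finset.card_le_card hsub).trans ((Finset.card_union_le _ _).trans ?_)
  rw [Finset.card_product, Finset.card_product, Finset.card_univ]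
  have : Z.card * Fintype.card S ≤ k * Fintype.card S := Nat.mul_le_mul_right _ hZ
  have h2 : Fintype.card S * Z.card ≤ k * Fintype.card S := by
    rw [Nat.mul_comm]; exact this
  nlinarith

lemma Up_eq_of_InS {k : ℕ} {ψ : W} (hψ : D.InS k ψ) :
    D.Up ψ = ∑ p ∈ pairs S, ∑ Z ∈ (univ : Finset (Finset S)).filter
      (fun Z => (p.1 ∉ Z ∧ p.2 ∉ Z) ∧ Z.card ≤ k), D.v p (D.Q Z ψ) := by
  unfold Up
  refine Finset.sum_congr rfl fun p _ => ?_
  symm
  apply Finset.sum_subset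
  · intro Z hZ
    simp only [Finset.mem_filter, Finset.mem_univ, true_and] at hZ ⊢
    exact hZ.1
  · intro Z hZ hZ2
    simp only [Finset.mem_filter, Finset.mem_univ, true_and, not_and, not_le] at hZ hZ2
    rw [hψ Z (hZ2 hZ), map_zero]

lemma Hop_eq_of_InS {k : ℕ} {ψ : W} (hψ : D.InS k ψ) :
    D.Hop ψ = ∑ p ∈ pairs S, ∑ Z ∈ (univ : Finset (Finset S)).filter
      (fun Z => ((p.1 ∈ Z ∧ p.2 ∉ Z) ∨ (p.1 ∉ Z ∧ p.2 ∈ Z)) ∧ Z.card ≤ k), D.v p (D.Q Z ψ) := by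
  unfold Hop
  refine Finset.sum_congr rfl fun p _ => ?_
  symm
  apply Finset.sum_subset
  · intro Z hZ
    simp only [Finset.mem_filter, Finset.mem_univ, true_and] at hZ ⊢
    exact hZ.1
  · intro Z hZ hZ2
    simp only [Finset.mem_filter, Finset.mem_univ, true_and, not_and, not_le] at hZ hZ2
    rw [hψ Z (hZ2 hZ), map_zero]

/-- Main estimate for the raising part, quadratic form version. -/
lemma norm_sq_Up_le {k : ℕ} {ψ : W} (hψ : D.InS k ψ) :
    ‖D.Up ψ‖ ^ 2 ≤ ((k + 2) ^ 2 : ℕ) * ∑ Z : Finset S,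
      (if Z.card ≤ k then 4 * inner ℝ (D.Q Z ψ) (D.C (D.Q Z ψ)) else 0) := by
  rw [D.Up_eq_of_InS hψ]
  refine (D.norm_sq_sectorSum
    (fun p Z => (p.1 ∉ Z ∧ p.2 ∉ Z) ∧ Z.card ≤ k) ((k + 2) ^ 2) (fun Z' => ?_) ψ).trans ?_
  · exact card_up_le k Z'
  · apply mul_le_mul_of_nonneg_left _ (Nat.cast_nonneg _)
    rw [sum_filter_swap]
    refine Finset.sum_le_sum fun Z _ => ?_
    by_cases hZ : Z.card ≤ k
    · simp only [hZ, if_true, and_true]
      exact D.up Z (D.Q Z ψ) (fun x => D.hh_single_Q x Z ψ)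
    · simp [hZ]

lemma norm_Up_le {k : ℕ} {ψ : W} (hψ : D.InS k ψ) :
    ‖D.Up ψ‖ ≤ 4 * (k + 2) * (Fintype.card S : ℝ) * ‖ψ‖ := by
  have h1 := D.norm_sq_Up_le hψ
  have h2 : ∑ Z : Finset S, (if Z.card ≤ k then 4 * inner ℝ (D.Q Z ψ) (D.C (D.Q Z ψ)) else 0)
      ≤ ∑ Z : Finset S, 16 * (Fintype.card S : ℝ) ^ 2 * ‖D.Q Z ψ‖ ^ 2 := by
    refine Finset.sum_le_sum fun Z _ => ?_
    have h3 := D.C_le (D.Q Z ψ)
    have h4 : 0 ≤ 16 * (Fintype.card S : ℝ) ^ 2 * ‖D.Q Z ψ‖ ^ 2 := by positivity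
    split_ifs
    · nlinarith
    · exact h4
  rw [← Finset.mul_sum, ← D.norm_sq_eq_sum] at h2
  have h5 : ‖D.Up ψ‖ ^ 2 ≤ (4 * (k + 2) * (Fintype.card S : ℝ) * ‖ψ‖) ^ 2 := by
    refine h1.trans ?_
    have : (((k + 2) ^ 2 : ℕ) : ℝ) = ((k : ℝ) + 2) ^ 2 := by push_cast; ring
    rw [this]
    have h6 : 0 ≤ ((k : ℝ) + 2) ^ 2 := by positivity
    nlinarith [mul_le_mul_of_nonneg_left h2 h6]
  exact (sq_le_sq₀ (norm_nonneg _) (by positivity)).1 h5

lemma norm_Hop_le {k : ℕ} {ψ : W} (hψ : D.InS k ψ) :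
    ‖D.Hop ψ‖ ≤ 4 * (k + 2) * (Fintype.card S : ℝ) * ‖ψ‖ := by
  rw [D.Hop_eq_of_InS hψ]
  have h1 := D.norm_sq_sectorSum
    (fun p Z => ((p.1 ∈ Z ∧ p.2 ∉ Z) ∨ (p.1 ∉ Z ∧ p.2 ∈ Z)) ∧ Z.card ≤ k)
    (2 * (k + 2) * Fintype.card S) (fun Z' => card_hop_le k Z') ψ
  rw [sum_filter_swap] at h1
  have h2 : ∑ Z : Finset S, ∑ p ∈ (pairs S).filter
        (fun p => ((p.1 ∈ Z ∧ p.2 ∉ Z) ∨ (p.1 ∉ Z ∧ p.2 ∈ Z)) ∧ Z.card ≤ k),
        ‖D.v p (D.Q Z ψ)‖ ^ 2
      ≤ ∑ Z : Finset S, (8 * (k + 2) * (Fintype.card S : ℝ)) * ‖D.Q Z ψ‖ ^ 2 := by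
    refine Finset.sum_le_sum fun Z _ => ?_
    by_cases hZ : Z.card ≤ k
    · simp only [hZ, and_true]
      calc ∑ p ∈ (pairs S).filter (fun p => ((p.1 ∈ Z ∧ p.2 ∉ Z) ∨ (p.1 ∉ Z ∧ p.2 ∈ Z))),
            ‖D.v p (D.Q Z ψ)‖ ^ 2
          ≤ ∑ p ∈ (pairs S).filter (fun p => ((p.1 ∈ Z ∧ p.2 ∉ Z) ∨ (p.1 ∉ Z ∧ p.2 ∈ Z))),
              (4 * ‖D.Q Z ψ‖ ^ 2) := by
            refine Finset.sum_le_sum fun p _ => ?_
            have := D.v_norm p (D.Q Z ψ)
            have h0 := norm_nonneg (D.v p (D.Q Z ψ))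
            nlinarith
        _ = (((pairs S).filter (fun p => ((p.1 ∈ Z ∧ p.2 ∉ Z) ∨ (p.1 ∉ Z ∧ p.2 ∈ Z)))).card : ℝ)
              * (4 * ‖D.Q Z ψ‖ ^ 2) := by
            rw [Finset.sum_const, nsmul_eq_mul]
        _ ≤ ((2 * k * Fintype.card S : ℕ) : ℝ) * (4 * ‖D.Q Z ψ‖ ^ 2) := by
            apply mul_le_mul_of_nonneg_right _ (by positivity)
            exact_mod_cast card_hop_out_le k Z hZ
        _ ≤ (8 * (k + 2) * (Fintype.card S : ℝ)) * ‖D.Q Z ψ‖ ^ 2 := by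
            push_cast
            have h3 : 0 ≤ (Fintype.card S : ℝ) * ‖D.Q Z ψ‖ ^ 2 := by positivity
            nlinarith
    · simp only [hZ, and_false, Finset.filter_false, Finset.sum_empty]
      positivity
  rw [← Finset.mul_sum, ← D.norm_sq_eq_sum] at h2
  have h5 : ‖∑ p ∈ pairs S, ∑ Z ∈ (univ : Finset (Finset S)).filter
      (fun Z => ((p.1 ∈ Z ∧ p.2 ∉ Z) ∨ (p.1 ∉ Z ∧ p.2 ∈ Z)) ∧ Z.card ≤ k), D.v p (D.Q Z ψ)‖ ^ 2
      ≤ (4 * (k + 2) * (Fintype.card S : ℝ) * ‖ψ‖) ^ 2 := by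
    refine h1.trans ?_
    have h6 : (0 : ℝ) ≤ ((2 * (k + 2) * Fintype.card S : ℕ) : ℝ) := Nat.cast_nonneg _
    refine (mul_le_mul_of_nonneg_left h2 h6).trans (le_of_eq ?_)
    push_cast
    ring
  exact (sq_le_sq₀ (norm_nonneg _) (by positivity)).1 h5

lemma Down_InS {k : ℕ} {ψ : W} (hψ : D.InS k ψ) : D.InS k (D.Down ψ) := by
  intro Z' hZ'
  unfold Down
  rw [D.Q_sectorSum]
  refine Finset.sum_eq_zero fun p hp => ?_
  simp only [Finset.mem_filter] at hp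
  have h := pairs_ne hp.1
  rw [mem_sd_pr_fst Z' p h, mem_sd_pr_snd Z' p h] at hp
  have hsub : Z' ⊆ symmDiff Z' (pr p) := by
    intro x hx
    refine Finset.mem_symmDiff.2 (Or.inl ⟨hx, ?_⟩)
    simp only [pr, Finset.mem_insert, Finset.mem_singleton]
    rintro (rfl | rfl)
    · exact hp.2.1 hx
    · exact hp.2.2 hx
  have := Finset.card_le_card hsub
  rw [hψ _ (lt_of_lt_of_le hZ' this), map_zero]

lemma norm_Down_le {k : ℕ} {ψ : W} (hψ : D.InS k ψ) :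
    ‖D.Down ψ‖ ≤ 4 * (k + 2) * (Fintype.card S : ℝ) * ‖ψ‖ := by
  have h1 := D.norm_Up_le (D.Down_InS hψ)
  have h2 : ‖D.Down ψ‖ ^ 2 = inner ℝ (D.Up (D.Down ψ)) ψ := by
    rw [← D.inner_Down, real_inner_self_eq_norm_sq]
  have h3 : inner ℝ (D.Up (D.Down ψ)) ψ ≤ ‖D.Up (D.Down ψ)‖ * ‖ψ‖ := real_inner_le_norm _ _
  by_cases h0 : ‖D.Down ψ‖ = 0
  · rw [h0]; positivity
  · have h4 : 0 < ‖D.Down ψ‖ := lt_of_le_of_ne (norm_nonneg _) (Ne.symm h0)
    have h5 : ‖D.Down ψ‖ ^ 2 ≤ (4 * (k + 2) * (Fintype.card S : ℝ) * ‖ψ‖) * ‖D.Down ψ‖ := by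
      rw [h2]
      refine h3.trans ?_
      have := mul_le_mul_of_nonneg_right h1 (norm_nonneg ψ)
      nlinarith
    rw [sq] at h5
    exact le_of_mul_le_mul_right h5 h4

lemma norm_VV_le {k : ℕ} {ψ : W} (hψ : D.InS k ψ) :
    ‖D.VV ψ‖ ≤ 6 * (k + 2) * (Fintype.card S : ℝ) * ‖ψ‖ := by
  rw [D.VV_apply, D.sum_v_eq, norm_smul]
  have h1 := D.norm_Up_le hψ
  have h2 := D.norm_Hop_le hψ
  have h3 := D.norm_Down_le hψ
  have h4 := norm_add₃_le (a := D.Up ψ) (b := D.Hop ψ) (c := D.Down ψ)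
  simp only [norm_div, norm_one, Real.norm_ofNat]
  linarith

lemma VV_InS {k : ℕ} {ψ : W} (hψ : D.InS k ψ) : D.InS (k + 2) (D.VV ψ) := by
  intro Z' hZ'
  rw [D.VV_apply, map_smul, map_sum]
  have : ∑ p ∈ pairs S, D.Q Z' (D.v p ψ) = 0 := by
    refine Finset.sum_eq_zero fun p hp => ?_
    rw [D.Q_v_apply Z' p (pairs_ne hp)]
    have := card_le_card_sd_pr Z' p
    rw [hψ _ (by omega), map_zero]
  rw [this, smul_zero]

/-- The number operator: `N = ∑_x (1 - h_x) / 2`. -/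
noncomputable def NN : W →L[ℝ] W := ∑ x : S, (1 / 2 : ℝ) • (1 - D.hh {x})

lemma hh_comm (Y Y' : Finset S) : D.hh Y * D.hh Y' = D.hh Y' * D.hh Y := by
  rw [D.hh_mul, D.hh_mul, symmDiff_comm]

lemma Q_mul_hh (Z Y : Finset S) : D.Q Z * D.hh Y = D.hh Y * D.Q Z := by
  unfold Q
  rw [smul_mul_assoc, mul_smul_comm, Finset.sum_mul, Finset.mul_sum]
  congr 1
  refine Finset.sum_congr rfl fun Y' _ => ?_
  rw [smul_mul_assoc, mul_smul_comm, D.hh_comm]

lemma Q_hh_apply (Z Y : Finset S) (ψ : W) : D.Q Z (D.hh Y ψ) = D.hh Y (D.Q Z ψ) := by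
  have := congrArg (fun f : W →L[ℝ] W => f ψ) (D.Q_mul_hh Z Y)
  simpa using this

lemma NN_apply (ψ : W) : D.NN ψ = ∑ x : S, (1 / 2 : ℝ) • (ψ - D.hh {x} ψ) := by
  simp [NN]

lemma NN_Q (Z : Finset S) (ψ : W) : D.NN (D.Q Z ψ) = (Z.card : ℝ) • D.Q Z ψ := by
  rw [D.NN_apply]
  have h : ∀ x : S, (1 / 2 : ℝ) • (D.Q Z ψ - D.hh {x} (D.Q Z ψ))
      = (if x ∈ Z then (1 : ℝ) else 0) • D.Q Z ψ := by
    intro x
    rw [D.hh_single_Q]
    by_cases hx : x ∈ Z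
    · simp only [hx, if_true, neg_smul, one_smul, sub_neg_eq_add, ← two_smul ℝ, smul_smul]
      norm_num
    · simp [hx]
  simp only [h]
  rw [← Finset.sum_smul]
  congr 1
  simp

lemma Q_NN (Z : Finset S) (ψ : W) : D.Q Z (D.NN ψ) = (Z.card : ℝ) • D.Q Z ψ := by
  rw [← D.NN_Q, D.NN_apply, D.NN_apply, map_sum]
  refine Finset.sum_congr rfl fun x _ => ?_
  rw [map_smul, map_sub, D.Q_hh_apply]

lemma NN_symm (x y : W) : inner ℝ (D.NN x) y = inner ℝ x (D.NN y) := by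
  rw [D.NN_apply, D.NN_apply, sum_inner, inner_sum]
  refine Finset.sum_congr rfl fun a _ => ?_
  rw [inner_smul_left, inner_smul_right, inner_sub_left, inner_sub_right, D.hh_symm]
  simp

lemma NN_InS {k : ℕ} {ψ : W} (hψ : D.InS k ψ) : D.InS k (D.NN ψ) := by
  intro Z hZ
  rw [D.Q_NN, hψ Z hZ, smul_zero]

lemma norm_NN_le {k : ℕ} {ψ : W} (hψ : D.InS k ψ) : ‖D.NN ψ‖ ≤ k * ‖ψ‖ := by
  have h : ‖D.NN ψ‖ ^ 2 ≤ (k * ‖ψ‖) ^ 2 := by
    rw [D.norm_sq_eq_sum (D.NN ψ), mul_pow, D.norm_sq_eq_sum ψ, Finset.mul_sum]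
    refine Finset.sum_le_sum fun Z _ => ?_
    rw [D.Q_NN, norm_smul, mul_pow]
    by_cases hZ : k < Z.card
    · rw [hψ Z hZ]; simp
    · have hZ := not_lt.1 hZ
      apply mul_le_mul_of_nonneg_right _ (by positivity)
      simp only [Real.norm_natCast]
      have : (Z.card : ℝ) ≤ k := by exact_mod_cast hZ
      exact pow_le_pow_left₀ (Nat.cast_nonneg _) this 2
  exact (sq_le_sq₀ (norm_nonneg _) (by positivity)).1 h

/-- The operator `L = N - V`. -/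
noncomputable def LL : W →L[ℝ] W := D.NN - D.VV

lemma LL_apply (ψ : W) : D.LL ψ = D.NN ψ - D.VV ψ := rfl

lemma LL_symm (x y : W) : inner ℝ (D.LL x) y = inner ℝ x (D.LL y) := by
  rw [D.LL_apply, D.LL_apply, inner_sub_left, inner_sub_right, D.NN_symm, D.VV_symm]

lemma LL_InS {k : ℕ} {ψ : W} (hψ : D.InS k ψ) : D.InS (k + 2) (D.LL ψ) := by
  intro Z hZ
  rw [D.LL_apply, map_sub, D.VV_InS hψ Z hZ, (D.NN_InS hψ) Z (by omega), sub_zero]

lemma norm_LL_le (hm : 1 ≤ Fintype.card S) {k : ℕ} {ψ : W} (hψ : D.InS k ψ) :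
    ‖D.LL ψ‖ ≤ (7 * k + 12) * (Fintype.card S : ℝ) * ‖ψ‖ := by
  rw [D.LL_apply]
  refine (norm_sub_le _ _).trans ?_
  have h1 := D.norm_NN_le hψ
  have h2 := D.norm_VV_le hψ
  have h3 : (1 : ℝ) ≤ Fintype.card S := by exact_mod_cast hm
  have h4 : (k : ℝ) * ‖ψ‖ ≤ k * (Fintype.card S : ℝ) * ‖ψ‖ := by
    have h5 : 0 ≤ (k : ℝ) * ‖ψ‖ := by positivity
    nlinarith
  nlinarith

lemma LL_pow (hm : 1 ≤ Fintype.card S) {ψ : W} (hψ : D.InS 2 ψ) (p : ℕ) :
    D.InS (2 + 2 * p) ((D.LL ^ p) ψ) ∧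
      ‖(D.LL ^ p) ψ‖ ≤ (26 * (Fintype.card S : ℝ)) ^ p * (p.factorial : ℝ) * ‖ψ‖ := by
  induction p with
  | zero => simpa using hψ
  | succ p ih =>
    have h1 : (D.LL ^ (p + 1)) ψ = D.LL ((D.LL ^ p) ψ) := by
      rw [pow_succ']; rfl
    rw [h1]
    refine ⟨?_, ?_⟩
    · have := D.LL_InS ih.1
      exact this
    · have h2 := D.norm_LL_le hm ih.1
      refine h2.trans ?_
      have h3 : (0 : ℝ) ≤ Fintype.card S := Nat.cast_nonneg _
      have h4 : (7 * ((2 + 2 * p : ℕ) : ℝ) + 12) ≤ 26 * ((p : ℝ) + 1) := by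
        push_cast; nlinarith [(Nat.cast_nonneg p : (0 : ℝ) ≤ p)]
      calc (7 * ((2 + 2 * p : ℕ) : ℝ) + 12) * (Fintype.card S : ℝ) * ‖(D.LL ^ p) ψ‖
          ≤ (26 * ((p : ℝ) + 1)) * (Fintype.card S : ℝ) *
              ((26 * (Fintype.card S : ℝ)) ^ p * (p.factorial : ℝ) * ‖ψ‖) := by
            apply mul_le_mul (mul_le_mul_of_nonneg_right h4 h3) ih.2 (norm_nonneg _) (by positivity)
        _ = (26 * (Fintype.card S : ℝ)) ^ (p + 1) * (((p + 1).factorial : ℕ) : ℝ) * ‖ψ‖ := by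
            rw [Nat.factorial_succ]; push_cast; ring

/-- Facts about an invariant vector. -/
lemma InS_zero_of_Q {g : W} (hg : D.Q ∅ g = g) : D.InS 0 g := by
  intro Z hZ
  have hne : (∅ : Finset S) ≠ Z := by
    intro h; subst h; simp at hZ
  rw [← hg]
  exact D.Q_mul_Q_apply_ne hne g

lemma NN_invariant {g : W} (hg : D.Q ∅ g = g) : D.NN g = 0 := by
  rw [← hg, D.NN_Q]; simp

lemma inner_VV_invariant {g : W} (hg : D.Q ∅ g = g) : inner ℝ g (D.VV g) = 0 := by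
  have h1 : D.InS 0 g := D.InS_zero_of_Q hg
  have h2 : D.Q ∅ (D.VV g) = 0 := by
    rw [D.VV_apply, map_smul, map_sum]
    have : ∑ p ∈ pairs S, D.Q ∅ (D.v p g) = 0 := by
      refine Finset.sum_eq_zero fun p hp => ?_
      rw [D.Q_v_apply ∅ p (pairs_ne hp)]
      have h3 : 0 < (symmDiff (∅ : Finset S) (pr p)).card := by
        rw [Finset.card_pos]
        refine ⟨p.1, ?_⟩
        rw [mem_sd_pr_fst ∅ p (pairs_ne hp)]
        simp
      rw [h1 _ h3, map_zero]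
    rw [this, smul_zero]
  rw [← hg, D.Q_symm, hg, h2, inner_zero_right]

lemma inner_LL_invariant {g : W} (hg : D.Q ∅ g = g) : inner ℝ g (D.LL g) = 0 := by
  rw [D.LL_apply, inner_sub_right, D.NN_invariant hg, inner_zero_right, D.inner_VV_invariant hg]
  simp

lemma norm_sq_LL_invariant {g : W} (hg : D.Q ∅ g = g) :
    ‖D.LL g‖ ^ 2 ≤ 4 * inner ℝ g (D.C g) := by
  have h1 : D.InS 0 g := D.InS_zero_of_Q hg
  have hHop : D.Hop g = 0 := by
    unfold Hop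
    refine Finset.sum_eq_zero fun p _ => Finset.sum_eq_zero fun Z hZ => ?_
    simp only [Finset.mem_filter, Finset.mem_univ, true_and] at hZ
    have : 0 < Z.card := by
      rw [Finset.card_pos]
      rcases hZ with h | h
      · exact ⟨_, h.1⟩
      · exact ⟨_, h.2⟩
    rw [h1 Z this, map_zero]
  have hDown : D.Down g = 0 := by
    unfold Down
    refine Finset.sum_eq_zero fun p _ => Finset.sum_eq_zero fun Z hZ => ?_
    simp only [Finset.mem_filter, Finset.mem_univ, true_and] at hZ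
    have : 0 < Z.card := by
      rw [Finset.card_pos]
      exact ⟨_, hZ.1⟩
    rw [h1 Z this, map_zero]
  have h2 : D.LL g = -((1 / 2 : ℝ) • D.Up g) := by
    rw [D.LL_apply, D.NN_invariant hg, D.VV_apply, D.sum_v_eq, hHop, hDown]
    simp
  have h3 := D.norm_sq_Up_le h1
  have h4 : ∑ Z : Finset S, (if Z.card ≤ 0 then 4 * inner ℝ (D.Q Z g) (D.C (D.Q Z g)) else 0)
      = 4 * inner ℝ g (D.C g) := by
    rw [Finset.sum_eq_single ∅]
    · simp [hg]
    · intro Z _ hZ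
      have : ¬ Z.card ≤ 0 := by
        simp [Finset.card_pos.2 (Finset.nonempty_iff_ne_empty.2 hZ), hZ]
      simp [this]
    · simp
  rw [h4] at h3
  rw [h2, norm_neg, norm_smul, mul_pow]
  simp only [norm_div, norm_one, Real.norm_ofNat]
  norm_num at h3 ⊢
  linarith

/-- The Main Lemma: for an invariant vector `g` and small `s`,
`⟨g, exp(s L) g⟩ ≤ ‖g‖² + 4 s² ⟨g, C g⟩`. -/
theorem inner_exp_le [CompleteSpace W] (hm : 1 ≤ Fintype.card S) {g : W} (hg : D.Q ∅ g = g)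
    {s : ℝ} (hs : 0 ≤ s) (hs2 : 52 * (Fintype.card S : ℝ) * s ≤ 1) :
    inner ℝ g (NormedSpace.exp (s • D.LL) g) ≤ ‖g‖ ^ 2 + 4 * s ^ 2 * inner ℝ g (D.C g) := by
  set L := D.LL with hL
  set r : ℝ := 26 * (Fintype.card S : ℝ) * s with hr
  have hr0 : 0 ≤ r := by positivity
  have hr1 : r ≤ 1 / 2 := by rw [hr]; linarith
  -- the scalar series
  have hsum := NormedSpace.exp_series_hasSum_exp' (𝕂 := ℝ) (s • L)
  let Φ : (W →L[ℝ] W) →L[ℝ] ℝ := (innerSL ℝ g).comp (ContinuousLinearMap.apply ℝ W g)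
  have hΦ : ∀ A : W →L[ℝ] W, Φ A = inner ℝ g (A g) := fun A => rfl
  have hsum2 := Φ.hasSum hsum
  rw [hΦ] at hsum2
  set t : ℕ → ℝ := fun n => Φ (((n.factorial : ℝ)⁻¹) • (s • L) ^ n) with ht
  have ht_eq : ∀ n, t n = ((n.factorial : ℝ)⁻¹) * s ^ n * inner ℝ g ((L ^ n) g) := by
    intro n
    simp only [ht, hΦ, smul_pow, ContinuousLinearMap.smul_apply, inner_smul_right]
    ring
  have h0 : t 0 = ‖g‖ ^ 2 := by
    rw [ht_eq]; simp [real_inner_self_eq_norm_sq]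
  have h1' : t 1 = 0 := by
    rw [ht_eq]
    have : inner ℝ g ((L ^ 1) g) = 0 := by
      rw [pow_one]; exact D.inner_LL_invariant hg
    rw [this]; simp
  have hLg : D.InS 2 (L g) := by
    have := D.LL_InS (D.InS_zero_of_Q hg)
    simpa using this
  have hsucc : ∀ n, t (n + 2) ≤ (s ^ 2 / 2 * ‖L g‖ ^ 2) * r ^ n := by
    intro n
    rw [ht_eq]
    have h2 : inner ℝ g ((L ^ (n + 2)) g) = inner ℝ (L g) ((L ^ n) (L g)) := by
      have : (L ^ (n + 2)) g = L ((L ^ n) (L g)) := by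
        rw [pow_succ', pow_succ]; rfl
      rw [this, ← D.LL_symm]
    have h3 := (D.LL_pow hm hLg n).2
    have h4 : inner ℝ (L g) ((L ^ n) (L g)) ≤ ‖L g‖ * ‖(L ^ n) (L g)‖ := real_inner_le_norm _ _
    have h5 : inner ℝ g ((L ^ (n + 2)) g)
        ≤ (26 * (Fintype.card S : ℝ)) ^ n * (n.factorial : ℝ) * ‖L g‖ ^ 2 := by
      rw [h2]
      refine h4.trans ?_
      have := mul_le_mul_of_nonneg_left h3 (norm_nonneg (L g))
      calc ‖L g‖ * ‖(L ^ n) (L g)‖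
          ≤ ‖L g‖ * ((26 * (Fintype.card S : ℝ)) ^ n * (n.factorial : ℝ) * ‖L g‖) := this
        _ = _ := by ring
    have hfac : ((n + 2).factorial : ℝ) = ((n : ℝ) + 2) * ((n : ℝ) + 1) * (n.factorial : ℝ) := by
      rw [Nat.factorial_succ, Nat.factorial_succ]; push_cast; ring
    have hfpos : (0 : ℝ) < (n.factorial : ℝ) := by exact_mod_cast Nat.factorial_pos n
    have hn : (0 : ℝ) ≤ n := Nat.cast_nonneg n
    have h6 : ((n + 2).factorial : ℝ)⁻¹ * s ^ (n + 2) ≥ 0 := by positivity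
    calc ((n + 2).factorial : ℝ)⁻¹ * s ^ (n + 2) * inner ℝ g ((L ^ (n + 2)) g)
        ≤ ((n + 2).factorial : ℝ)⁻¹ * s ^ (n + 2) *
            ((26 * (Fintype.card S : ℝ)) ^ n * (n.factorial : ℝ) * ‖L g‖ ^ 2) :=
          mul_le_mul_of_nonneg_left h5 h6
      _ = (1 / (((n : ℝ) + 2) * ((n : ℝ) + 1))) * (s ^ 2 * ‖L g‖ ^ 2 * r ^ n) := by
          rw [hfac, hr]
          field_simp
          ring
      _ ≤ (1 / 2) * (s ^ 2 * ‖L g‖ ^ 2 * r ^ n) := by
          apply mul_le_mul_of_nonneg_right _ (by positivity)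
          rw [div_le_div_iff₀ (by positivity) (by norm_num)]
          nlinarith
      _ = _ := by ring
  have hgeo : HasSum (fun n => (s ^ 2 / 2 * ‖L g‖ ^ 2) * r ^ n)
      ((s ^ 2 / 2 * ‖L g‖ ^ 2) * (1 - r)⁻¹) :=
    (hasSum_geometric_of_lt_one hr0 (by linarith)).mul_left _
  have hshift : HasSum (fun n => t (n + 2))
      (inner ℝ g (NormedSpace.exp (s • L) g) - ∑ i ∈ Finset.range 2, t i) :=
    (hasSum_nat_add_iff' 2).2 hsum2
  have hle := hasSum_le hsucc hshift hgeo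
  rw [Finset.sum_range_succ, Finset.sum_range_one, h0, h1'] at hle
  have hinv : (1 - r)⁻¹ ≤ 2 := by
    rw [inv_le_comm₀ (by linarith) (by norm_num)]
    linarith
  have h7 : (s ^ 2 / 2 * ‖L g‖ ^ 2) * (1 - r)⁻¹ ≤ s ^ 2 * ‖L g‖ ^ 2 := by
    have : 0 ≤ s ^ 2 / 2 * ‖L g‖ ^ 2 := by positivity
    nlinarith [mul_le_mul_of_nonneg_left hinv this]
  have h8 := D.norm_sq_LL_invariant hg
  have h9 : s ^ 2 * ‖L g‖ ^ 2 ≤ s ^ 2 * (4 * inner ℝ g (D.C g)) :=
    mul_le_mul_of_nonneg_left h8 (by positivity)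
  nlinarith

end SectorData

end Vale.Agent.Lib.P162
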