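import Vale.Agent.Lib.P162.Rep
import Vale.Agent.Lib.P162.Block
import Vale.Agent.Lib.P162.Sector

/-!
P162: instantiation of the sector calculus on two copies `S × Bool`, and the one-step recursion.
-/

namespace Vale.Agent.Lib.P162

open Finset Equiv

set_option linter.unusedSectionVars false

variable {S : Type*} [Fintype S] [DecidableEq S]
variable {W : Type*} [NormedAddCommGroup W] [InnerProductSpace ℝ W]

lemma flipAll_apply (Y : Finset S) (p : S × Bool) :
    flipAll Y p = (p.1, xor p.2 (decide (p.1 ∈ Y))) := rfl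

lemma flipAll_inv (Y : Finset S) : (flipAll Y)⁻¹ = flipAll Y := rfl

lemma flipAll_empty : flipAll (∅ : Finset S) = 1 := by
  ext p <;> simp [flipAll_apply]

lemma flipAll_mul (Y Y' : Finset S) : flipAll Y * flipAll Y' = flipAll (symmDiff Y Y') := by
  ext p
  · simp [flipAll_apply]
  · simp only [Perm.coe_mul, Function.comp_apply, flipAll_apply]
    by_cases h1 : p.1 ∈ Y <;> by_cases h2 : p.1 ∈ Y' <;>
      simp [h1, h2, Finset.mem_symmDiff]

lemma flipAll_singleton (x : S) :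
    flipAll ({x} : Finset S) = swap (x, false) (x, true) := by
  ext ⟨y, b⟩
  · by_cases h : y = x
    · subst h; cases b <;> simp [flipAll_apply]
    · have h1 : (y, b) ≠ (x, false) := fun h2 => h (congrArg Prod.fst h2)
      have h2 : (y, b) ≠ (x, true) := fun h2 => h (congrArg Prod.fst h2)
      simp [flipAll_apply, h, swap_apply_of_ne_of_ne h1 h2]
  · by_cases h : y = x
    · subst h; cases b <;> simp [flipAll_apply]
    · have h1 : (y, b) ≠ (x, false) := fun h2 => h (congrArg Prod.fst h2)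
      have h2 : (y, b) ≠ (x, true) := fun h2 => h (congrArg Prod.fst h2)
      simp [flipAll_apply, h, swap_apply_of_ne_of_ne h1 h2]

/-- conjugation of a swap by a flip -/
lemma flipAll_mul_swap (Y : Finset S) (a b : S × Bool) :
    flipAll Y * swap a b = swap (flipAll Y a) (flipAll Y b) * flipAll Y := by
  rw [Equiv.swap_apply_apply]
  simp [mul_assoc]

/-- The slot transposition `τ^{bc}_{xy}`. -/
noncomputable def tt (ρ : IsoRep (S × Bool) W) (p : S × S) (b c : Bool) : W →L[ℝ] W :=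
  ρ.toHom (swap (p.1, b) (p.2, c))

/-- The pair operator `v_{xy} = ½ (τ^{01} + τ^{10} - τ^{00} - τ^{11})`. -/
noncomputable def vv (ρ : IsoRep (S × Bool) W) (p : S × S) : W →L[ℝ] W :=
  (1 / 2 : ℝ) • (tt ρ p false true + tt ρ p true false - tt ρ p false false - tt ρ p true true)

lemma vv_apply (ρ : IsoRep (S × Bool) W) (p : S × S) (x : W) :
    vv ρ p x = (1 / 2 : ℝ) • (tt ρ p false true x + tt ρ p true false x
      - tt ρ p false false x - tt ρ p true true x) := rfl

lemma tt_symm (ρ : IsoRep (S × Bool) W) (p : S × S) (b c : Bool) (x y : W) :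
    inner ℝ (tt ρ p b c x) y = inner ℝ x (tt ρ p b c y) := ρ.inner_swap _ _ _ _

lemma vv_symm (ρ : IsoRep (S × Bool) W) (p : S × S) (x y : W) :
    inner ℝ (vv ρ p x) y = inner ℝ x (vv ρ p y) := by
  simp only [vv_apply, inner_smul_left, inner_smul_right, inner_sub_left, inner_sub_right,
    inner_add_left, inner_add_right, tt_symm]
  simp

lemma vv_norm (ρ : IsoRep (S × Bool) W) (p : S × S) (x : W) : ‖vv ρ p x‖ ≤ 2 * ‖x‖ := by
  rw [vv_apply, norm_smul]
  have h : ∀ b c, ‖tt ρ p b c x‖ = ‖x‖ := fun b c => ρ.norm_map _ _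
  have h1 : ‖tt ρ p false true x + tt ρ p true false x
      - tt ρ p false false x - tt ρ p true true x‖ ≤ 4 * ‖x‖ := by
    calc _ ≤ ‖tt ρ p false true x + tt ρ p true false x - tt ρ p false false x‖
            + ‖tt ρ p true true x‖ := norm_sub_le _ _
      _ ≤ ‖tt ρ p false true x + tt ρ p true false x‖ + ‖tt ρ p false false x‖
            + ‖tt ρ p true true x‖ := by gcongr; exact norm_sub_le _ _
      _ ≤ ‖tt ρ p false true x‖ + ‖tt ρ p true false x‖ + ‖tt ρ p false false x‖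
            + ‖tt ρ p true true x‖ := by gcongr; exact norm_add_le _ _
      _ = 4 * ‖x‖ := by simp only [h]; ring
  simp only [norm_div, norm_one, Real.norm_ofNat]
  linarith

/-- commutation of a flip with a slot transposition -/
lemma hh_tt (ρ : IsoRep (S × Bool) W) (Y : Finset S) (p : S × S) (b c : Bool) :
    ρ.toHom (flipAll Y) * tt ρ p b c
      = tt ρ p (xor b (decide (p.1 ∈ Y))) (xor c (decide (p.2 ∈ Y))) * ρ.toHom (flipAll Y) := by
  unfold tt
  rw [← map_mul, ← map_mul, flipAll_mul_swap]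
  rfl

lemma chi_pair (Y : Finset S) (p : S × S) (hp : p.1 ≠ p.2) :
    chi {p.1, p.2} Y = (if p.1 ∈ Y then (-1 : ℝ) else 1) * (if p.2 ∈ Y then (-1 : ℝ) else 1) := by
  unfold chi
  rw [Finset.prod_pair hp]

lemma vv_comm (ρ : IsoRep (S × Bool) W) (Y : Finset S) (p : S × S) (hp : p.1 ≠ p.2) :
    ρ.toHom (flipAll Y) * vv ρ p = chi {p.1, p.2} Y • (vv ρ p * ρ.toHom (flipAll Y)) := by
  rw [chi_pair Y p hp]
  unfold vv
  rw [mul_smul_comm, smul_mul_assoc, smul_comm]
  congr 1
  rw [mul_sub, mul_sub, mul_add, hh_tt, hh_tt, hh_tt, hh_tt]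
  by_cases h1 : p.1 ∈ Y <;> by_cases h2 : p.2 ∈ Y <;>
    simp [h1, h2, sub_mul, add_mul] <;> abel

/-- action of the slot transpositions on a doubly invariant vector -/
lemma tt_invariant (ρ : IsoRep (S × Bool) W) (p : S × S) (hp : p.1 ≠ p.2) (ψ : W)
    (h1 : ρ.toHom (flipAll {p.1}) ψ = ψ) (h2 : ρ.toHom (flipAll {p.2}) ψ = ψ) :
    tt ρ p true false ψ = ρ.toHom (flipAll {p.1}) (tt ρ p false false ψ) ∧
    tt ρ p false true ψ = ρ.toHom (flipAll {p.2}) (tt ρ p false false ψ) ∧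
    tt ρ p true true ψ =
      ρ.toHom (flipAll {p.1}) (ρ.toHom (flipAll {p.2}) (tt ρ p false false ψ)) := by
  have hne : p.2 ≠ p.1 := hp.symm
  have e1 : ∀ b c, ρ.toHom (flipAll {p.1}) (tt ρ p b c ψ)
      = tt ρ p (!b) c ψ := by
    intro b c
    have := congrArg (fun f : W →L[ℝ] W => f ψ) (hh_tt ρ {p.1} p b c)
    simp only [ContinuousLinearMap.mul_apply, h1, Finset.mem_singleton, hne, decide_true,
      decide_false, Bool.xor_true, Bool.xor_false] at this
    exact this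
  have e2 : ∀ b c, ρ.toHom (flipAll {p.2}) (tt ρ p b c ψ)
      = tt ρ p b (!c) ψ := by
    intro b c
    have := congrArg (fun f : W →L[ℝ] W => f ψ) (hh_tt ρ {p.2} p b c)
    simp only [ContinuousLinearMap.mul_apply, h2, Finset.mem_singleton, hp, decide_true,
      decide_false, Bool.xor_true, Bool.xor_false] at this
    exact this
  refine ⟨?_, ?_, ?_⟩
  · rw [e1]; rfl
  · rw [e2]; rfl
  · rw [e2, e1]; rfl

lemma vv_invariant (ρ : IsoRep (S × Bool) W) (p : S × S) (hp : p.1 ≠ p.2) (ψ : W)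
    (h1 : ρ.toHom (flipAll {p.1}) ψ = ψ) (h2 : ρ.toHom (flipAll {p.2}) ψ = ψ) :
    ‖vv ρ p ψ‖ ^ 2 ≤ 8 * inner ℝ ψ (ψ - tt ρ p false false ψ) := by
  obtain ⟨e10, e01, e11⟩ := tt_invariant ρ p hp ψ h1 h2
  set hx := ρ.toHom (flipAll {p.1}) with hhx
  set hy := ρ.toHom (flipAll {p.2}) with hhy
  set u := tt ρ p false false ψ with hu
  set e := u - ψ with he
  have hu' : u = e + ψ := by rw [he]; abel
  have hnx : ∀ z, ‖hx z‖ = ‖z‖ := fun z => ρ.norm_map _ _
  have hny : ∀ z, ‖hy z‖ = ‖z‖ := fun z => ρ.norm_map _ _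
  have h3 : vv ρ p ψ = (1 / 2 : ℝ) • (hy e + hx e - e - hx (hy e)) := by
    rw [vv_apply, e10, e01, e11, ← hu, hu']
    simp only [map_add, h1, h2]
    congr 1
    abel
  have h4 : ‖vv ρ p ψ‖ ≤ 2 * ‖e‖ := by
    rw [h3, norm_smul]
    have h5 : ‖hy e + hx e - e - hx (hy e)‖ ≤ 4 * ‖e‖ := by
      calc _ ≤ ‖hy e + hx e - e‖ + ‖hx (hy e)‖ := norm_sub_le _ _
        _ ≤ ‖hy e + hx e‖ + ‖e‖ + ‖hx (hy e)‖ := by gcongr; exact norm_sub_le _ _
        _ ≤ ‖hy e‖ + ‖hx e‖ + ‖e‖ + ‖hx (hy e)‖ := by gcongr; exact norm_add_le _ _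
        _ = 4 * ‖e‖ := by rw [hnx, hnx, hny]; ring
    simp only [norm_div, norm_one, Real.norm_ofNat]
    linarith
  have h6 : ‖e‖ ^ 2 = 2 * inner ℝ ψ (ψ - u) := by
    rw [hu, tt]
    rw [ρ.inner_one_sub_swap]
    rw [he, hu, tt, ← norm_neg]
    simp only [neg_sub]
    ring
  have h7 : ‖vv ρ p ψ‖ ^ 2 ≤ (2 * ‖e‖) ^ 2 := pow_le_pow_left₀ (norm_nonneg _) h4 2
  rw [mul_pow] at h7
  rw [h6] at h7
  linarith

lemma inner_tt_invariant (ρ : IsoRep (S × Bool) W) (p : S × S) (hp : p.1 ≠ p.2) (ψ : W)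
    (h1 : ρ.toHom (flipAll {p.1}) ψ = ψ) (h2 : ρ.toHom (flipAll {p.2}) ψ = ψ) (b c : Bool) :
    inner ℝ ψ (tt ρ p b c ψ) = inner ℝ ψ (tt ρ p false false ψ) := by
  obtain ⟨e10, e01, e11⟩ := tt_invariant ρ p hp ψ h1 h2
  have hx : ∀ z, inner ℝ ψ (ρ.toHom (flipAll {p.1}) z) = inner ℝ ψ z := by
    intro z
    have := ρ.inner_left (flipAll {p.1}) ψ z
    rw [flipAll_inv, h1] at this
    exact this.symm
  have hy : ∀ z, inner ℝ ψ (ρ.toHom (flipAll {p.2}) z) = inner ℝ ψ z := by
    intro z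
    have := ρ.inner_left (flipAll {p.2}) ψ z
    rw [flipAll_inv, h2] at this
    exact this.symm
  cases b <;> cases c
  · rfl
  · rw [e01, hy]
  · rw [e10, hx]
  · rw [e11, hx, hy]

/-- Splitting a sum over ordered pairs of distinct slots. -/
lemma sum_offDiag_slots {A : Type*} [AddCommMonoid A] (f : (S × Bool) × (S × Bool) → A) :
    ∑ q ∈ (univ : Finset (S × Bool)).offDiag, f q
      = ∑ x : S, (f ((x, false), (x, true)) + f ((x, true), (x, false)))
        + ∑ p ∈ (univ : Finset S).offDiag, ∑ b : Bool, ∑ c : Bool, f ((p.1, b), (p.2, c)) := by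
  classical
  -- reorganize as a sum over `(x, y)` and `(b, c)`
  let G : S × S → A := fun r => ∑ b : Bool, ∑ c : Bool,
    if ((r.1, b) : S × Bool) ≠ (r.2, c) then f ((r.1, b), (r.2, c)) else 0
  have h1 : ∑ q ∈ (univ : Finset (S × Bool)).offDiag, f q = ∑ r : S × S, G r := by
    have hoff : ∑ q ∈ (univ : Finset (S × Bool)).offDiag, f q
        = ∑ q : (S × Bool) × (S × Bool), if q.1 ≠ q.2 then f q else 0 := by
      have hf : (univ : Finset (S × Bool)).offDiag
          = (univ : Finset ((S × Bool) × (S × Bool))).filter (fun q => q.1 ≠ q.2) := by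
        ext q; simp [Finset.mem_offDiag]
      rw [hf, Finset.sum_filter]
    rw [hoff]
    rw [Fintype.sum_equiv (Equiv.prodProdProdComm S Bool S Bool)
      (fun q : (S × Bool) × (S × Bool) => if q.1 ≠ q.2 then f q else 0)
      (fun t : (S × S) × (Bool × Bool) =>
        if ((t.1.1, t.2.1) : S × Bool) ≠ (t.1.2, t.2.2)
          then f ((t.1.1, t.2.1), (t.1.2, t.2.2)) else 0)
      (fun q => by rfl)]
    rw [Fintype.sum_prod_type]
    refine Finset.sum_congr rfl fun r _ => ?_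
    rw [Fintype.sum_prod_type]
  have h2 : ∑ r : S × S, G r
      = ∑ r ∈ (univ : Finset S).diag, G r + ∑ r ∈ (univ : Finset S).offDiag, G r := by
    rw [← Finset.sum_union (Finset.disjoint_diag_offDiag _), Finset.diag_union_offDiag]
    rfl
  rw [h1, h2, Finset.sum_diag]
  congr 1
  · refine Finset.sum_congr rfl fun x _ => ?_
    simp [G, Fintype.sum_bool, add_comm]
  · refine Finset.sum_congr rfl fun p hp => ?_
    have hne : p.1 ≠ p.2 := (Finset.mem_offDiag.1 hp).2.2
    refine Finset.sum_congr rfl fun b _ => Finset.sum_congr rfl fun c _ => ?_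
    have : ((p.1, b) : S × Bool) ≠ (p.2, c) := fun h => hne (congrArg Prod.fst h)
    simp [this]

lemma copyHom_swap (b : Bool) (x y : S) :
    copyHom b (swap x y) = swap (x, b) (y, b) := by
  ext ⟨z, c⟩
  · by_cases hc : c = b
    · subst hc
      by_cases h1 : z = x
      · subst h1; simp [copyHom, copyFun]
      · by_cases h2 : z = y
        · subst h2; simp [copyHom, copyFun]
        · have h3 : (z, c) ≠ (x, c) := fun h => h1 (congrArg Prod.fst h)
          have h4 : (z, c) ≠ (y, c) := fun h => h2 (congrArg Prod.fst h)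
          simp [copyHom, copyFun, swap_apply_of_ne_of_ne h1 h2, swap_apply_of_ne_of_ne h3 h4]
    · have h3 : (z, c) ≠ (x, b) := fun h => hc (congrArg Prod.snd h)
      have h4 : (z, c) ≠ (y, b) := fun h => hc (congrArg Prod.snd h)
      simp [copyHom, copyFun, hc, swap_apply_of_ne_of_ne h3 h4]
  · by_cases hc : c = b
    · subst hc
      by_cases h1 : z = x
      · subst h1; simp [copyHom, copyFun]
      · by_cases h2 : z = y
        · subst h2; simp [copyHom, copyFun]
        · have h3 : (z, c) ≠ (x, c) := fun h => h1 (congrArg Prod.fst h)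
          have h4 : (z, c) ≠ (y, c) := fun h => h2 (congrArg Prod.fst h)
          simp [copyHom, copyFun, swap_apply_of_ne_of_ne h1 h2, swap_apply_of_ne_of_ne h3 h4]
    · have h3 : (z, c) ≠ (x, b) := fun h => hc (congrArg Prod.snd h)
      have h4 : (z, c) ≠ (y, b) := fun h => hc (congrArg Prod.snd h)
      simp [copyHom, copyFun, hc, swap_apply_of_ne_of_ne h3 h4]

/-- The raising estimate for the slot operators. -/
lemma up_bound (ρ : IsoRep (S × Bool) W) (Z : Finset S) (ψ : W)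
    (hψ : ∀ x, ρ.toHom (flipAll {x}) ψ = (if x ∈ Z then (-1 : ℝ) else 1) • ψ) :
    ∑ p ∈ ((univ : Finset S).offDiag.filter fun p : S × S => p.1 ∉ Z ∧ p.2 ∉ Z), ‖vv ρ p ψ‖ ^ 2
      ≤ 4 * inner ℝ ψ (ρ.cas univ ψ) := by
  set F : (S × Bool) × (S × Bool) → ℝ :=
    fun q => inner ℝ ψ (ψ - ρ.toHom (swap q.1 q.2) ψ) with hF
  have hF0 : ∀ q, 0 ≤ F q := fun q => ρ.inner_one_sub_swap_nonneg _ _ _
  have h1 : inner ℝ ψ (ρ.cas univ ψ)
      = (1 / 2 : ℝ) * (∑ x : S, (F ((x, false), (x, true)) + F ((x, true), (x, false)))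
        + ∑ p ∈ (univ : Finset S).offDiag, ∑ b : Bool, ∑ c : Bool, F ((p.1, b), (p.2, c))) := by
    rw [ρ.inner_cas, ← sum_offDiag_slots F]
  have h2 : 0 ≤ ∑ x : S, (F ((x, false), (x, true)) + F ((x, true), (x, false))) :=
    Finset.sum_nonneg fun x _ => add_nonneg (hF0 _) (hF0 _)
  have h3 : ∀ p ∈ ((univ : Finset S).offDiag.filter fun p : S × S => p.1 ∉ Z ∧ p.2 ∉ Z),
      ‖vv ρ p ψ‖ ^ 2 ≤ 2 * ∑ b : Bool, ∑ c : Bool, F ((p.1, b), (p.2, c)) := by
    intro p hp
    simp only [Finset.mem_filter, Finset.mem_offDiag, Finset.mem_univ, true_and] at hp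
    have hne := hp.1
    have hx : ρ.toHom (flipAll {p.1}) ψ = ψ := by rw [hψ]; simp [hp.2.1]
    have hy : ρ.toHom (flipAll {p.2}) ψ = ψ := by rw [hψ]; simp [hp.2.2]
    have h4 := vv_invariant ρ p hne ψ hx hy
    have h5 := inner_tt_invariant ρ p hne ψ hx hy
    have h6 : ∀ b c, F ((p.1, b), (p.2, c)) = inner ℝ ψ (ψ - tt ρ p false false ψ) := by
      intro b c
      simp only [hF]
      rw [inner_sub_right, inner_sub_right]
      have := h5 b c
      simp only [tt] at this ⊢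
      rw [this]
    simp only [h6, Fintype.sum_bool]
    linarith
  have h7 : ∑ p ∈ ((univ : Finset S).offDiag.filter fun p : S × S => p.1 ∉ Z ∧ p.2 ∉ Z),
      (2 * ∑ b : Bool, ∑ c : Bool, F ((p.1, b), (p.2, c)))
      ≤ ∑ p ∈ (univ : Finset S).offDiag, (2 * ∑ b : Bool, ∑ c : Bool, F ((p.1, b), (p.2, c))) :=
    Finset.sum_le_sum_of_subset_of_nonneg (Finset.filter_subset _ _)
      (fun p _ _ => mul_nonneg (by norm_num) (Finset.sum_nonneg fun b _ =>
        Finset.sum_nonneg fun c _ => hF0 _))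
  have h8 := Finset.sum_le_sum h3
  have h9 : ∑ p ∈ (univ : Finset S).offDiag, (2 * ∑ b : Bool, ∑ c : Bool, F ((p.1, b), (p.2, c)))
      = 2 * ∑ p ∈ (univ : Finset S).offDiag, ∑ b : Bool, ∑ c : Bool, F ((p.1, b), (p.2, c)) :=
    (Finset.mul_sum _ _ _).symm
  rw [h1]
  linarith

/-- The sector data attached to an isometric action on two copies. -/
noncomputable def sectorData (ρ : IsoRep (S × Bool) W) : SectorData S W where
  hh Y := ρ.toHom (flipAll Y)
  hh_empty := by rw [flipAll_empty, map_one]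
  hh_mul Y Y' := by rw [← map_mul, flipAll_mul]
  hh_symm Y x y := by rw [ρ.inner_left, flipAll_inv]
  v := vv ρ
  v_symm := vv_symm ρ
  v_comm Y p hp := vv_comm ρ Y p hp
  v_norm := vv_norm ρ
  C := ρ.cas univ
  up := up_bound ρ
  C_le ψ := by
    have h := ρ.cas_le univ ψ
    have h2 : ((univ : Finset (S × Bool)).card : ℝ) = 2 * Fintype.card S := by
      rw [Finset.card_univ, Fintype.card_prod, Fintype.card_bool]
      push_cast; ring
    rw [h2] at h
    linarith

/-- The within-copy Casimirs. -/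
noncomputable def casX (ρ : IsoRep (S × Bool) W) : W →L[ℝ] W :=
  (ρ.comp (copyHom false)).cas univ + (ρ.comp (copyHom true)).cas univ

/-- `X = ½ Cas - L`. -/
lemma casX_eq (ρ : IsoRep (S × Bool) W) :
    casX ρ = (1 / 2 : ℝ) • ρ.cas univ - (sectorData ρ).LL := by
  have hcas : ρ.cas univ = (1 / 2 : ℝ) • (∑ x : S, ((1 - ρ.toHom (swap (x, false) (x, true)))
        + (1 - ρ.toHom (swap (x, true) (x, false))))
      + ∑ p ∈ (univ : Finset S).offDiag, ∑ b : Bool, ∑ c : Bool,
          (1 - ρ.toHom (swap (p.1, b) (p.2, c)))) := by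
    unfold IsoRep.cas
    rw [sum_offDiag_slots (fun q => 1 - ρ.toHom (swap q.1 q.2))]
  have hb : ∀ b, (ρ.comp (copyHom b)).cas univ
      = (1 / 2 : ℝ) • ∑ p ∈ (univ : Finset S).offDiag, (1 - tt ρ p b b) := by
    intro b
    unfold IsoRep.cas
    congr 1
    refine Finset.sum_congr rfl fun p _ => ?_
    simp only [IsoRep.comp_apply, copyHom_swap, tt]
  have hNN : (sectorData ρ).NN
      = ∑ x : S, (1 / 2 : ℝ) • (1 - ρ.toHom (swap (x, false) (x, true))) := by
    unfold SectorData.NN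
    refine Finset.sum_congr rfl fun x _ => ?_
    show (1 / 2 : ℝ) • (1 - ρ.toHom (flipAll {x})) = _
    rw [flipAll_singleton]
  have hVV : (sectorData ρ).VV = (1 / 2 : ℝ) • ∑ p ∈ (univ : Finset S).offDiag, vv ρ p := rfl
  set A : W →L[ℝ] W := ∑ x : S, (1 - ρ.toHom (swap (x, false) (x, true))) with hA
  set S00 : W →L[ℝ] W := ∑ p ∈ (univ : Finset S).offDiag, (1 - tt ρ p false false) with hS00
  set S01 : W →L[ℝ] W := ∑ p ∈ (univ : Finset S).offDiag, (1 - tt ρ p false true) with hS01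
  set S10 : W →L[ℝ] W := ∑ p ∈ (univ : Finset S).offDiag, (1 - tt ρ p true false) with hS10
  set S11 : W →L[ℝ] W := ∑ p ∈ (univ : Finset S).offDiag, (1 - tt ρ p true true) with hS11
  have h1 : ∑ x : S, ((1 - ρ.toHom (swap (x, false) (x, true)))
        + (1 - ρ.toHom (swap (x, true) (x, false)))) = A + A := by
    rw [hA, ← Finset.sum_add_distrib]
    refine Finset.sum_congr rfl fun x _ => ?_
    rw [swap_comm (x, true) (x, false)]
  have h2 : ∑ p ∈ (univ : Finset S).offDiag, ∑ b : Bool, ∑ c : Bool,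
      (1 - ρ.toHom (swap (p.1, b) (p.2, c))) = S11 + S10 + (S01 + S00) := by
    simp only [Fintype.sum_bool]
    rw [hS00, hS01, hS10, hS11, ← Finset.sum_add_distrib, ← Finset.sum_add_distrib,
      ← Finset.sum_add_distrib]
    rfl
  have h3 : ∑ p ∈ (univ : Finset S).offDiag, vv ρ p = (1 / 2 : ℝ) • (S00 + S11 - S01 - S10) := by
    rw [hS00, hS01, hS10, hS11, ← Finset.sum_add_distrib, ← Finset.sum_sub_distrib,
      ← Finset.sum_sub_distrib, Finset.smul_sum]
    refine Finset.sum_congr rfl fun p _ => ?_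
    unfold vv
    congr 1
    abel
  have h4 : (sectorData ρ).NN = (1 / 2 : ℝ) • A := by
    rw [hNN, hA, Finset.smul_sum]
  unfold casX
  rw [hcas, hb, hb, h1, h2]
  unfold SectorData.LL
  rw [h4, hVV, h3]
  module

section expLemmas

variable [CompleteSpace W]

lemma exp_add_comm' {x y : W →L[ℝ] W} (h : Commute x y) :
    NormedSpace.exp (x + y) = NormedSpace.exp x * NormedSpace.exp y := by
  letI : NormedAlgebra ℚ (W →L[ℝ] W) := NormedAlgebra.restrictScalars ℚ ℝ _
  exact NormedSpace.exp_add_of_commute h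

lemma pow_symm (A : W →L[ℝ] W) (hA : ∀ x y, inner ℝ (A x) y = inner ℝ x (A y)) (n : ℕ) (x y : W) :
    inner ℝ ((A ^ n) x) y = inner ℝ x ((A ^ n) y) := by
  induction n generalizing x y with
  | zero => simp
  | succ n ih =>
    have h1 : (A ^ (n + 1)) x = (A ^ n) (A x) := by rw [pow_succ]; rfl
    have h2 : (A ^ (n + 1)) y = A ((A ^ n) y) := by rw [pow_succ']; rfl
    rw [h1, h2, ih, hA]

lemma exp_symm (A : W →L[ℝ] W) (hA : ∀ x y, inner ℝ (A x) y = inner ℝ x (A y)) (x y : W) :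
    inner ℝ (NormedSpace.exp A x) y = inner ℝ x (NormedSpace.exp A y) := by
  have hsum := NormedSpace.exp_series_hasSum_exp' (𝕂 := ℝ) A
  let Φ₁ : (W →L[ℝ] W) →L[ℝ] ℝ := (innerSL ℝ y).comp (ContinuousLinearMap.apply ℝ W x)
  let Φ₂ : (W →L[ℝ] W) →L[ℝ] ℝ := (innerSL ℝ x).comp (ContinuousLinearMap.apply ℝ W y)
  have h1 := Φ₁.hasSum hsum
  have h2 := Φ₂.hasSum hsum
  have h3 : Φ₁ (NormedSpace.exp A) = inner ℝ (NormedSpace.exp A x) y := by
    show inner ℝ y (NormedSpace.exp A x) = _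
    rw [real_inner_comm]
  have h4 : Φ₂ (NormedSpace.exp A) = inner ℝ x (NormedSpace.exp A y) := rfl
  rw [← h3, ← h4]
  refine HasSum.unique h1 ?_
  convert h2 using 2 with n
  show inner ℝ y ((((n.factorial : ℝ)⁻¹ • A ^ n)) x) = inner ℝ x ((((n.factorial : ℝ)⁻¹ • A ^ n)) y)
  simp only [ContinuousLinearMap.smul_apply, inner_smul_right]
  rw [real_inner_comm, pow_symm A hA]

lemma inner_exp_add_self (A : W →L[ℝ] W) (hA : ∀ x y, inner ℝ (A x) y = inner ℝ x (A y)) (g : W) :
    inner ℝ g (NormedSpace.exp (A + A) g) = ‖NormedSpace.exp A g‖ ^ 2 := by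
  rw [exp_add_comm' (Commute.refl A), ContinuousLinearMap.mul_apply,
    ← exp_symm A hA, real_inner_self_eq_norm_sq]

lemma one_add_le_exp (A : W →L[ℝ] W) (hA : ∀ x y, inner ℝ (A x) y = inner ℝ x (A y))
    (hpos : ∀ x, 0 ≤ inner ℝ x (A x)) (h : W) :
    ‖h‖ ^ 2 + inner ℝ h (A h) ≤ inner ℝ h (NormedSpace.exp A h) := by
  have hsum := NormedSpace.exp_series_hasSum_exp' (𝕂 := ℝ) A
  let Φ : (W →L[ℝ] W) →L[ℝ] ℝ := (innerSL ℝ h).comp (ContinuousLinearMap.apply ℝ W h)
  have h1 := Φ.hasSum hsum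
  have hnn : ∀ n, 0 ≤ inner ℝ h ((A ^ n) h) := by
    intro n
    obtain ⟨k, hk | hk⟩ := Nat.even_or_odd' n
    · subst hk
      have e : (A ^ (2 * k)) h = (A ^ k) ((A ^ k) h) := by
        rw [two_mul, pow_add]; rfl
      rw [e, ← pow_symm A hA, real_inner_self_eq_norm_sq]
      positivity
    · subst hk
      have e : (A ^ (2 * k + 1)) h = (A ^ k) (A ((A ^ k) h)) := by
        rw [two_mul, pow_succ, pow_add, mul_assoc, ← pow_succ, add_comm k 1, pow_add, pow_one]
        rfl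
      rw [e, ← pow_symm A hA]
      exact hpos _
  have hterm : ∀ n, 0 ≤ Φ (((n.factorial : ℝ)⁻¹) • A ^ n) := by
    intro n
    show 0 ≤ inner ℝ h ((((n.factorial : ℝ)⁻¹) • A ^ n) h)
    simp only [ContinuousLinearMap.smul_apply, inner_smul_right]
    have := hnn n
    positivity
  have h2 := sum_le_hasSum (Finset.range 2) (fun n _ => hterm n) h1
  simp only [Finset.sum_range_succ, Finset.sum_range_zero, zero_add] at h2
  have h3 : Φ (((Nat.factorial 0 : ℝ)⁻¹) • A ^ 0) = ‖h‖ ^ 2 := by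
    show inner ℝ h ((((Nat.factorial 0 : ℝ)⁻¹) • A ^ 0) h) = _
    simp [real_inner_self_eq_norm_sq]
  have h4 : Φ (((Nat.factorial 1 : ℝ)⁻¹) • A ^ 1) = inner ℝ h (A h) := by
    show inner ℝ h ((((Nat.factorial 1 : ℝ)⁻¹) • A ^ 1) h) = _
    simp
  rw [h3, h4] at h2
  exact h2

end expLemmas

section casComm

lemma cas_commute_hom (ρ : IsoRep (S × Bool) W) (σ : Perm (S × Bool)) :
    Commute (ρ.cas univ) (ρ.toHom σ) :=
  (ρ.cas_comm univ σ (by simp)).symm

lemma cas_commute_tt (ρ : IsoRep (S × Bool) W) (p : S × S) (b c : Bool) :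
    Commute (ρ.cas univ) (tt ρ p b c) := cas_commute_hom ρ _

lemma cas_commute_vv (ρ : IsoRep (S × Bool) W) (p : S × S) :
    Commute (ρ.cas univ) (vv ρ p) := by
  unfold vv
  refine Commute.smul_right ?_ _
  exact (((cas_commute_tt ρ p _ _).add_right (cas_commute_tt ρ p _ _)).sub_right
    (cas_commute_tt ρ p _ _)).sub_right (cas_commute_tt ρ p _ _)

lemma cas_commute_VV (ρ : IsoRep (S × Bool) W) :
    Commute (ρ.cas univ) (sectorData ρ).VV := by
  unfold SectorData.VV
  refine Commute.smul_right ?_ _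
  exact Commute.sum_right _ _ _ fun p _ => cas_commute_vv ρ p

lemma cas_commute_NN (ρ : IsoRep (S × Bool) W) :
    Commute (ρ.cas univ) (sectorData ρ).NN := by
  unfold SectorData.NN
  refine Commute.sum_right _ _ _ fun x _ => ?_
  refine Commute.smul_right ?_ _
  exact (Commute.one_right _).sub_right (cas_commute_hom ρ _)

lemma cas_commute_LL (ρ : IsoRep (S × Bool) W) :
    Commute (ρ.cas univ) (sectorData ρ).LL :=
  (cas_commute_NN ρ).sub_right (cas_commute_VV ρ)

lemma cas_commute_Q (ρ : IsoRep (S × Bool) W) (Z : Finset S) :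
    Commute (ρ.cas univ) ((sectorData ρ).Q Z) := by
  unfold SectorData.Q
  refine Commute.smul_right ?_ _
  refine Commute.sum_right _ _ _ fun Y _ => ?_
  exact Commute.smul_right (cas_commute_hom ρ _) _

lemma flipAvg_eq (ρ : IsoRep (S × Bool) W) : flipAvg ρ = (sectorData ρ).Q ∅ := by
  unfold flipAvg SectorData.Q
  congr 1
  refine Finset.sum_congr rfl fun Y _ => ?_
  rw [chi_empty_left, one_smul]
  rfl

end casComm

section main

variable [CompleteSpace W]

lemma cas_symm' (ρ : IsoRep (S × Bool) W) (t : ℝ) (x y : W) :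
    inner ℝ ((t • ρ.cas univ) x) y = inner ℝ x ((t • ρ.cas univ) y) := by
  simp only [ContinuousLinearMap.smul_apply, inner_smul_left, inner_smul_right, ρ.cas_symm]
  simp

/-- The key comparison `⟨g, exp(-s X) g⟩ ≤ ⟨g, exp(-(s/2 - 4 s²) Cas) g⟩` for invariant `g`. -/
theorem inner_exp_casX_le (hm : 1 ≤ Fintype.card S) (ρ : IsoRep (S × Bool) W) {g : W}
    (hg : (sectorData ρ).Q ∅ g = g) {s : ℝ} (hs : 0 ≤ s)
    (hs2 : 52 * (Fintype.card S : ℝ) * s ≤ 1) :
    inner ℝ g (NormedSpace.exp ((-s) • casX ρ) g)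
      ≤ inner ℝ g (NormedSpace.exp ((-(s / 2 - 4 * s ^ 2)) • ρ.cas univ) g) := by
  set D := sectorData ρ with hD
  set Cas := ρ.cas univ with hCas
  set L := D.LL with hL
  set F : W →L[ℝ] W := NormedSpace.exp ((-(s / 4)) • Cas) with hF
  set A : W →L[ℝ] W := (4 * s ^ 2) • Cas with hA
  have hCL : Commute Cas L := cas_commute_LL ρ
  have e1 : (-s) • casX ρ = ((-(s / 4)) • Cas + (-(s / 4)) • Cas) + s • L := by
    rw [casX_eq]
    module
  have c1 : Commute ((-(s / 4)) • Cas + (-(s / 4)) • Cas) (s • L) :=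
    (((hCL.smul_left _).add_left (hCL.smul_left _))).smul_right _
  have c2 : Commute ((-(s / 4)) • Cas) ((-(s / 4)) • Cas) := Commute.refl _
  have e2 : NormedSpace.exp ((-s) • casX ρ) = F * F * NormedSpace.exp (s • L) := by
    rw [e1, exp_add_comm' c1, exp_add_comm' c2]
  have hFL : Commute F (NormedSpace.exp (s • L)) :=
    (((hCL.smul_left _).smul_right _).exp_left).exp_right
  have hFsymm : ∀ x y, inner ℝ (F x) y = inner ℝ x (F y) :=
    exp_symm _ (cas_symm' ρ _)
  have hFQ : Commute F (D.Q ∅) := (((cas_commute_Q ρ ∅).smul_left _)).exp_left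
  set h := F g with hh
  have hQh : D.Q ∅ h = h := by
    have := congrArg (fun f : W →L[ℝ] W => f g) hFQ.eq
    simp only [ContinuousLinearMap.mul_apply, hg] at this
    exact this.symm
  have e3 : inner ℝ g (NormedSpace.exp ((-s) • casX ρ) g)
      = inner ℝ h (NormedSpace.exp (s • L) h) := by
    rw [e2, hh, hFsymm]
    have := congrArg (fun f : W →L[ℝ] W => f g) hFL.eq
    simp only [ContinuousLinearMap.mul_apply] at this
    simp only [ContinuousLinearMap.mul_apply]
    rw [this]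
  have e4 : (-(s / 2 - 4 * s ^ 2)) • Cas = ((-(s / 4)) • Cas + A) + (-(s / 4)) • Cas := by
    rw [hA]
    module
  have c3 : Commute ((-(s / 4)) • Cas) A := (Commute.refl Cas).smul_left _ |>.smul_right _
  have c4 : Commute ((-(s / 4)) • Cas + A) ((-(s / 4)) • Cas) :=
    (Commute.refl _).add_left (c3.symm)
  have e5 : inner ℝ g (NormedSpace.exp ((-(s / 2 - 4 * s ^ 2)) • Cas) g)
      = inner ℝ h (NormedSpace.exp A h) := by
    rw [e4, exp_add_comm' c4, exp_add_comm' c3]
    simp only [ContinuousLinearMap.mul_apply]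
    rw [← hF, ← hFsymm]
  rw [e3, e5]
  have h1 := D.inner_exp_le hm hQh hs hs2
  have hAsymm : ∀ x y, inner ℝ (A x) y = inner ℝ x (A y) := cas_symm' ρ _
  have hApos : ∀ x, 0 ≤ inner ℝ x (A x) := by
    intro x
    simp only [hA, ContinuousLinearMap.smul_apply, inner_smul_right]
    have := ρ.cas_nonneg univ x
    positivity
  have h2 := one_add_le_exp A hAsymm hApos h
  have h3 : inner ℝ h (A h) = 4 * s ^ 2 * inner ℝ h (D.C h) := by
    simp only [hA, ContinuousLinearMap.smul_apply, inner_smul_right]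
    rfl
  linarith

lemma copyHom_comm (σ τ : Perm S) :
    copyHom false σ * copyHom true τ = copyHom true τ * copyHom false σ := by
  ext ⟨x, c⟩ <;> cases c <;> simp [copyHom, copyFun]

lemma cas_commute_of {α : Type*} [DecidableEq α] (ρ' : IsoRep α W) (M : Finset α) (E : W →L[ℝ] W)
    (hE : ∀ σ, Commute E (ρ'.toHom σ)) : Commute E (ρ'.cas M) := by
  unfold IsoRep.cas
  refine Commute.smul_right ?_ _
  exact Commute.sum_right _ _ _ fun p _ => (Commute.one_right _).sub_right (hE _)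

/-- One step of the recursion. -/
theorem step_bound (hm : 1 ≤ Fintype.card S) {s : ℝ} (hs : 0 ≤ s)
    (hs2 : 52 * (Fintype.card S : ℝ) * s ≤ 1)
    (B : IsoRep S W → (W →L[ℝ] W))
    (hB : ∀ (ρ' : IsoRep S W) (g : W),
      ‖B ρ' g‖ ^ 2 ≤ inner ℝ g (NormedSpace.exp ((-s) • ρ'.cas univ) g))
    (hC : ∀ (ρ' : IsoRep S W) (E : W →L[ℝ] W), (∀ σ, Commute E (ρ'.toHom σ)) →
      Commute E (B ρ'))
    (ρ : IsoRep (S × Bool) W) (g : W) :
    ‖B (ρ.comp (copyHom false)) (B (ρ.comp (copyHom true)) (flipAvg ρ g))‖ ^ 2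
      ≤ inner ℝ g (NormedSpace.exp ((-(s / 2 - 4 * s ^ 2)) • ρ.cas univ) g) := by
  set ρ0 := ρ.comp (copyHom false) with hρ0
  set ρ1 := ρ.comp (copyHom true) with hρ1
  set c0 := ρ0.cas univ with hc0
  set c1 := ρ1.cas univ with hc1
  set ghat := flipAvg ρ g with hghat
  have hsym0 : ∀ (t : ℝ) (x y : W), inner ℝ ((t • c0) x) y = inner ℝ x ((t • c0) y) := by
    intro t x y
    simp only [ContinuousLinearMap.smul_apply, inner_smul_left, inner_smul_right, hc0, ρ0.cas_symm]
    simp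
  set E : W →L[ℝ] W := NormedSpace.exp ((-(s / 2)) • c0) with hE
  have hEsym : ∀ x y, inner ℝ (E x) y = inner ℝ x (E y) := exp_symm _ (hsym0 _)
  -- the two copies commute
  have h01 : ∀ σ τ, Commute (ρ0.toHom σ) (ρ1.toHom τ) := by
    intro σ τ
    show ρ.toHom (copyHom false σ) * ρ.toHom (copyHom true τ)
      = ρ.toHom (copyHom true τ) * ρ.toHom (copyHom false σ)
    rw [← map_mul, ← map_mul, copyHom_comm]
  have hc0ρ1 : ∀ τ, Commute c0 (ρ1.toHom τ) := fun τ =>
    (cas_commute_of ρ0 univ (ρ1.toHom τ) (fun σ => (h01 σ τ).symm)).symm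
  have hEρ1 : ∀ τ, Commute E (ρ1.toHom τ) := fun τ => ((hc0ρ1 τ).smul_left _).exp_left
  have hEB : Commute E (B ρ1) := hC ρ1 E hEρ1
  have hc01 : Commute c0 c1 := cas_commute_of ρ1 univ c0 hc0ρ1
  -- step 1
  have e1 : (-s) • c0 = (-(s / 2)) • c0 + (-(s / 2)) • c0 := by module
  have h1 : ‖B ρ0 (B ρ1 ghat)‖ ^ 2 ≤ ‖E (B ρ1 ghat)‖ ^ 2 := by
    have := hB ρ0 (B ρ1 ghat)
    rw [← hc0, e1, inner_exp_add_self _ (hsym0 _)] at this
    exact this
  -- step 2
  have h2 : E (B ρ1 ghat) = B ρ1 (E ghat) := by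
    have := congrArg (fun f : W →L[ℝ] W => f ghat) hEB.eq
    simpa using this
  have h3 : ‖B ρ1 (E ghat)‖ ^ 2 ≤ inner ℝ (E ghat) (NormedSpace.exp ((-s) • c1) (E ghat)) :=
    hB ρ1 (E ghat)
  -- step 3
  have hEc1 : Commute E (NormedSpace.exp ((-s) • c1)) :=
    (((hc01.smul_left _).smul_right _).exp_left).exp_right
  have h4 : inner ℝ (E ghat) (NormedSpace.exp ((-s) • c1) (E ghat))
      = inner ℝ ghat (NormedSpace.exp ((-s) • casX ρ) ghat) := by
    have e2 : (-s) • casX ρ = ((-(s / 2)) • c0 + (-(s / 2)) • c0) + (-s) • c1 := by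
      unfold casX
      rw [← hc0, ← hc1]
      module
    have c2 : Commute ((-(s / 2)) • c0 + (-(s / 2)) • c0) ((-s) • c1) :=
      ((hc01.smul_left _).add_left (hc01.smul_left _)).smul_right _
    rw [e2, exp_add_comm' c2, exp_add_comm' (Commute.refl _), hEsym]
    simp only [ContinuousLinearMap.mul_apply]
    have := congrArg (fun f : W →L[ℝ] W => f ghat) hEc1.eq
    simp only [ContinuousLinearMap.mul_apply] at this
    rw [← hE, this]
  -- step 4
  have hQ : (sectorData ρ).Q ∅ ghat = ghat := by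
    rw [hghat, flipAvg_eq]
    exact (sectorData ρ).Q_idem_apply ∅ g
  have h5 := inner_exp_casX_le hm ρ hQ hs hs2
  -- step 5
  set s' := s / 2 - 4 * s ^ 2 with hs'
  set A : W →L[ℝ] W := (-(s' / 2)) • ρ.cas univ with hA
  have hAsym : ∀ x y, inner ℝ (A x) y = inner ℝ x (A y) := cas_symm' ρ _
  have e3 : (-s') • ρ.cas univ = A + A := by
    rw [hA]; module
  have hFQ : Commute (NormedSpace.exp A) ((sectorData ρ).Q ∅) :=
    ((cas_commute_Q ρ ∅).smul_left _).exp_left
  have h6 : ‖NormedSpace.exp A ghat‖ ≤ ‖NormedSpace.exp A g‖ := by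
    have : NormedSpace.exp A ghat = (sectorData ρ).Q ∅ (NormedSpace.exp A g) := by
      rw [hghat, flipAvg_eq]
      have := congrArg (fun f : W →L[ℝ] W => f g) hFQ.eq
      simpa using this
    rw [this]
    exact (sectorData ρ).norm_Q_le _ _
  have h7 : inner ℝ ghat (NormedSpace.exp ((-s') • ρ.cas univ) ghat)
      ≤ inner ℝ g (NormedSpace.exp ((-s') • ρ.cas univ) g) := by
    rw [e3, inner_exp_add_self A hAsym, inner_exp_add_self A hAsym]
    exact pow_le_pow_left₀ (norm_nonneg _) h6 2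
  rw [h2] at h1
  linarith

end main

end Vale.Agent.Lib.P162
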